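import Vale.Agent.Lib.P358.Basic

/-!
# P358, module TENSOR: the tensor powers of the channel
-/

namespace Vale.Agent.Lib.P358

open Matrix Vale.Agent.AmplitudeDamping
open scoped ComplexOrder

/-- Kraus operators of `gad γ ν` -/
noncomputable def kraus (γ ν : ℝ) : Fin 4 → Matrix (Fin 2) (Fin 2) ℂ :=
  ![!![((Real.sqrt (1 - ν) : ℝ) : ℂ), 0; 0, ((Real.sqrt (1 - ν) * Real.sqrt (1 - γ) : ℝ) : ℂ)],
    !![0, ((Real.sqrt (1 - ν) * Real.sqrt γ : ℝ) : ℂ); 0, 0],
    !![((Real.sqrt ν * Real.sqrt (1 - γ) : ℝ) : ℂ), 0; 0, ((Real.sqrt ν : ℝ) : ℂ)],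
    !![0, 0; ((Real.sqrt ν * Real.sqrt γ : ℝ) : ℂ), 0]]

/-- product Kraus operators -/
noncomputable def krausPow (γ ν : ℝ) (n : ℕ) (w : Fin n → Fin 4) :
    Matrix (Fin n → Fin 2) (Fin n → Fin 2) ℂ :=
  fun i k => ∏ s, kraus γ ν (w s) (i s) (k s)

namespace Tensor

theorem sum_prod {n : ℕ} {κ : Type*} [Fintype κ] (f : Fin n → κ → ℂ) :
    ∑ w : Fin n → κ, ∏ s, f s (w s) = ∏ s, ∑ a, f s a := by
  classical
  rw [Finset.prod_univ_sum, Fintype.piFinset_univ]

theorem sum_cons {n : ℕ} {R : Type*} [AddCommMonoid R] (F : (Fin (n + 1) → Fin 2) → R) :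
    ∑ k, F k = ∑ c : Fin 2, ∑ k : Fin n → Fin 2, F (Fin.cons c k) := by
  rw [← (Fin.consEquiv (fun _ : Fin (n + 1) => Fin 2)).sum_comp, Fintype.sum_prod_type]
  rfl

theorem kraus_apply {γ ν : ℝ} (hγ : γ ∈ Set.Icc (0 : ℝ) 1) (hν : ν ∈ Set.Icc (0 : ℝ) 1)
    (i j k l : Fin 2) :
    gad γ ν (Matrix.single k l 1) i j = ∑ a, kraus γ ν a i k * star (kraus γ ν a j l) := by
  have e1 : (Real.sqrt (1 - ν) : ℂ) * (Real.sqrt (1 - ν) : ℂ) = 1 - ν := by
    rw [← Complex.ofReal_mul, Real.mul_self_sqrt (by linarith [hν.2])]; push_cast; rfl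
  have e2 : (Real.sqrt ν : ℂ) * (Real.sqrt ν : ℂ) = ν := by
    rw [← Complex.ofReal_mul, Real.mul_self_sqrt hν.1]
  have e3 : (Real.sqrt (1 - γ) : ℂ) * (Real.sqrt (1 - γ) : ℂ) = 1 - γ := by
    rw [← Complex.ofReal_mul, Real.mul_self_sqrt (by linarith [hγ.2])]; push_cast; rfl
  have e4 : (Real.sqrt γ : ℂ) * (Real.sqrt γ : ℂ) = γ := by
    rw [← Complex.ofReal_mul, Real.mul_self_sqrt hγ.1]
  fin_cases i <;> fin_cases j <;> fin_cases k <;> fin_cases l <;>
    simp [gad, kraus, Fin.sum_univ_four, Matrix.single]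
  · linear_combination -e1 - ((Real.sqrt (1 - γ) : ℂ) * (Real.sqrt (1 - γ) : ℂ)) * e2 - ν * e3
  · linear_combination -((Real.sqrt γ : ℂ) * (Real.sqrt γ : ℂ)) * e1 - (1 - ν) * e4
  · linear_combination -(Real.sqrt (1 - γ) : ℂ) * e1 - (Real.sqrt (1 - γ) : ℂ) * e2
  · linear_combination -(Real.sqrt (1 - γ) : ℂ) * e1 - (Real.sqrt (1 - γ) : ℂ) * e2
  · linear_combination -((Real.sqrt γ : ℂ) * (Real.sqrt γ : ℂ)) * e2 - ν * e4
  · linear_combination -((Real.sqrt (1 - γ) : ℂ) * (Real.sqrt (1 - γ) : ℂ)) * e1 -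
      (1 - ν) * e3 - e2

/-- trace of the images of the matrix units -/
theorem gad_trace (γ ν : ℝ) (k l : Fin 2) :
    ∑ a, gad γ ν (Matrix.single k l 1) a a = if k = l then 1 else 0 := by
  fin_cases k <;> fin_cases l <;> simp [gad, Fin.sum_univ_two, Matrix.single]

/-- diagonal entries of the images of the matrix units -/
theorem gad_diag_one (γ ν : ℝ) (k l : Fin 2) :
    gad γ ν (Matrix.single k l 1) 1 1 =
      if k = l then (if k = 0 then ((γ * ν : ℝ) : ℂ) else ((1 - γ * (1 - ν) : ℝ) : ℂ)) else 0 := by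
  fin_cases k <;> fin_cases l <;> simp [gad, Matrix.single]

end Tensor

open Tensor

theorem tensorPow_eq_kraus {γ ν : ℝ} (hγ : γ ∈ Set.Icc (0 : ℝ) 1) (hν : ν ∈ Set.Icc (0 : ℝ) 1)
    (n : ℕ) (M : Matrix (Fin n → Fin 2) (Fin n → Fin 2) ℂ) :
    tensorPow (gad γ ν) n M = ∑ w, krausPow γ ν n w * M * (krausPow γ ν n w)ᴴ := by
  ext i j
  rw [Matrix.sum_apply]
  simp only [tensorPow, Matrix.mul_apply, Matrix.conjTranspose_apply, krausPow, star_prod,
    Finset.sum_mul]
  have h1 : ∀ k l : Fin n → Fin 2,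
      (∏ s, gad γ ν (Matrix.single (k s) (l s) 1) (i s) (j s)) * M k l =
      ∑ w : Fin n → Fin 4, (∏ s, kraus γ ν (w s) (i s) (k s)) * M k l *
        ∏ s, star (kraus γ ν (w s) (j s) (l s)) := by
    intro k l
    simp_rw [kraus_apply hγ hν]
    rw [← sum_prod (fun s a => kraus γ ν a (i s) (k s) * star (kraus γ ν a (j s) (l s))),
      Finset.sum_mul]
    apply Finset.sum_congr rfl
    intro w _
    rw [Finset.prod_mul_distrib]
    ring
  simp_rw [h1]
  calc ∑ k : Fin n → Fin 2, ∑ l : Fin n → Fin 2, ∑ w : Fin n → Fin 4,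
        (∏ s, kraus γ ν (w s) (i s) (k s)) * M k l * ∏ s, star (kraus γ ν (w s) (j s) (l s))
      = ∑ k : Fin n → Fin 2, ∑ w : Fin n → Fin 4, ∑ l : Fin n → Fin 2,
        (∏ s, kraus γ ν (w s) (i s) (k s)) * M k l * ∏ s, star (kraus γ ν (w s) (j s) (l s)) := by
        apply Finset.sum_congr rfl
        intro k _
        exact Finset.sum_comm
    _ = ∑ w : Fin n → Fin 4, ∑ k : Fin n → Fin 2, ∑ l : Fin n → Fin 2,
        (∏ s, kraus γ ν (w s) (i s) (k s)) * M k l * ∏ s, star (kraus γ ν (w s) (j s) (l s)) :=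
        Finset.sum_comm
    _ = _ := by
        apply Finset.sum_congr rfl
        intro w _
        exact Finset.sum_comm

theorem tensorPow_posSemidef {γ ν : ℝ} (hγ : γ ∈ Set.Icc (0 : ℝ) 1)
    (hν : ν ∈ Set.Icc (0 : ℝ) 1) (n : ℕ) {M : Matrix (Fin n → Fin 2) (Fin n → Fin 2) ℂ}
    (hM : M.PosSemidef) : (tensorPow (gad γ ν) n M).PosSemidef := by
  rw [tensorPow_eq_kraus hγ hν]
  exact Matrix.posSemidef_sum _ fun w _ => hM.mul_mul_conjTranspose_same _

/-- complete positivity -/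
theorem tensorPow_fromBlocks_posSemidef {γ ν : ℝ} (hγ : γ ∈ Set.Icc (0 : ℝ) 1)
    (hν : ν ∈ Set.Icc (0 : ℝ) 1) (n : ℕ)
    {X Y Y' Z : Matrix (Fin n → Fin 2) (Fin n → Fin 2) ℂ}
    (hM : (fromBlocks X Y Y' Z).PosSemidef) :
    (fromBlocks (tensorPow (gad γ ν) n X) (tensorPow (gad γ ν) n Y) (tensorPow (gad γ ν) n Y')
      (tensorPow (gad γ ν) n Z)).PosSemidef := by
  have h : fromBlocks (tensorPow (gad γ ν) n X) (tensorPow (gad γ ν) n Y)
      (tensorPow (gad γ ν) n Y') (tensorPow (gad γ ν) n Z) =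
      ∑ w, fromBlocks (krausPow γ ν n w) 0 0 (krausPow γ ν n w) * fromBlocks X Y Y' Z *
        (fromBlocks (krausPow γ ν n w) 0 0 (krausPow γ ν n w))ᴴ := by
    simp only [tensorPow_eq_kraus hγ hν, fromBlocks_conjTranspose, fromBlocks_multiply,
      conjTranspose_zero, Matrix.zero_mul, Matrix.mul_zero, add_zero, zero_add]
    ext i j
    rw [Matrix.sum_apply]
    rcases i with i | i <;> rcases j with j | j <;>
      simp [fromBlocks, Matrix.sum_apply]
  rw [h]
  exact Matrix.posSemidef_sum _ fun w _ => hM.mul_mul_conjTranspose_same _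

theorem tensorPow_trace (γ ν : ℝ) (n : ℕ) (M : Matrix (Fin n → Fin 2) (Fin n → Fin 2) ℂ) :
    (tensorPow (gad γ ν) n M).trace = M.trace := by
  simp only [Matrix.trace, Matrix.diag, tensorPow]
  calc ∑ i : Fin n → Fin 2, ∑ k : Fin n → Fin 2, ∑ l : Fin n → Fin 2,
        (∏ s, gad γ ν (Matrix.single (k s) (l s) 1) (i s) (i s)) * M k l
      = ∑ k : Fin n → Fin 2, ∑ l : Fin n → Fin 2, ∑ i : Fin n → Fin 2,
        (∏ s, gad γ ν (Matrix.single (k s) (l s) 1) (i s) (i s)) * M k l := by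
        rw [Finset.sum_comm]
        apply Finset.sum_congr rfl
        intro k _
        exact Finset.sum_comm
    _ = ∑ k : Fin n → Fin 2, ∑ l : Fin n → Fin 2, (if k = l then 1 else 0) * M k l := by
        apply Finset.sum_congr rfl
        intro k _
        apply Finset.sum_congr rfl
        intro l _
        rw [← Finset.sum_mul,
          sum_prod (fun s a => gad γ ν (Matrix.single (k s) (l s) 1) a a)]
        congr 1
        simp_rw [gad_trace]
        by_cases h : k = l
        · subst h; simp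
        · rw [if_neg h]
          obtain ⟨s, hs⟩ := Function.ne_iff.1 h
          exact Finset.prod_eq_zero (Finset.mem_univ s) (if_neg hs)
    _ = ∑ k : Fin n → Fin 2, M k k := by simp

theorem tensorPow_zero (Φ : Matrix (Fin 2) (Fin 2) ℂ → Matrix (Fin 2) (Fin 2) ℂ)
    (M : Matrix (Fin 0 → Fin 2) (Fin 0 → Fin 2) ℂ) : tensorPow Φ 0 M = M := by
  ext i j
  simp only [tensorPow, Finset.univ_eq_empty, Finset.prod_empty, one_mul]
  rw [Fintype.sum_unique, Fintype.sum_unique]
  exact congrArg₂ M (Subsingleton.elim _ _) (Subsingleton.elim _ _)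

namespace Tensor

theorem blk_tensorPow (Φ : Matrix (Fin 2) (Fin 2) ℂ → Matrix (Fin 2) (Fin 2) ℂ) (n : ℕ)
    (M : Matrix (Fin (n + 1) → Fin 2) (Fin (n + 1) → Fin 2) ℂ) (a b : Fin 2) :
    blk (tensorPow Φ (n + 1) M) a b =
      ∑ c, ∑ d, Φ (Matrix.single c d 1) a b • tensorPow Φ n (blk M c d) := by
  ext i j
  simp only [Matrix.sum_apply, Matrix.smul_apply, smul_eq_mul, blk, tensorPow]
  rw [sum_cons]
  apply Finset.sum_congr rfl
  intro c _
  calc ∑ k : Fin n → Fin 2, ∑ l : Fin (n + 1) → Fin 2,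
        (∏ s, Φ (Matrix.single ((Fin.cons c k : Fin (n + 1) → Fin 2) s) (l s) 1)
          ((Fin.cons a i : Fin (n + 1) → Fin 2) s) ((Fin.cons b j : Fin (n + 1) → Fin 2) s)) *
          M (Fin.cons c k) l
      = ∑ k : Fin n → Fin 2, ∑ d : Fin 2, ∑ l : Fin n → Fin 2,
        Φ (Matrix.single c d 1) a b * ((∏ s, Φ (Matrix.single (k s) (l s) 1) (i s) (j s)) *
          M (Fin.cons c k) (Fin.cons d l)) := by
        apply Finset.sum_congr rfl
        intro k _
        rw [sum_cons]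
        apply Finset.sum_congr rfl
        intro d _
        apply Finset.sum_congr rfl
        intro l _
        rw [Fin.prod_univ_succ]
        simp only [Fin.cons_zero, Fin.cons_succ]
        ring
    _ = ∑ d : Fin 2, ∑ k : Fin n → Fin 2, ∑ l : Fin n → Fin 2,
        Φ (Matrix.single c d 1) a b * ((∏ s, Φ (Matrix.single (k s) (l s) 1) (i s) (j s)) *
          M (Fin.cons c k) (Fin.cons d l)) := Finset.sum_comm
    _ = _ := by
        apply Finset.sum_congr rfl
        intro d _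
        rw [Finset.mul_sum]
        apply Finset.sum_congr rfl
        intro k _
        rw [Finset.mul_sum]

end Tensor

/-- the first qubit split off -/
theorem tensorPow_succ_blk (γ ν : ℝ) (n : ℕ)
    (M : Matrix (Fin (n + 1) → Fin 2) (Fin (n + 1) → Fin 2) ℂ) :
    fromBlocks (blk (tensorPow (gad γ ν) (n + 1) M) 0 0) (blk (tensorPow (gad γ ν) (n + 1) M) 0 1)
        (blk (tensorPow (gad γ ν) (n + 1) M) 1 0) (blk (tensorPow (gad γ ν) (n + 1) M) 1 1) =
      gadBlock γ ν (tensorPow (gad γ ν) n (blk M 0 0)) (tensorPow (gad γ ν) n (blk M 0 1))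
        (tensorPow (gad γ ν) n (blk M 1 0)) (tensorPow (gad γ ν) n (blk M 1 1)) := by
  rw [gadBlock]
  congr 1 <;>
    (rw [blk_tensorPow]; simp only [Fin.sum_univ_two]; simp [gad, Matrix.single])

/-- block form as a reindexing -/
theorem exists_equiv_blk (n : ℕ) : ∃ e : (Fin n → Fin 2) ⊕ (Fin n → Fin 2) ≃ (Fin (n + 1) → Fin 2),
    ∀ M : Matrix (Fin (n + 1) → Fin 2) (Fin (n + 1) → Fin 2) ℂ,
      M.submatrix e e = fromBlocks (blk M 0 0) (blk M 0 1) (blk M 1 0) (blk M 1 1) := by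
  refine ⟨⟨Sum.elim (fun i => Fin.cons 0 i) (fun i => Fin.cons 1 i),
    fun x => if x 0 = 0 then Sum.inl (Fin.tail x) else Sum.inr (Fin.tail x), ?_, ?_⟩, ?_⟩
  · rintro (i | i) <;> simp
  · intro x
    by_cases h : x 0 = 0
    · simp only [h, if_true, Sum.elim_inl]
      rw [← h, Fin.cons_self_tail]
    · have h1 : x 0 = 1 := by
        have := x 0
        omega
      simp only [h, if_false, Sum.elim_inr]
      rw [← h1, Fin.cons_self_tail]
  · intro M
    ext i j
    rcases i with i | i <;> rcases j with j | j <;> rfl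

namespace Tensor

theorem sum_ite_prod {n : ℕ} (s : Fin n) (g : Fin n → Fin 2 → ℂ) :
    ∑ i : Fin n → Fin 2, (if i s = 1 then ∏ t, g t (i t) else 0) =
      g s 1 * ∏ t ∈ Finset.univ.erase s, ∑ a, g t a := by
  have h1 : ∀ i : Fin n → Fin 2, (if i s = 1 then ∏ t, g t (i t) else 0) =
      ∏ t, (if t = s then (if i t = 1 then g t (i t) else 0) else g t (i t)) := by
    intro i
    by_cases h : i s = 1
    · rw [if_pos h]
      apply Finset.prod_congr rfl
      intro t _
      by_cases ht : t = s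
      · subst ht; simp [h]
      · simp [ht]
    · rw [if_neg h]
      symm
      apply Finset.prod_eq_zero (Finset.mem_univ s)
      simp [h]
  simp_rw [h1]
  rw [sum_prod (fun t a => if t = s then (if a = 1 then g t a else 0) else g t a),
    ← Finset.mul_prod_erase _ _ (Finset.mem_univ s)]
  congr 1
  · simp
  · apply Finset.prod_congr rfl
    intro t ht
    have : t ≠ s := Finset.ne_of_mem_erase ht
    simp [this]

end Tensor

theorem pop_tensorPow {γ ν : ℝ} (hγ : γ ∈ Set.Icc (0 : ℝ) 1) (hν : ν ∈ Set.Icc (0 : ℝ) 1)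
    (n : ℕ) (M : Matrix (Fin n → Fin 2) (Fin n → Fin 2) ℂ) (s : Fin n) :
    pop (tensorPow (gad γ ν) n M) s 1 =
      γ * ν * pop M s 0 + (1 - γ * (1 - ν)) * pop M s 1 := by
  have key : ∑ i : Fin n → Fin 2, (if i s = 1 then tensorPow (gad γ ν) n M i i else 0) =
      ∑ k : Fin n → Fin 2, (if k s = 0 then ((γ * ν : ℝ) : ℂ) else
        ((1 - γ * (1 - ν) : ℝ) : ℂ)) * M k k := by
    simp only [tensorPow]
    calc ∑ i : Fin n → Fin 2, (if i s = 1 then ∑ k : Fin n → Fin 2, ∑ l : Fin n → Fin 2,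
          (∏ t, gad γ ν (Matrix.single (k t) (l t) 1) (i t) (i t)) * M k l else 0)
        = ∑ i : Fin n → Fin 2, ∑ k : Fin n → Fin 2, ∑ l : Fin n → Fin 2,
          (if i s = 1 then ∏ t, gad γ ν (Matrix.single (k t) (l t) 1) (i t) (i t) else 0) *
            M k l := by
          apply Finset.sum_congr rfl
          intro i _
          by_cases h : i s = 1
          · simp [h]
          · simp [h]
      _ = ∑ k : Fin n → Fin 2, ∑ l : Fin n → Fin 2, ∑ i : Fin n → Fin 2,
          (if i s = 1 then ∏ t, gad γ ν (Matrix.single (k t) (l t) 1) (i t) (i t) else 0) *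
            M k l := by
          rw [Finset.sum_comm]
          apply Finset.sum_congr rfl
          intro k _
          exact Finset.sum_comm
      _ = ∑ k : Fin n → Fin 2, ∑ l : Fin n → Fin 2, (if k = l then
            (if k s = 0 then ((γ * ν : ℝ) : ℂ) else ((1 - γ * (1 - ν) : ℝ) : ℂ)) else 0) *
            M k l := by
          apply Finset.sum_congr rfl
          intro k _
          apply Finset.sum_congr rfl
          intro l _
          rw [← Finset.sum_mul,
            sum_ite_prod s (fun t a => gad γ ν (Matrix.single (k t) (l t) 1) a a)]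
          congr 1
          simp_rw [gad_trace]
          rw [gad_diag_one]
          by_cases h : k = l
          · subst h; simp
          · rw [if_neg h]
            obtain ⟨t, ht⟩ := Function.ne_iff.1 h
            by_cases hts : t = s
            · subst hts; simp [ht]
            · rw [Finset.prod_eq_zero (Finset.mem_erase.2 ⟨hts, Finset.mem_univ t⟩) (if_neg ht),
                mul_zero]
      _ = _ := by simp [ite_mul]
  have h1 := congrArg Complex.re key
  rw [Complex.re_sum, Complex.re_sum] at h1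
  have h2 : pop (tensorPow (gad γ ν) n M) s 1 = ∑ i : Fin n → Fin 2,
      (if i s = 1 then tensorPow (gad γ ν) n M i i else 0).re := by
    rw [pop]
    apply Finset.sum_congr rfl
    intro i _
    split_ifs <;> simp
  rw [h2, h1, pop, pop, Finset.mul_sum, Finset.mul_sum, ← Finset.sum_add_distrib]
  apply Finset.sum_congr rfl
  intro k _
  have h3 : k s = 0 ∨ k s = 1 := by
    have := k s
    omega
  rcases h3 with h | h
  · rw [h]
    simp only [if_true, Complex.re_ofReal_mul]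
    simp
  · rw [h]
    simp only [if_true, Complex.re_ofReal_mul, one_ne_zero, if_false]
    simp

theorem pop_nonneg {n : ℕ} {M : Matrix (Fin n → Fin 2) (Fin n → Fin 2) ℂ} (hM : M.PosSemidef)
    (s : Fin n) (b : Fin 2) : 0 ≤ pop M s b := by
  apply Finset.sum_nonneg
  intro k _
  split_ifs
  · exact (Complex.nonneg_iff.1 hM.diag_nonneg).1
  · exact le_rfl

theorem pop_add {n : ℕ} (M : Matrix (Fin n → Fin 2) (Fin n → Fin 2) ℂ) (s : Fin n) :
    pop M s 0 + pop M s 1 = M.trace.re := by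
  rw [pop, pop, ← Finset.sum_add_distrib, Matrix.trace, Complex.re_sum]
  apply Finset.sum_congr rfl
  intro k _
  have h3 : k s = 0 ∨ k s = 1 := by
    have := k s
    omega
  rcases h3 with h | h <;> simp [h]

theorem pop_blk_zero {n : ℕ} (M : Matrix (Fin (n + 1) → Fin 2) (Fin (n + 1) → Fin 2) ℂ)
    (b : Fin 2) : pop M 0 b = (blk M b b).trace.re := by
  rw [pop, sum_cons, Matrix.trace, Complex.re_sum]
  simp only [Fin.cons_zero]
  rw [Finset.sum_comm]
  apply Finset.sum_congr rfl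
  intro k _
  simp [blk]

theorem pop_blk_succ {n : ℕ} (M : Matrix (Fin (n + 1) → Fin 2) (Fin (n + 1) → Fin 2) ℂ)
    (s : Fin n) (b : Fin 2) : pop M s.succ b = pop (blk M 0 0) s b + pop (blk M 1 1) s b := by
  rw [pop, sum_cons, Fin.sum_univ_two, pop, pop]
  simp [blk]

end Vale.Agent.Lib.P358
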