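import Vale.Agent.Lib.P358.Ent
import Vale.Agent.Lib.P358.Tensor

/-!
# P358, module ACH: product ensembles
-/

namespace Vale.Agent.Lib.P358

open Matrix Vale.Agent.AmplitudeDamping
open scoped ComplexOrder

namespace Ach

/-- product matrices -/
def pm {n : ℕ} (A : Fin n → Matrix (Fin 2) (Fin 2) ℂ) :
    Matrix (Fin n → Fin 2) (Fin n → Fin 2) ℂ :=
  fun i j => ∏ s, A s (i s) (j s)

theorem pm_mul {n : ℕ} (A B : Fin n → Matrix (Fin 2) (Fin 2) ℂ) :
    pm A * pm B = pm (fun s => A s * B s) := by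
  ext i j
  simp only [Matrix.mul_apply, pm]
  rw [← Tensor.sum_prod (fun s b => A s (i s) b * B s b (j s))]
  exact Finset.sum_congr rfl fun k _ => (Finset.prod_mul_distrib).symm

theorem pm_conjTranspose {n : ℕ} (A : Fin n → Matrix (Fin 2) (Fin 2) ℂ) :
    (pm A)ᴴ = pm (fun s => (A s)ᴴ) := by
  ext i j
  simp only [Matrix.conjTranspose_apply, pm, star_prod]

theorem pm_diagonal {n : ℕ} (d : Fin n → Fin 2 → ℝ) :
    pm (fun s => diagonal (fun b => (d s b : ℂ)))
      = diagonal (fun k => ((∏ s, d s (k s) : ℝ) : ℂ)) := by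
  ext i j
  simp only [pm]
  by_cases h : i = j
  · subst h
    simp
  · rw [diagonal_apply_ne _ h]
    obtain ⟨s, hs⟩ := Function.ne_iff.mp h
    exact Finset.prod_eq_zero (Finset.mem_univ s) (diagonal_apply_ne _ hs)

theorem pm_one {n : ℕ} : pm (fun _ : Fin n => (1 : Matrix (Fin 2) (Fin 2) ℂ)) = 1 := by
  have h := pm_diagonal (fun (_ : Fin n) (_ : Fin 2) => (1 : ℝ))
  simpa using h

theorem pm_trace {n : ℕ} (A : Fin n → Matrix (Fin 2) (Fin 2) ℂ) :
    (pm A).trace = ∏ s, (A s).trace := by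
  simp only [Matrix.trace, pm, Matrix.diag_apply]
  exact Tensor.sum_prod (fun s b => A s b b)

theorem pm_posSemidef {n : ℕ} (A : Fin n → Matrix (Fin 2) (Fin 2) ℂ)
    (hA : ∀ s, (A s).PosSemidef) : (pm A).PosSemidef := by
  have h : ∀ s, ∃ B : Matrix (Fin 2) (Fin 2) ℂ, A s = Bᴴ * B := fun s =>
    exists_factor (hA s)
  choose B hB using h
  have h2 : pm A = (pm B)ᴴ * pm B := by
    rw [pm_conjTranspose, pm_mul]
    congr 1
    funext s
    exact hB s
  rw [h2]
  exact posSemidef_conjTranspose_mul_self _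

/-- the Leibniz rule for `negMulLog` -/
theorem negMulLog_prod {κ : Type*} [DecidableEq κ] (S : Finset κ) (x : κ → ℝ) :
    Real.negMulLog (∏ s ∈ S, x s)
      = ∑ s ∈ S, ∏ t ∈ S, (if t = s then Real.negMulLog (x t) else x t) := by
  induction S using Finset.induction_on with
  | empty => simp
  | insert a S ha ih =>
    rw [Finset.prod_insert ha, Real.negMulLog_mul, ih, Finset.sum_insert ha,
      Finset.prod_insert ha, if_pos rfl]
    have h1 : ∏ t ∈ S, (if t = a then Real.negMulLog (x t) else x t) = ∏ t ∈ S, x t := by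
      apply Finset.prod_congr rfl
      intro t ht
      rw [if_neg]
      rintro rfl
      exact ha ht
    have h2 : ∑ s ∈ S, ∏ t ∈ insert a S, (if t = s then Real.negMulLog (x t) else x t)
        = x a * ∑ s ∈ S, ∏ t ∈ S, (if t = s then Real.negMulLog (x t) else x t) := by
      rw [Finset.mul_sum]
      apply Finset.sum_congr rfl
      intro s hs
      rw [Finset.prod_insert ha, if_neg]
      rintro rfl
      exact ha hs
    rw [h1, h2]
    ring

theorem sum_negMulLog_prod {n : ℕ} (d : Fin n → Fin 2 → ℝ) (hd : ∀ s, ∑ b, d s b = 1) :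
    ∑ k : Fin n → Fin 2, Real.negMulLog (∏ s, d s (k s))
      = ∑ s, ∑ b, Real.negMulLog (d s b) := by
  have h0 : ∀ k : Fin n → Fin 2, Real.negMulLog (∏ s, d s (k s))
      = ∑ s, ∏ t, (if t = s then Real.negMulLog (d t (k t)) else d t (k t)) := fun k =>
    negMulLog_prod Finset.univ (fun s => d s (k s))
  rw [Finset.sum_congr rfl fun k _ => h0 k, Finset.sum_comm]
  apply Finset.sum_congr rfl
  intro s _
  have h1 : ∑ k : Fin n → Fin 2, ∏ t, (if t = s then Real.negMulLog (d t (k t)) else d t (k t))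
      = ∏ t, ∑ b, (if t = s then Real.negMulLog (d t b) else d t b) := by
    rw [Finset.prod_univ_sum, Fintype.piFinset_univ]
  rw [h1]
  have h2 : ∀ t, ∑ b, (if t = s then Real.negMulLog (d t b) else d t b)
      = if t = s then ∑ b, Real.negMulLog (d s b) else 1 := by
    intro t
    by_cases h : t = s
    · subst h; simp
    · simp only [if_neg h]; exact hd t
  rw [Finset.prod_congr rfl fun t _ => h2 t]
  simp

/-- additivity of the entropy -/
theorem eta_pm {n : ℕ} (A : Fin n → Matrix (Fin 2) (Fin 2) ℂ) (hA : ∀ s, (A s).PosSemidef)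
    (htr : ∀ s, (A s).trace = 1) : eta (pm A) = ∑ s, eta (A s) := by
  let l : Fin n → Fin 2 → ℝ := fun s => (hA s).isHermitian.eigenvalues
  let U : Fin n → Matrix (Fin 2) (Fin 2) ℂ := fun s =>
    ((hA s).isHermitian.eigenvectorUnitary : Matrix (Fin 2) (Fin 2) ℂ)
  have hU : ∀ s, (U s)ᴴ * U s = 1 := fun s =>
    Unitary.coe_star_mul_self (hA s).isHermitian.eigenvectorUnitary
  have hspec : ∀ s, A s = U s * diagonal (fun b => (l s b : ℂ)) * (U s)ᴴ := by
    intro s
    have h := (hA s).isHermitian.spectral_theorem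
    rw [Unitary.conjStarAlgAut_apply] at h
    exact h
  have hl0 : ∀ s b, 0 ≤ l s b := fun s b => (hA s).eigenvalues_nonneg b
  have hl1 : ∀ s, ∑ b, l s b = 1 := by
    intro s
    have h := (hA s).isHermitian.trace_eq_sum_eigenvalues
    rw [htr s] at h
    have h2 : ((∑ b, l s b : ℝ) : ℂ) = ((1 : ℝ) : ℂ) := by
      push_cast
      exact h.symm
    exact_mod_cast h2
  have h1 : pm A = pm U * diagonal (fun k => ((∏ s, l s (k s) : ℝ) : ℂ)) * (pm U)ᴴ := by
    rw [← pm_diagonal, pm_mul, pm_conjTranspose, pm_mul]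
    congr 1
    funext s
    exact hspec s
  have h2 : (pm U)ᴴ * pm U = 1 := by
    rw [pm_conjTranspose, pm_mul, ← pm_one]
    congr 1
    funext s
    exact hU s
  have hprod : ∀ k : Fin n → Fin 2, 0 ≤ ∏ s, l s (k s) := fun k =>
    Finset.prod_nonneg fun s _ => hl0 s _
  rw [h1, eta_unitary (posSemidef_diagonal _ hprod) h2, eta_diagonal _ hprod,
    sum_negMulLog_prod l hl1]
  apply Finset.sum_congr rfl
  intro s _
  rw [eta_eq (hA s).isHermitian]

theorem gad_linear (γ ν : ℝ) (A : Matrix (Fin 2) (Fin 2) ℂ) (i j : Fin 2) :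
    gad γ ν A i j = ∑ a, ∑ b, gad γ ν (Matrix.single a b 1) i j * A a b := by
  fin_cases i <;> fin_cases j <;> simp [gad, Fin.sum_univ_two, Matrix.single]

theorem tensorPow_pm (γ ν : ℝ) {n : ℕ} (A : Fin n → Matrix (Fin 2) (Fin 2) ℂ) :
    tensorPow (gad γ ν) n (pm A) = pm (fun s => gad γ ν (A s)) := by
  ext i j
  simp only [tensorPow, pm]
  have h1 : ∀ k : Fin n → Fin 2, ∑ l : Fin n → Fin 2,
      (∏ s, gad γ ν (Matrix.single (k s) (l s) 1) (i s) (j s)) * ∏ s, A s (k s) (l s)
      = ∏ s, ∑ b, gad γ ν (Matrix.single (k s) b 1) (i s) (j s) * A s (k s) b := by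
    intro k
    rw [← Tensor.sum_prod
      (fun s b => gad γ ν (Matrix.single (k s) b 1) (i s) (j s) * A s (k s) b)]
    exact Finset.sum_congr rfl fun l _ => Finset.prod_mul_distrib.symm
  rw [Finset.sum_congr rfl fun k _ => h1 k]
  rw [Tensor.sum_prod
    (fun s a => ∑ b, gad γ ν (Matrix.single a b 1) (i s) (j s) * A s a b)]
  exact Finset.prod_congr rfl fun s _ => (gad_linear γ ν (A s) (i s) (j s)).symm

theorem gad_posSemidef {γ ν : ℝ} (hγ : γ ∈ Set.Icc (0 : ℝ) 1) (hν : ν ∈ Set.Icc (0 : ℝ) 1)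
    {A : Matrix (Fin 2) (Fin 2) ℂ} (hA : A.PosSemidef) : (gad γ ν A).PosSemidef := by
  have h : gad γ ν A = ∑ a, kraus γ ν a * A * (kraus γ ν a)ᴴ := by
    ext i j
    rw [gad_linear, Matrix.sum_apply]
    simp_rw [Tensor.kraus_apply hγ hν]
    simp only [Matrix.mul_apply, Matrix.conjTranspose_apply, Finset.sum_mul]
    calc ∑ k, ∑ l, ∑ a, kraus γ ν a i k * star (kraus γ ν a j l) * A k l
        = ∑ a, ∑ l, ∑ k, kraus γ ν a i k * A k l * star (kraus γ ν a j l) := by
          rw [Finset.sum_comm]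
          rw [Finset.sum_congr rfl fun l _ => Finset.sum_comm]
          rw [Finset.sum_comm]
          exact Finset.sum_congr rfl fun a _ => Finset.sum_congr rfl fun l _ =>
            Finset.sum_congr rfl fun k _ => by ring
      _ = _ := rfl
  rw [h]
  exact Matrix.posSemidef_sum _ fun a _ => hA.mul_mul_conjTranspose_same _

/-- amplitudes of the pure states -/
noncomputable def amp (q : ℝ) (b : Bool) : Fin 2 → ℂ :=
  ![((Real.sqrt (1 - q) : ℝ) : ℂ), if b then ((Real.sqrt q : ℝ) : ℂ) else -((Real.sqrt q : ℝ) : ℂ)]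

/-- the pure states -/
noncomputable def st (q : ℝ) (b : Bool) : Matrix (Fin 2) (Fin 2) ℂ :=
  vecMulVec (amp q b) (star (amp q b))

theorem st_posSemidef (q : ℝ) (b : Bool) : (st q b).PosSemidef :=
  posSemidef_vecMulVec_self_star _

theorem st_eq {q : ℝ} (hq : q ∈ Set.Icc (0 : ℝ) 1) (b : Bool) :
    st q b = !![((1 - q : ℝ) : ℂ), (if b then 1 else -1) * ((Real.sqrt (1 - q) * Real.sqrt q : ℝ) : ℂ);
      (if b then 1 else -1) * ((Real.sqrt (1 - q) * Real.sqrt q : ℝ) : ℂ), (q : ℂ)] := by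
  have e1 : (Real.sqrt (1 - q) : ℂ) * (Real.sqrt (1 - q) : ℂ) = 1 - q := by
    rw [← Complex.ofReal_mul, Real.mul_self_sqrt (by linarith [hq.2])]; push_cast; rfl
  have e2 : (Real.sqrt q : ℂ) * (Real.sqrt q : ℂ) = q := by
    rw [← Complex.ofReal_mul, Real.mul_self_sqrt hq.1]
  ext i j
  fin_cases i <;> fin_cases j <;> cases b <;>
    simp [st, amp, vecMulVec_apply, e1, e2, mul_comm]

theorem st_trace {q : ℝ} (hq : q ∈ Set.Icc (0 : ℝ) 1) (b : Bool) : (st q b).trace = 1 := by
  rw [st_eq hq, Matrix.trace_fin_two]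
  simp

theorem gad_trace' (γ ν : ℝ) (A : Matrix (Fin 2) (Fin 2) ℂ) : (gad γ ν A).trace = A.trace := by
  simp only [gad, Matrix.trace_fin_two, Matrix.of_apply, Matrix.cons_val', Matrix.cons_val_zero,
    Matrix.cons_val_one, Matrix.cons_val_fin_one]
  push_cast
  ring

theorem gad_st_det {γ ν : ℝ} (hγ : γ ∈ Set.Icc (0 : ℝ) 1) {q : ℝ} (hq : q ∈ Set.Icc (0 : ℝ) 1)
    (b : Bool) : (gad γ ν (st q b)).det
      = ((γ * ν * (1 - ν) + γ * (1 - γ) * (q - ν) ^ 2 : ℝ) : ℂ) := by
  rw [st_eq hq, Matrix.det_fin_two]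
  have e1 : (Real.sqrt (1 - q) : ℂ) * (Real.sqrt (1 - q) : ℂ) = 1 - q := by
    rw [← Complex.ofReal_mul, Real.mul_self_sqrt (by linarith [hq.2])]; push_cast; rfl
  have e2 : (Real.sqrt q : ℂ) * (Real.sqrt q : ℂ) = q := by
    rw [← Complex.ofReal_mul, Real.mul_self_sqrt hq.1]
  have e3 : (Real.sqrt (1 - γ) : ℂ) * (Real.sqrt (1 - γ) : ℂ) = 1 - γ := by
    rw [← Complex.ofReal_mul, Real.mul_self_sqrt (by linarith [hγ.2])]; push_cast; rfl
  have e4 : (Real.sqrt (1 - γ) : ℂ) * ((Real.sqrt (1 - q) : ℂ) * (Real.sqrt q : ℂ))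
      * ((Real.sqrt (1 - γ) : ℂ) * ((Real.sqrt (1 - q) : ℂ) * (Real.sqrt q : ℂ)))
      = (1 - γ) * ((1 - q) * q) := by
    rw [← e1, ← e2, ← e3]
    ring
  cases b
  · simp only [gad, Matrix.of_apply, Matrix.cons_val', Matrix.cons_val_zero,
      Matrix.cons_val_one, Matrix.cons_val_fin_one]
    push_cast
    linear_combination -e4
  · simp only [gad, Matrix.of_apply, Matrix.cons_val', Matrix.cons_val_zero,
      Matrix.cons_val_one, Matrix.cons_val_fin_one]
    push_cast
    linear_combination -e4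

theorem eta_gad_st {γ ν : ℝ} (hγ : γ ∈ Set.Icc (0 : ℝ) 1) (hν : ν ∈ Set.Icc (0 : ℝ) 1) {q : ℝ}
    (hq : q ∈ Set.Icc (0 : ℝ) 1) (b : Bool) :
    eta (gad γ ν (st q b)) = pureEntropy γ ν q * Real.log 2 := by
  have hl : Real.log 2 ≠ 0 := (Real.log_pos (by norm_num)).ne'
  rw [eta_two (gad_posSemidef hγ hν (st_posSemidef q b)), gad_trace', st_trace hq, gad_st_det hγ hq]
  unfold pureEntropy h₂ ent2
  rw [div_mul_cancel₀ _ hl, Real.binEntropy_eq_negMulLog_add_negMulLog_one_sub]
  rw [Complex.ofReal_re, Complex.one_re, one_pow]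
  congr 2
  ring

end Ach

open Ach

/-- The ensemble of the `2 ^ n` product states with amplitudes `(√(1-q), ± √q)`, equal weights. -/
theorem achieve {γ ν : ℝ} (hγ : γ ∈ Set.Icc (0 : ℝ) 1) (hν : ν ∈ Set.Icc (0 : ℝ) 1)
    {q : ℝ} (hq : q ∈ Set.Icc (0 : ℝ) 1) (n : ℕ) :
    (n : ℝ) * (h₂ ((1 - γ) * q + γ * ν) - pureEntropy γ ν q) ∈
      holevoValues (tensorPow (gad γ ν) n) := by
  have hl : Real.log 2 ≠ 0 := (Real.log_pos (by norm_num)).ne'
  let e := Fintype.equivFin (Fin n → Bool)
  have hcard : ((Fintype.card (Fin n → Bool) : ℕ) : ℝ) = 2 ^ n := by simp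
  refine ⟨Fintype.card (Fin n → Bool), fun _ => ((Fintype.card (Fin n → Bool) : ℕ) : ℝ)⁻¹,
    fun a => pm (fun s => st q (e.symm a s)), ?_, ?_, ?_, ?_⟩
  · intro a; positivity
  · rw [Finset.sum_const, Finset.card_univ, Fintype.card_fin, nsmul_eq_mul]
    exact mul_inv_cancel₀ (by rw [hcard]; positivity)
  · intro a
    refine ⟨pm_posSemidef _ fun s => st_posSemidef _ _, ?_⟩
    rw [pm_trace]
    exact Finset.prod_eq_one fun s _ => st_trace hq _
  · set t : ℝ := (1 - γ) * q + γ * ν with ht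
    have ht0 : 0 ≤ t := by
      have h1 := hγ.1; have h2 := hγ.2; have h3 := hν.1; have h4 := hq.1
      have h5 : 0 ≤ (1 - γ) * q := mul_nonneg (by linarith) h4
      have h6 : 0 ≤ γ * ν := mul_nonneg h1 h3
      linarith
    have ht1 : t ≤ 1 := by
      have h1 := hγ.1; have h2 := hγ.2; have h3 := hν.2; have h4 := hq.2
      have h5 : (1 - γ) * q ≤ (1 - γ) * 1 := mul_le_mul_of_nonneg_left h4 (by linarith)
      have h6 : γ * ν ≤ γ * 1 := mul_le_mul_of_nonneg_left h3 h1
      linarith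
    let dt : Fin 2 → ℝ := ![1 - t, t]
    have hdt : ∀ b, 0 ≤ dt b := by
      intro b
      fin_cases b
      · show 0 ≤ 1 - t
        linarith
      · exact ht0
    -- the average state
    have havg : ∑ a : Fin (Fintype.card (Fin n → Bool)),
        ((((Fintype.card (Fin n → Bool) : ℕ) : ℝ)⁻¹ : ℝ) : ℂ) •
          tensorPow (gad γ ν) n (pm (fun s => st q (e.symm a s)))
        = pm (fun _ => diagonal (fun b => (dt b : ℂ))) := by
      rw [hcard]
      have h1 : ∑ a : Fin (Fintype.card (Fin n → Bool)), (((2 ^ n : ℝ)⁻¹ : ℝ) : ℂ) •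
          tensorPow (gad γ ν) n (pm (fun s => st q (e.symm a s)))
          = ∑ w : Fin n → Bool, (((2 ^ n : ℝ)⁻¹ : ℝ) : ℂ) •
            tensorPow (gad γ ν) n (pm (fun s => st q (w s))) :=
        e.symm.sum_comp (fun w : Fin n → Bool => (((2 ^ n : ℝ)⁻¹ : ℝ) : ℂ) •
            tensorPow (gad γ ν) n (pm (fun s => st q (w s))))
      rw [h1]
      ext i j
      rw [Matrix.sum_apply]
      simp only [Matrix.smul_apply, tensorPow_pm, smul_eq_mul]
      simp only [pm]
      rw [← Finset.mul_sum]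
      rw [Tensor.sum_prod (fun s w => gad γ ν (st q w) (i s) (j s))]
      have h2 : (((2 ^ n : ℝ)⁻¹ : ℝ) : ℂ) = ∏ _s : Fin n, (1 / 2 : ℂ) := by
        rw [Finset.prod_const, Finset.card_univ, Fintype.card_fin]
        push_cast
        rw [one_div, inv_pow]
      rw [h2, ← Finset.prod_mul_distrib]
      apply Finset.prod_congr rfl
      intro s _
      rw [Fintype.sum_bool]
      generalize i s = x
      generalize j s = y
      rw [st_eq hq, st_eq hq]
      fin_cases x <;> fin_cases y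
      · simp [gad, dt, ht]
        ring
      · simp [gad]
      · simp [gad]
      · simp [gad, dt, ht]
        ring
    have hent1 : entropy (∑ a : Fin (Fintype.card (Fin n → Bool)),
        ((((Fintype.card (Fin n → Bool) : ℕ) : ℝ)⁻¹ : ℝ) : ℂ) •
          tensorPow (gad γ ν) n (pm (fun s => st q (e.symm a s)))) = n * h₂ t := by
      rw [havg, entropy_eq, eta_pm _ (fun _ => posSemidef_diagonal _ hdt)]
      · rw [Finset.sum_const, Finset.card_univ, Fintype.card_fin, nsmul_eq_mul,
          eta_diagonal _ hdt, mul_div_assoc]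
        congr 1
        unfold h₂
        rw [Real.binEntropy_eq_negMulLog_add_negMulLog_one_sub, Fin.sum_univ_two]
        simp [dt]
        ring
      · intro _
        rw [Matrix.trace_diagonal, Fin.sum_univ_two]
        simp [dt]
    have hent2 : ∀ a : Fin (Fintype.card (Fin n → Bool)),
        entropy (tensorPow (gad γ ν) n (pm (fun s => st q (e.symm a s))))
          = n * pureEntropy γ ν q := by
      intro a
      rw [tensorPow_pm, entropy_eq, eta_pm _ (fun s => gad_posSemidef hγ hν (st_posSemidef _ _))]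
      · rw [Finset.sum_congr rfl fun s _ => eta_gad_st hγ hν hq _, Finset.sum_const,
          Finset.card_univ, Fintype.card_fin, nsmul_eq_mul, ← mul_assoc, mul_div_assoc,
          div_self hl, mul_one]
      · intro s
        rw [gad_trace', st_trace hq]
    rw [hent1]
    simp_rw [hent2]
    rw [Finset.sum_const, Finset.card_univ, Fintype.card_fin, nsmul_eq_mul, ← mul_assoc,
      mul_inv_cancel₀ (by rw [hcard]; positivity), one_mul]
    ring

namespace Ach

theorem entropy_submatrix {a b : Type*} [Fintype a] [DecidableEq a] [Fintype b] [DecidableEq b]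
    (M : Matrix a a ℂ) (e : b ≃ a) : entropy (M.submatrix e e) = entropy M := by
  classical
  by_cases h : M.IsHermitian
  · have h2 : (M.submatrix e e).IsHermitian := h.submatrix e
    unfold entropy
    rw [dif_pos h, dif_pos h2]
    congr 1
    have key : ∀ {c : Type _} [Fintype c] [DecidableEq c] (N : Matrix c c ℂ) (hN : N.IsHermitian),
        ∑ i, Real.negMulLog (hN.eigenvalues i)
          = (N.charpoly.roots.map (fun z : ℂ => Real.negMulLog z.re)).sum := by
      intro c _ _ N hN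
      rw [hN.roots_charpoly_eq_eigenvalues, Multiset.map_map]
      exact Finset.sum_congr rfl fun i _ => by simp
    rw [key _ h]
    have key2 : ∑ i, Real.negMulLog (h2.eigenvalues i)
          = ((M.submatrix e e).charpoly.roots.map (fun z : ℂ => Real.negMulLog z.re)).sum := by
      rw [h2.roots_charpoly_eq_eigenvalues, Multiset.map_map]
      exact Finset.sum_congr rfl fun i _ => by simp
    rw [key2]
    have h3 : (M.submatrix e e).charpoly = M.charpoly := by
      have := Matrix.charpoly_reindex e.symm M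
      rwa [Matrix.reindex_apply, Equiv.symm_symm] at this
    rw [h3]
  · have h2 : ¬ (M.submatrix e e).IsHermitian := by
      intro h3
      apply h
      have := h3.submatrix e.symm
      rwa [Matrix.submatrix_submatrix, Equiv.self_comp_symm, Matrix.submatrix_id_id] at this
    unfold entropy
    rw [dif_neg h, dif_neg h2]

/-- one site -/
def e1 : Fin 2 ≃ (Fin 1 → Fin 2) := (Equiv.funUnique (Fin 1) (Fin 2)).symm

theorem tensorPow_one (γ ν : ℝ) (ρ : Matrix (Fin 1 → Fin 2) (Fin 1 → Fin 2) ℂ) :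
    (tensorPow (gad γ ν) 1 ρ).submatrix e1 e1 = gad γ ν (ρ.submatrix e1 e1) := by
  ext i j
  rw [gad_linear]
  simp only [Matrix.submatrix_apply, tensorPow, Fin.prod_univ_one]
  rw [← e1.sum_comp]
  apply Finset.sum_congr rfl
  intro a _
  rw [← e1.sum_comp]
  rfl

theorem isDensity_submatrix {a b : Type*} [Fintype a] [Fintype b]
    (M : Matrix a a ℂ) (e : b ≃ a) (h : IsDensity M) : IsDensity (M.submatrix e e) := by
  refine ⟨h.1.submatrix e, ?_⟩
  rw [← h.2]
  simp only [Matrix.trace, Matrix.diag_apply, Matrix.submatrix_apply]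
  exact e.sum_comp (fun i => M i i)

end Ach

/-- the one-use quantity on `Fin 2` agrees with the one on `Fin 1 → Fin 2` -/
theorem holevoValues_one (γ ν : ℝ) :
    holevoValues (tensorPow (gad γ ν) 1) = holevoValues (gad γ ν) := by
  have hsum : ∀ (m : ℕ) (q : Fin m → ℝ) (ρ : Fin m → Matrix (Fin 1 → Fin 2) (Fin 1 → Fin 2) ℂ),
      (∑ a, (q a : ℂ) • tensorPow (gad γ ν) 1 (ρ a)).submatrix e1 e1
        = ∑ a, (q a : ℂ) • gad γ ν ((ρ a).submatrix e1 e1) := by
    intro m q ρ
    simp_rw [← tensorPow_one]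
    ext i j
    simp [Matrix.sum_apply]
  ext x
  constructor
  · rintro ⟨m, q, ρ, h1, h2, h3, h4⟩
    refine ⟨m, q, fun a => (ρ a).submatrix e1 e1, h1, h2,
      fun a => isDensity_submatrix _ _ (h3 a), ?_⟩
    rw [h4]
    congr 1
    · rw [← hsum, entropy_submatrix]
    · exact Finset.sum_congr rfl fun a _ => by rw [← tensorPow_one, entropy_submatrix]
  · rintro ⟨m, q, ρ, h1, h2, h3, h4⟩
    have hr : ∀ a, ((ρ a).submatrix e1.symm e1.symm).submatrix e1 e1 = ρ a := by
      intro a
      rw [Matrix.submatrix_submatrix, Equiv.symm_comp_self, Matrix.submatrix_id_id]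
    refine ⟨m, q, fun a => (ρ a).submatrix e1.symm e1.symm, h1, h2,
      fun a => isDensity_submatrix _ _ (h3 a), ?_⟩
    rw [h4]
    congr 1
    · rw [← entropy_submatrix _ e1, hsum]
      simp_rw [hr]
    · refine Finset.sum_congr rfl fun a _ => ?_
      rw [← entropy_submatrix _ e1, tensorPow_one, hr]

end Vale.Agent.Lib.P358
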