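import Mathlib

/-!
# P358: balanced sums
-/

namespace Vale.Agent.Lib.P358

open Filter Topology

/-- Balanced sums. -/
theorem balanced {κ : Type*} [Fintype κ] (e l : κ → ℝ) (hl : ∀ i, 0 ≤ l i)
    (h0 : ∑ i, e i * l i = 0)
    (hr : ∀ r : ℝ, 0 < r → 0 ≤ ∑ i, e i * Real.log (1 + l i / r)) :
    0 ≤ ∑ i, e i * Real.negMulLog (l i) := by
  classical
  set F : ℝ → ℝ := fun R => ∑ i, e i * ((R + l i) * Real.log (R + l i)) -
    (∑ i, e i) * (R * Real.log R) + ∑ i, e i * Real.negMulLog (l i) with hF
  have hF0 : F 0 = 0 := by
    simp only [hF, zero_add, zero_mul, mul_zero, sub_zero]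
    rw [← Finset.sum_add_distrib]
    apply Finset.sum_eq_zero
    intro i _
    rw [Real.negMulLog]
    ring
  have hcont : Continuous F := by
    have h1 : Continuous fun R : ℝ => R * Real.log R := Real.continuous_mul_log
    apply Continuous.add _ continuous_const
    apply Continuous.sub
    · apply continuous_finsetSum
      intro i _
      exact continuous_const.mul (h1.comp (continuous_id.add continuous_const))
    · exact continuous_const.mul h1
  have hder : ∀ R : ℝ, 0 < R → HasDerivAt F (∑ i, e i * Real.log (1 + l i / R)) R := by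
    intro R hR
    have h1 : ∀ i, HasDerivAt (fun R : ℝ => e i * ((R + l i) * Real.log (R + l i)))
        (e i * (Real.log (R + l i) + 1)) R := by
      intro i
      have h2 : R + l i ≠ 0 := by have := hl i; positivity
      have h3 := (Real.hasDerivAt_mul_log h2).comp_add_const R (l i)
      exact h3.const_mul _
    have h4 : HasDerivAt (fun R : ℝ => ∑ i, e i * ((R + l i) * Real.log (R + l i)))
        (∑ i, e i * (Real.log (R + l i) + 1)) R := by
      apply HasDerivAt.fun_sum
      intro i _
      exact h1 i
    have h5 := (Real.hasDerivAt_mul_log hR.ne').const_mul (∑ i, e i)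
    have h6 := (h4.sub h5).add_const (∑ i, e i * Real.negMulLog (l i))
    have h8 : ∑ i, e i * Real.log (1 + l i / R) =
        ∑ i, e i * (Real.log (R + l i) + 1) - (∑ i, e i) * (Real.log R + 1) := by
      rw [Finset.sum_mul, ← Finset.sum_sub_distrib]
      apply Finset.sum_congr rfl
      intro i _
      have h7 : 1 + l i / R = (R + l i) / R := by field_simp
      rw [h7, Real.log_div (by have := hl i; positivity) hR.ne']
      ring
    rw [h8]
    exact h6
  have hmono : MonotoneOn F (Set.Ici 0) := by
    apply monotoneOn_of_deriv_nonneg (convex_Ici 0) hcont.continuousOn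
    · intro R hR
      rw [interior_Ici] at hR
      exact (hder R hR).differentiableAt.differentiableWithinAt
    · intro R hR
      rw [interior_Ici] at hR
      rw [(hder R hR).deriv]
      exact hr R hR
  have hnn : ∀ R : ℝ, 0 ≤ R → 0 ≤ F R := by
    intro R hR
    rw [← hF0]
    exact hmono Set.self_mem_Ici hR hR
  have hlim : Tendsto F atTop (𝓝 (∑ i, e i * Real.negMulLog (l i))) := by
    have h1 : ∀ i, Tendsto (fun R : ℝ => e i * ((R + l i) * Real.log (1 + l i / R))) atTop
        (𝓝 (e i * l i)) := by
      intro i
      apply Tendsto.const_mul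
      have h2 := Real.tendsto_mul_log_one_add_div_atTop (l i)
      have h3 : Tendsto (fun R : ℝ => l i * Real.log (1 + l i / R)) atTop (𝓝 (l i * 0)) := by
        apply Tendsto.const_mul
        have h4 : Tendsto (fun R : ℝ => 1 + l i / R) atTop (𝓝 (1 + 0)) :=
          tendsto_const_nhds.add (tendsto_const_nhds.div_atTop tendsto_id)
        rw [add_zero] at h4
        have h5 := (Real.continuousAt_log one_ne_zero).tendsto.comp h4
        rwa [Real.log_one] at h5
      have h6 := h2.add h3
      rw [mul_zero, add_zero] at h6
      apply h6.congr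
      intro R
      ring
    have h2 : Tendsto (fun R : ℝ => ∑ i, e i * ((R + l i) * Real.log (1 + l i / R)) +
        ∑ i, e i * Real.negMulLog (l i)) atTop
        (𝓝 (∑ i, e i * l i + ∑ i, e i * Real.negMulLog (l i))) := by
      apply Tendsto.add_const
      apply tendsto_finsetSum
      intro i _
      exact h1 i
    rw [h0, zero_add] at h2
    apply h2.congr'
    filter_upwards [eventually_gt_atTop (0 : ℝ)] with R hR
    simp only [hF]
    congr 1
    have h3 : ∀ i, e i * ((R + l i) * Real.log (1 + l i / R)) =
        e i * ((R + l i) * Real.log (R + l i)) - e i * (R * Real.log R) -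
          (e i * l i) * Real.log R := by
      intro i
      have h7 : 1 + l i / R = (R + l i) / R := by field_simp
      rw [h7, Real.log_div (by have := hl i; positivity) hR.ne']
      ring
    simp only [h3]
    rw [Finset.sum_sub_distrib, Finset.sum_sub_distrib, ← Finset.sum_mul, ← Finset.sum_mul, h0]
    ring
  exact ge_of_tendsto' (hlim.comp tendsto_natCast_atTop_atTop) fun n => hnn _ (Nat.cast_nonneg n)

end Vale.Agent.Lib.P358
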