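import Vale.Agent.Lib.P358.Statement

/-!
# P358: auxiliary definitions
-/

namespace Vale.Agent.Lib.P358

open Matrix Vale.Agent.AmplitudeDamping
open scoped ComplexOrder

/-- unnormalised entropy in nats -/
noncomputable def eta {ι : Type*} [Fintype ι] [DecidableEq ι] (M : Matrix ι ι ℂ) : ℝ :=
  open Classical in
  if h : M.IsHermitian then ∑ i, Real.negMulLog (h.eigenvalues i) else 0

/-- `log |det (1 + M / r)|` -/
noncomputable def ld {ι : Type*} [Fintype ι] [DecidableEq ι] (M : Matrix ι ι ℂ) (r : ℝ) : ℝ :=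
  Real.log ‖(1 + ((r⁻¹ : ℝ) : ℂ) • M).det‖

/-- entropy of the spectrum `(t ± √(t² - 4 D)) / 2` -/
noncomputable def ent2 (t D : ℝ) : ℝ :=
  Real.negMulLog ((t + Real.sqrt (t ^ 2 - 4 * D)) / 2) +
    Real.negMulLog ((t - Real.sqrt (t ^ 2 - 4 * D)) / 2)

/-- determinant of the output on the (unnormalised) pure state with populations `x`, `z` -/
noncomputable def dd (γ ν x z : ℝ) : ℝ :=
  γ * ν * (1 - ν) * (x + z) ^ 2 + γ * (1 - γ) * (z - ν * (x + z)) ^ 2

/-- the channel `gad γ ν` applied to the first factor of a `2 × 2` block matrix -/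
noncomputable def gadBlock (γ ν : ℝ) {m : Type*} (X Y Y' Z : Matrix m m ℂ) :
    Matrix (m ⊕ m) (m ⊕ m) ℂ :=
  fromBlocks (((1 - γ * ν : ℝ) : ℂ) • X + ((γ * (1 - ν) : ℝ) : ℂ) • Z)
    (((Real.sqrt (1 - γ) : ℝ) : ℂ) • Y)
    (((Real.sqrt (1 - γ) : ℝ) : ℂ) • Y')
    (((γ * ν : ℝ) : ℂ) • X + ((1 - γ * (1 - ν) : ℝ) : ℂ) • Z)

/-- the key inequality (A) for the channel `gad γ ν` -/
def KeyIneq (γ ν : ℝ) : Prop :=
  ∀ (m : Type) [Fintype m] [DecidableEq m] (X Y Z : Matrix m m ℂ),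
    (fromBlocks X Y Yᴴ Z).PosSemidef →
    eta X + eta Z + (ent2 (X.trace.re + Z.trace.re) (dd γ ν X.trace.re Z.trace.re)
      - Real.negMulLog X.trace.re - Real.negMulLog Z.trace.re) ≤ eta (gadBlock γ ν X Y Yᴴ Z)

/-- population of the value `b` at site `s` -/
noncomputable def pop {n : ℕ} (M : Matrix (Fin n → Fin 2) (Fin n → Fin 2) ℂ) (s : Fin n)
    (b : Fin 2) : ℝ :=
  ∑ k : Fin n → Fin 2, if k s = b then (M k k).re else 0

/-- blocks with respect to the first qubit -/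
def blk {n : ℕ} (M : Matrix (Fin (n + 1) → Fin 2) (Fin (n + 1) → Fin 2) ℂ) (a b : Fin 2) :
    Matrix (Fin n → Fin 2) (Fin n → Fin 2) ℂ :=
  fun i j => M (Fin.cons a i) (Fin.cons b j)

end Vale.Agent.Lib.P358
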