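import Vale.Agent.Lib.P358.Basic
import Vale.Agent.Lib.P358.Balanced

/-!
# P358: module SCALAR
-/

namespace Vale.Agent.Lib.P358

open Vale.Agent.AmplitudeDamping

namespace Scalar

/-- upper eigenvalue -/
noncomputable def mup (t D : ℝ) : ℝ := (t + Real.sqrt (t ^ 2 - 4 * D)) / 2

/-- lower eigenvalue -/
noncomputable def mum (t D : ℝ) : ℝ := (t - Real.sqrt (t ^ 2 - 4 * D)) / 2

theorem ent2_eq (t D : ℝ) : ent2 t D = Real.negMulLog (mup t D) + Real.negMulLog (mum t D) := rfl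

theorem mup_nonneg {t D : ℝ} (ht : 0 ≤ t) : 0 ≤ mup t D := by
  unfold mup
  have := Real.sqrt_nonneg (t ^ 2 - 4 * D)
  linarith

theorem mum_nonneg {t D : ℝ} (ht : 0 ≤ t) (hD : 0 ≤ D) : 0 ≤ mum t D := by
  unfold mum
  have : Real.sqrt (t ^ 2 - 4 * D) ≤ t := by
    rw [Real.sqrt_le_left ht]
    linarith
  linarith

theorem mu_sum (t D : ℝ) : mup t D + mum t D = t := by
  unfold mup mum; ring

theorem mu_prod {t D : ℝ} (h4 : 4 * D ≤ t ^ 2) : mup t D * mum t D = D := by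
  unfold mup mum
  have := Real.sq_sqrt (show 0 ≤ t ^ 2 - 4 * D by linarith)
  linear_combination (-1 / 4 : ℝ) * this

theorem log_mu {t D r : ℝ} (ht : 0 ≤ t) (hD : 0 ≤ D) (h4 : 4 * D ≤ t ^ 2) (hr : 0 < r) :
    Real.log (1 + mup t D / r) + Real.log (1 + mum t D / r) =
      Real.log (1 + t / r + D / r ^ 2) := by
  have h1 : 0 ≤ mup t D / r := div_nonneg (mup_nonneg ht) hr.le
  have h2 : 0 ≤ mum t D / r := div_nonneg (mum_nonneg ht hD) hr.le
  rw [← Real.log_mul (by linarith) (by linarith)]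
  congr 1
  have h3 : (1 + mup t D / r) * (1 + mum t D / r) =
      1 + (mup t D + mum t D) / r + (mup t D * mum t D) / r ^ 2 := by
    field_simp
    ring
  rw [h3, mu_sum, mu_prod h4]

/-- the balanced lemma for `ent2` -/
theorem ent_bal {κ₁ κ₂ : Type*} [Fintype κ₁] [Fintype κ₂] (e t D : κ₁ → ℝ) (f l : κ₂ → ℝ)
    (ht : ∀ i, 0 ≤ t i) (hD : ∀ i, 0 ≤ D i) (h4 : ∀ i, 4 * D i ≤ t i ^ 2) (hl : ∀ i, 0 ≤ l i)
    (h0 : ∑ i, e i * t i + ∑ i, f i * l i = 0)
    (hr : ∀ r : ℝ, 0 < r → 0 ≤ ∑ i, e i * Real.log (1 + t i / r + D i / r ^ 2) +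
      ∑ i, f i * Real.log (1 + l i / r)) :
    0 ≤ ∑ i, e i * ent2 (t i) (D i) + ∑ i, f i * Real.negMulLog (l i) := by
  have key := balanced (κ := (κ₁ ⊕ κ₁) ⊕ κ₂)
    (Sum.elim (Sum.elim e e) f)
    (Sum.elim (Sum.elim (fun i => mup (t i) (D i)) (fun i => mum (t i) (D i))) l) ?_ ?_ ?_
  · simp only [Fintype.sum_sum_type, Sum.elim_inl, Sum.elim_inr] at key
    rw [← Finset.sum_add_distrib] at key
    simpa only [ent2_eq, mul_add] using key
  · rintro ((i | i) | i)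
    · exact mup_nonneg (ht i)
    · exact mum_nonneg (ht i) (hD i)
    · exact hl i
  · simp only [Fintype.sum_sum_type, Sum.elim_inl, Sum.elim_inr]
    rw [← Finset.sum_add_distrib]
    simpa only [← mul_add, mu_sum] using h0
  · intro r hr0
    have := hr r hr0
    simp only [Fintype.sum_sum_type, Sum.elim_inl, Sum.elim_inr]
    rw [← Finset.sum_add_distrib]
    have h5 : ∀ i, e i * Real.log (1 + mup (t i) (D i) / r) +
        e i * Real.log (1 + mum (t i) (D i) / r) =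
        e i * Real.log (1 + t i / r + D i / r ^ 2) := by
      intro i
      rw [← mul_add, log_mu (ht i) (hD i) (h4 i) hr0]
    simpa only [h5] using this

theorem geo_super {p a b : ℝ} (hp : 0 ≤ p) (hp1 : p ≤ 1) (ha : 0 ≤ a) (hb : 0 ≤ b) :
    1 + a ^ p * b ^ (1 - p) ≤ (1 + a) ^ p * (1 + b) ^ (1 - p) := by
  have hu : 0 < 1 + a := by linarith
  have hv : 0 < 1 + b := by linarith
  have hq : 0 ≤ 1 - p := by linarith
  have h1 := Real.geom_mean_le_arith_mean2_weighted hp hq (div_nonneg zero_le_one hu.le)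
    (div_nonneg zero_le_one hv.le) (by ring)
  have h2 := Real.geom_mean_le_arith_mean2_weighted hp hq (div_nonneg ha hu.le)
    (div_nonneg hb hv.le) (by ring)
  rw [Real.div_rpow zero_le_one hu.le, Real.div_rpow zero_le_one hv.le, Real.one_rpow,
    Real.one_rpow, div_mul_div_comm, one_mul] at h1
  rw [Real.div_rpow ha hu.le, Real.div_rpow hb hv.le, div_mul_div_comm] at h2
  have h3 : p * (1 / (1 + a)) + (1 - p) * (1 / (1 + b)) +
      (p * (a / (1 + a)) + (1 - p) * (b / (1 + b))) = 1 := by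
    field_simp
    ring
  have h4 := add_le_add h1 h2
  rw [h3, ← add_div] at h4
  have h5 : 0 < (1 + a) ^ p * (1 + b) ^ (1 - p) :=
    mul_pos (Real.rpow_pos_of_pos hu _) (Real.rpow_pos_of_pos hv _)
  rwa [div_le_one h5] at h4

/-- the pointwise convexity -/
theorem log_conv {p A₁ A₂ B₁ B₂ A B c : ℝ} (hp : 0 ≤ p) (hp1 : p ≤ 1) (hA₁ : 0 < A₁)
    (hA₂ : 0 < A₂) (hB₁ : 0 < B₁) (hB₂ : 0 < B₂) (hc : 0 ≤ c)
    (hA : p * A₁ + (1 - p) * A₂ ≤ A) (hB : p * B₁ + (1 - p) * B₂ ≤ B) :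
    Real.log (1 + c / (A * B)) ≤
      p * Real.log (1 + c / (A₁ * B₁)) + (1 - p) * Real.log (1 + c / (A₂ * B₂)) := by
  have hq : 0 ≤ 1 - p := by linarith
  rcases hc.eq_or_lt with rfl | hc
  · simp
  have h1 := Real.geom_mean_le_arith_mean2_weighted hp hq hA₁.le hA₂.le (by ring)
  have h2 := Real.geom_mean_le_arith_mean2_weighted hp hq hB₁.le hB₂.le (by ring)
  have hgA : 0 < A₁ ^ p * A₂ ^ (1 - p) :=
    mul_pos (Real.rpow_pos_of_pos hA₁ _) (Real.rpow_pos_of_pos hA₂ _)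
  have hgB : 0 < B₁ ^ p * B₂ ^ (1 - p) :=
    mul_pos (Real.rpow_pos_of_pos hB₁ _) (Real.rpow_pos_of_pos hB₂ _)
  have h3 : (A₁ ^ p * A₂ ^ (1 - p)) * (B₁ ^ p * B₂ ^ (1 - p)) ≤ A * B :=
    mul_le_mul (h1.trans hA) (h2.trans hB) hgB.le ((hgA.le.trans h1).trans hA)
  have hQ₁ : 0 < c / (A₁ * B₁) := div_pos hc (mul_pos hA₁ hB₁)
  have hQ₂ : 0 < c / (A₂ * B₂) := div_pos hc (mul_pos hA₂ hB₂)
  have h4 := geo_super hp hp1 hQ₁.le hQ₂.le
  have h5 : (c / (A₁ * B₁)) ^ p * (c / (A₂ * B₂)) ^ (1 - p) =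
      c / ((A₁ ^ p * A₂ ^ (1 - p)) * (B₁ ^ p * B₂ ^ (1 - p))) := by
    rw [Real.div_rpow hc.le (mul_pos hA₁ hB₁).le, Real.div_rpow hc.le (mul_pos hA₂ hB₂).le,
      div_mul_div_comm, ← Real.rpow_add hc, Real.mul_rpow hA₁.le hB₁.le,
      Real.mul_rpow hA₂.le hB₂.le]
    rw [show p + (1 - p) = 1 by ring, Real.rpow_one]
    congr 1
    ring
  rw [h5] at h4
  have h6 : c / (A * B) ≤ c / ((A₁ ^ p * A₂ ^ (1 - p)) * (B₁ ^ p * B₂ ^ (1 - p))) :=
    div_le_div_of_nonneg_left hc.le (mul_pos hgA hgB) h3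
  have hAB : 0 < A * B := lt_of_lt_of_le (mul_pos hgA hgB) h3
  have h7 : 0 < c / (A * B) := div_pos hc hAB
  calc Real.log (1 + c / (A * B))
      ≤ Real.log ((1 + c / (A₁ * B₁)) ^ p * (1 + c / (A₂ * B₂)) ^ (1 - p)) :=
        Real.log_le_log (by linarith) (by linarith)
    _ = _ := by
        rw [Real.log_mul (Real.rpow_pos_of_pos (by linarith) _).ne'
          (Real.rpow_pos_of_pos (by linarith) _).ne', Real.log_rpow (by linarith),
          Real.log_rpow (by linarith)]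

/-- homogeneity of `ent2` -/
theorem ent2_homog {c t D : ℝ} (hc : 0 ≤ c) :
    ent2 (c * t) (c ^ 2 * D) = c * ent2 t D + t * Real.negMulLog c := by
  have h1 : Real.sqrt ((c * t) ^ 2 - 4 * (c ^ 2 * D)) = c * Real.sqrt (t ^ 2 - 4 * D) := by
    rw [show (c * t) ^ 2 - 4 * (c ^ 2 * D) = c ^ 2 * (t ^ 2 - 4 * D) by ring,
      Real.sqrt_mul (sq_nonneg c), Real.sqrt_sq hc]
  unfold ent2
  rw [h1, show (c * t + c * Real.sqrt (t ^ 2 - 4 * D)) / 2 =
      c * ((t + Real.sqrt (t ^ 2 - 4 * D)) / 2) by ring,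
    show (c * t - c * Real.sqrt (t ^ 2 - 4 * D)) / 2 =
      c * ((t - Real.sqrt (t ^ 2 - 4 * D)) / 2) by ring, Real.negMulLog_mul, Real.negMulLog_mul]
  ring

theorem ent2_prod {y z : ℝ} (_hy : 0 ≤ y) (_hz : 0 ≤ z) :
    ent2 (y + z) (y * z) = Real.negMulLog y + Real.negMulLog z := by
  unfold ent2
  rw [show (y + z) ^ 2 - 4 * (y * z) = (y - z) ^ 2 by ring, Real.sqrt_sq_eq_abs]
  rcases le_total z y with h | h
  · rw [abs_of_nonneg (by linarith)]
    congr 2 <;> ring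
  · rw [abs_of_nonpos (by linarith), add_comm (Real.negMulLog y)]
    congr 2 <;> ring

/-- the function of `phi_superadd` -/
noncomputable def phi (x y z : ℝ) : ℝ :=
  ent2 (x + y + z) (y * z) - Real.negMulLog x - Real.negMulLog y - Real.negMulLog z

theorem phi_zero {y z : ℝ} (hy : 0 ≤ y) (hz : 0 ≤ z) : phi 0 y z = 0 := by
  unfold phi
  rw [zero_add, ent2_prod hy hz, Real.negMulLog_zero]
  ring

theorem phi_homog {c x y z : ℝ} (hc : 0 ≤ c) : phi (c * x) (c * y) (c * z) = c * phi x y z := by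
  unfold phi
  rw [show c * x + c * y + c * z = c * (x + y + z) by ring,
    show c * y * (c * z) = c ^ 2 * (y * z) by ring, ent2_homog hc, Real.negMulLog_mul,
    Real.negMulLog_mul, Real.negMulLog_mul]
  ring

theorem phi_conv {p X y₁ z₁ y₂ z₂ y z : ℝ} (hp : 0 ≤ p) (hp1 : p ≤ 1) (hX : 0 ≤ X)
    (hy₁ : 0 ≤ y₁) (hz₁ : 0 ≤ z₁) (hy₂ : 0 ≤ y₂) (hz₂ : 0 ≤ z₂)
    (hy : p * y₁ + (1 - p) * y₂ ≤ y) (hz : p * z₁ + (1 - p) * z₂ ≤ z) :
    phi X y z ≤ p * phi X y₁ z₁ + (1 - p) * phi X y₂ z₂ := by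
  have hq : 0 ≤ 1 - p := by linarith
  have hy0 : 0 ≤ y := le_trans (by positivity) hy
  have hz0 : 0 ≤ z := le_trans (by positivity) hz
  have key := ent_bal ![p, 1 - p, -1] ![X + y₁ + z₁, X + y₂ + z₂, X + y + z]
    ![y₁ * z₁, y₂ * z₂, y * z] ![-p, -p, -(1 - p), -(1 - p), 1, 1] ![y₁, z₁, y₂, z₂, y, z]
    ?_ ?_ ?_ ?_ ?_ ?_
  · simp only [Fin.sum_univ_succ, Matrix.cons_val_zero, Matrix.cons_val_succ,
      Matrix.cons_val_fin_one, Finset.univ_unique, Finset.sum_singleton, Fin.default_eq_zero,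
      Fin.isValue] at key
    unfold phi
    linarith
  · intro i; fin_cases i <;> simp <;> positivity
  · intro i; fin_cases i <;> simp <;> positivity
  · intro i; fin_cases i <;> simp <;> nlinarith [sq_nonneg (y₁ - z₁), sq_nonneg (y₂ - z₂),
      sq_nonneg (y - z), mul_nonneg hX hy₁, mul_nonneg hX hy₂, mul_nonneg hX hy0,
      mul_nonneg hX hz₁, mul_nonneg hX hz₂, mul_nonneg hX hz0, sq_nonneg X]
  · intro i; fin_cases i <;> simp <;> assumption
  · simp [Fin.sum_univ_succ]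
    ring
  · intro r hr
    have hf : ∀ u v : ℝ, 0 ≤ u → 0 ≤ v → Real.log (1 + (X + u + v) / r + u * v / r ^ 2) =
        Real.log (1 + (X / r) / ((1 + u / r) * (1 + v / r))) + Real.log (1 + u / r) +
          Real.log (1 + v / r) := by
      intro u v hu hv
      have h1 : 0 < 1 + u / r := by positivity
      have h2 : 0 < 1 + v / r := by positivity
      have h3 : 0 < 1 + (X / r) / ((1 + u / r) * (1 + v / r)) := by positivity
      rw [← Real.log_mul h3.ne' h1.ne', ← Real.log_mul (mul_pos h3 h1).ne' h2.ne']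
      congr 1
      field_simp
      ring
    have h4 := log_conv (p := p) (A₁ := 1 + y₁ / r) (A₂ := 1 + y₂ / r) (B₁ := 1 + z₁ / r)
      (B₂ := 1 + z₂ / r) (A := 1 + y / r) (B := 1 + z / r) (c := X / r) hp hp1 (by positivity)
      (by positivity) (by positivity) (by positivity) (by positivity)
      (by
        have : p * y₁ / r + (1 - p) * y₂ / r ≤ y / r := by
          rw [← add_div]; exact div_le_div_of_nonneg_right hy hr.le
        calc p * (1 + y₁ / r) + (1 - p) * (1 + y₂ / r)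
            = 1 + (p * y₁ / r + (1 - p) * y₂ / r) := by ring
          _ ≤ _ := by linarith)
      (by
        have : p * z₁ / r + (1 - p) * z₂ / r ≤ z / r := by
          rw [← add_div]; exact div_le_div_of_nonneg_right hz hr.le
        calc p * (1 + z₁ / r) + (1 - p) * (1 + z₂ / r)
            = 1 + (p * z₁ / r + (1 - p) * z₂ / r) := by ring
          _ ≤ _ := by linarith)
    simp only [Fin.sum_univ_succ, Matrix.cons_val_zero, Matrix.cons_val_succ,
      Matrix.cons_val_fin_one, Finset.univ_unique, Finset.sum_singleton, Fin.default_eq_zero,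
      Fin.isValue]
    rw [hf y₁ z₁ hy₁ hz₁, hf y₂ z₂ hy₂ hz₂, hf y z hy0 hz0]
    linarith

theorem phi_add {x y z x' y' z' : ℝ} (hx : 0 ≤ x) (hy : 0 ≤ y) (hz : 0 ≤ z) (hx' : 0 ≤ x')
    (hy' : 0 ≤ y') (hz' : 0 ≤ z') :
    phi (x + x') (y + y') (z + z') ≤ phi x y z + phi x' y' z' := by
  rcases hx.eq_or_lt with rfl | hx
  · rw [phi_zero hy hz, zero_add, zero_add]
    have := phi_conv (p := 1) (X := x') (y₁ := y') (z₁ := z') (y₂ := 0) (z₂ := 0) (y := y + y')
      (z := z + z') zero_le_one le_rfl hx' hy' hz' le_rfl le_rfl (by linarith) (by linarith)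
    linarith
  rcases hx'.eq_or_lt with rfl | hx'
  · rw [phi_zero hy' hz', add_zero, add_zero]
    have := phi_conv (p := 1) (X := x) (y₁ := y) (z₁ := z) (y₂ := 0) (z₂ := 0) (y := y + y')
      (z := z + z') zero_le_one le_rfl hx.le hy hz le_rfl le_rfl (by linarith) (by linarith)
    linarith
  have hX : 0 < x + x' := by linarith
  set p : ℝ := x / (x + x') with hp
  have hq : 1 - p = x' / (x + x') := by rw [hp]; field_simp; ring
  have hp0 : 0 < p := div_pos hx hX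
  have hq0 : 0 < 1 - p := by rw [hq]; exact div_pos hx' hX
  have h1 : phi x y z = p * phi (x + x') (y / p) (z / p) := by
    rw [← phi_homog hp0.le]
    congr 1
    · rw [hp]; field_simp
    · field_simp
    · field_simp
  have h2 : phi x' y' z' = (1 - p) * phi (x + x') (y' / (1 - p)) (z' / (1 - p)) := by
    rw [← phi_homog hq0.le]
    congr 1
    · rw [hq]; field_simp
    · field_simp
    · field_simp
  rw [h1, h2]
  apply phi_conv hp0.le (by linarith) hX.le (by positivity) (by positivity) (by positivity)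
    (by positivity)
  · rw [mul_div_cancel₀ _ hp0.ne', mul_div_cancel₀ _ hq0.ne']
  · rw [mul_div_cancel₀ _ hp0.ne', mul_div_cancel₀ _ hq0.ne']

/-- the function of `w_superadd` -/
noncomputable def w (t c : ℝ) : ℝ := ent2 t (c ^ 2) - Real.negMulLog t

theorem w_zero {t : ℝ} (ht : 0 ≤ t) : w t 0 = 0 := by
  have := ent2_prod ht le_rfl
  rw [add_zero, mul_zero, Real.negMulLog_zero, add_zero] at this
  unfold w
  rw [show (0 : ℝ) ^ 2 = 0 by norm_num, this, sub_self]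

theorem w_homog {k t c : ℝ} (hk : 0 ≤ k) : w (k * t) (k * c) = k * w t c := by
  unfold w
  rw [show (k * c) ^ 2 = k ^ 2 * c ^ 2 by ring, ent2_homog hk, Real.negMulLog_mul]
  ring

theorem w_conv {p c t₁ t₂ t : ℝ} (hp : 0 ≤ p) (hp1 : p ≤ 1) (hc : 0 ≤ c) (h₁ : 2 * c ≤ t₁)
    (h₂ : 2 * c ≤ t₂) (ht : p * t₁ + (1 - p) * t₂ ≤ t) :
    w t c ≤ p * w t₁ c + (1 - p) * w t₂ c := by
  have hq : 0 ≤ 1 - p := by linarith
  have h3 : 2 * c ≤ t := by
    have := mul_le_mul_of_nonneg_left h₁ hp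
    have := mul_le_mul_of_nonneg_left h₂ hq
    linarith
  have ht₁0 : 0 ≤ t₁ := by linarith
  have ht₂0 : 0 ≤ t₂ := by linarith
  have ht0 : 0 ≤ t := by linarith
  have key := ent_bal ![p, 1 - p, -1] ![t₁, t₂, t] ![c ^ 2, c ^ 2, c ^ 2] ![-p, -(1 - p), 1]
    ![t₁, t₂, t] ?_ ?_ ?_ ?_ ?_ ?_
  · simp only [Fin.sum_univ_succ, Matrix.cons_val_zero, Matrix.cons_val_succ,
      Matrix.cons_val_fin_one, Finset.univ_unique, Finset.sum_singleton, Fin.default_eq_zero,
      Fin.isValue] at key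
    unfold w
    linarith
  · intro i; fin_cases i <;> simp <;> assumption
  · intro i; fin_cases i <;> simp <;> positivity
  · intro i; fin_cases i <;> simp <;> nlinarith
  · intro i; fin_cases i <;> simp <;> assumption
  · simp [Fin.sum_univ_succ]
    ring
  · intro r hr
    have hf : ∀ u : ℝ, 0 ≤ u → Real.log (1 + u / r + c ^ 2 / r ^ 2) =
        Real.log (1 + (c ^ 2 / r ^ 2) / ((1 + u / r) * 1)) + Real.log (1 + u / r) := by
      intro u hu
      have h1 : 0 < 1 + u / r := by positivity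
      have h3 : 0 < 1 + (c ^ 2 / r ^ 2) / ((1 + u / r) * 1) := by positivity
      rw [← Real.log_mul h3.ne' h1.ne']
      congr 1
      field_simp
    have h4 := log_conv (p := p) (A₁ := 1 + t₁ / r) (A₂ := 1 + t₂ / r) (B₁ := 1)
      (B₂ := 1) (A := 1 + t / r) (B := 1) (c := c ^ 2 / r ^ 2) hp hp1 (by positivity)
      (by positivity) (by positivity) (by positivity) (by positivity)
      (by
        have : p * t₁ / r + (1 - p) * t₂ / r ≤ t / r := by
          rw [← add_div]; exact div_le_div_of_nonneg_right ht hr.le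
        calc p * (1 + t₁ / r) + (1 - p) * (1 + t₂ / r)
            = 1 + (p * t₁ / r + (1 - p) * t₂ / r) := by ring
          _ ≤ _ := by linarith)
      (by linarith)
    simp only [Fin.sum_univ_succ, Matrix.cons_val_zero, Matrix.cons_val_succ,
      Matrix.cons_val_fin_one, Finset.univ_unique, Finset.sum_singleton, Fin.default_eq_zero,
      Fin.isValue]
    rw [hf t₁ ht₁0, hf t₂ ht₂0, hf t ht0]
    linarith

theorem w_add {t c t' c' : ℝ} (hc : 0 ≤ c) (ht : 2 * c ≤ t) (hc' : 0 ≤ c') (ht' : 2 * c' ≤ t') :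
    w (t + t') (c + c') ≤ w t c + w t' c' := by
  rcases hc.eq_or_lt with rfl | hc
  · rw [w_zero (by linarith), zero_add, zero_add]
    have := w_conv (p := 1) (c := c') (t₁ := t') (t₂ := t') (t := t + t') zero_le_one le_rfl hc'
      ht' ht' (by linarith)
    linarith
  rcases hc'.eq_or_lt with rfl | hc'
  · rw [w_zero (t := t') (by linarith), add_zero, add_zero]
    have := w_conv (p := 1) (c := c) (t₁ := t) (t₂ := t) (t := t + t') zero_le_one le_rfl hc.le
      ht ht (by linarith)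
    linarith
  have hC : 0 < c + c' := by linarith
  set p : ℝ := c / (c + c') with hp
  have hq : 1 - p = c' / (c + c') := by rw [hp]; field_simp; ring
  have hp0 : 0 < p := div_pos hc hC
  have hq0 : 0 < 1 - p := by rw [hq]; exact div_pos hc' hC
  have h1 : w t c = p * w (t / p) (c + c') := by
    rw [← w_homog hp0.le]
    congr 1
    · field_simp
    · rw [hp]; field_simp
  have h2 : w t' c' = (1 - p) * w (t' / (1 - p)) (c + c') := by
    rw [← w_homog hq0.le]
    congr 1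
    · field_simp
    · rw [hq]; field_simp
  rw [h1, h2]
  apply w_conv hp0.le (by linarith) hC.le
  · rw [le_div_iff₀ hp0, hp]
    calc 2 * (c + c') * (c / (c + c')) = 2 * c := by field_simp
      _ ≤ t := ht
  · rw [le_div_iff₀ hq0, hq]
    calc 2 * (c + c') * (c' / (c + c')) = 2 * c' := by field_simp
      _ ≤ t' := ht'
  · rw [mul_div_cancel₀ _ hp0.ne', mul_div_cancel₀ _ hq0.ne']

end Scalar

open Scalar

theorem phi_superadd {κ : Type*} (s : Finset κ) (x y z : κ → ℝ) (hx : ∀ i ∈ s, 0 ≤ x i)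
    (hy : ∀ i ∈ s, 0 ≤ y i) (hz : ∀ i ∈ s, 0 ≤ z i) :
    ent2 (∑ i ∈ s, x i + ∑ i ∈ s, y i + ∑ i ∈ s, z i) ((∑ i ∈ s, y i) * ∑ i ∈ s, z i)
        - Real.negMulLog (∑ i ∈ s, x i) - Real.negMulLog (∑ i ∈ s, y i)
        - Real.negMulLog (∑ i ∈ s, z i) ≤
      ∑ i ∈ s, (ent2 (x i + y i + z i) (y i * z i) - Real.negMulLog (x i)
        - Real.negMulLog (y i) - Real.negMulLog (z i)) := by
  classical
  change phi (∑ i ∈ s, x i) (∑ i ∈ s, y i) (∑ i ∈ s, z i) ≤ ∑ i ∈ s, phi (x i) (y i) (z i)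
  induction s using Finset.induction_on with
  | empty =>
    simp only [Finset.sum_empty]
    rw [phi_zero le_rfl le_rfl]
  | insert a s ha ih =>
    have ih' := ih (fun i hi => hx i (Finset.mem_insert_of_mem hi))
      (fun i hi => hy i (Finset.mem_insert_of_mem hi))
      (fun i hi => hz i (Finset.mem_insert_of_mem hi))
    rw [Finset.sum_insert ha, Finset.sum_insert ha, Finset.sum_insert ha, Finset.sum_insert ha]
    have := phi_add (hx a (Finset.mem_insert_self a s)) (hy a (Finset.mem_insert_self a s))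
      (hz a (Finset.mem_insert_self a s))
      (Finset.sum_nonneg fun i hi => hx i (Finset.mem_insert_of_mem hi))
      (Finset.sum_nonneg fun i hi => hy i (Finset.mem_insert_of_mem hi))
      (Finset.sum_nonneg fun i hi => hz i (Finset.mem_insert_of_mem hi))
    linarith

theorem ent2_mono {t c c' : ℝ} (hc : 0 ≤ c) (h : c ≤ c') (ht : 2 * c' ≤ t) :
    ent2 t (c ^ 2) ≤ ent2 t (c' ^ 2) := by
  have ht0 : 0 ≤ t := by linarith
  have hc' : 0 ≤ c' := by linarith
  have key := ent_bal ![1, -1] ![t, t] ![c' ^ 2, c ^ 2] (fun i : Fin 0 => (0 : ℝ))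
    (fun i : Fin 0 => (0 : ℝ)) ?_ ?_ ?_ ?_ ?_ ?_
  · simp only [Fin.sum_univ_succ, Matrix.cons_val_zero, Matrix.cons_val_succ, Fin.sum_univ_zero,
      Matrix.cons_val_fin_one, Finset.univ_unique, Finset.sum_singleton, Fin.default_eq_zero,
      Fin.isValue] at key
    linarith
  · intro i; fin_cases i <;> simp <;> assumption
  · intro i; fin_cases i <;> simp <;> positivity
  · intro i; fin_cases i <;> simp <;> nlinarith
  · intro i; exact i.elim0
  · simp [Fin.sum_univ_succ]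
  · intro r hr
    simp only [Fin.sum_univ_succ, Matrix.cons_val_zero, Matrix.cons_val_succ, Fin.sum_univ_zero,
      Matrix.cons_val_fin_one, Finset.univ_unique, Finset.sum_singleton, Fin.default_eq_zero,
      Fin.isValue]
    have h1 : c ^ 2 / r ^ 2 ≤ c' ^ 2 / r ^ 2 :=
      div_le_div_of_nonneg_right (by nlinarith) (sq_nonneg r)
    have h2 : 0 < 1 + t / r + c ^ 2 / r ^ 2 := by positivity
    have h3 := Real.log_le_log h2 (show 1 + t / r + c ^ 2 / r ^ 2 ≤ 1 + t / r + c' ^ 2 / r ^ 2 by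
      linarith)
    linarith

theorem w_superadd {κ : Type*} (s : Finset κ) (t c : κ → ℝ) (hc : ∀ i ∈ s, 0 ≤ c i)
    (ht : ∀ i ∈ s, 2 * c i ≤ t i) :
    ent2 (∑ i ∈ s, t i) ((∑ i ∈ s, c i) ^ 2) - Real.negMulLog (∑ i ∈ s, t i) ≤
      ∑ i ∈ s, (ent2 (t i) (c i ^ 2) - Real.negMulLog (t i)) := by
  classical
  change w (∑ i ∈ s, t i) (∑ i ∈ s, c i) ≤ ∑ i ∈ s, w (t i) (c i)
  induction s using Finset.induction_on with
  | empty =>
    simp only [Finset.sum_empty]
    rw [w_zero le_rfl]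
  | insert a s ha ih =>
    have ih' := ih (fun i hi => hc i (Finset.mem_insert_of_mem hi))
      (fun i hi => ht i (Finset.mem_insert_of_mem hi))
    rw [Finset.sum_insert ha, Finset.sum_insert ha, Finset.sum_insert ha]
    have h2 : 2 * ∑ i ∈ s, c i ≤ ∑ i ∈ s, t i := by
      rw [Finset.mul_sum]
      exact Finset.sum_le_sum fun i hi => ht i (Finset.mem_insert_of_mem hi)
    have := w_add (hc a (Finset.mem_insert_self a s)) (ht a (Finset.mem_insert_self a s))
      (Finset.sum_nonneg fun i hi => hc i (Finset.mem_insert_of_mem hi)) h2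
    linarith

theorem Scalar.dd_nonneg {γ ν : ℝ} (hγ : γ ∈ Set.Icc (0 : ℝ) 1) (hν : ν ∈ Set.Icc (0 : ℝ) 1)
    (x z : ℝ) : 0 ≤ dd γ ν x z := by
  obtain ⟨h1, h2⟩ := hγ
  obtain ⟨h3, h4⟩ := hν
  have h5 : 0 ≤ 1 - γ := by linarith
  have h6 : 0 ≤ 1 - ν := by linarith
  unfold dd
  positivity

theorem Scalar.four_dd_le {γ ν : ℝ} (hγ : γ ∈ Set.Icc (0 : ℝ) 1) (hν : ν ∈ Set.Icc (0 : ℝ) 1)
    {x z : ℝ} (hx : 0 ≤ x) (hz : 0 ≤ z) : 4 * dd γ ν x z ≤ (x + z) ^ 2 := by
  obtain ⟨h1, h2⟩ := hγ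
  obtain ⟨h3, h4⟩ := hν
  have h5 : 0 ≤ 1 - γ := by linarith
  have h6 : 0 ≤ 1 - ν := by linarith
  have h7 : 0 ≤ γ * (1 - γ) := mul_nonneg h1 h5
  unfold dd
  rcases le_total 0 (z - ν * (x + z)) with h | h
  · have h8 : z - ν * (x + z) ≤ (1 - ν) * (x + z) := by nlinarith
    have h9 : (z - ν * (x + z)) ^ 2 ≤ ((1 - ν) * (x + z)) ^ 2 := pow_le_pow_left₀ h h8 2
    have h10 := mul_le_mul_of_nonneg_left h9 h7
    have h11 : 0 ≤ (1 - 2 * (γ * (1 - ν))) ^ 2 * (x + z) ^ 2 := by positivity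
    nlinarith
  · have h8 : -(z - ν * (x + z)) ≤ ν * (x + z) := by nlinarith
    have h9 : (-(z - ν * (x + z))) ^ 2 ≤ (ν * (x + z)) ^ 2 :=
      pow_le_pow_left₀ (by linarith) h8 2
    have h10 := mul_le_mul_of_nonneg_left h9 h7
    have h11 : 0 ≤ (1 - 2 * (γ * ν)) ^ 2 * (x + z) ^ 2 := by positivity
    nlinarith

theorem Scalar.sqrt_dd_add {γ ν : ℝ} (hγ : γ ∈ Set.Icc (0 : ℝ) 1) (hν : ν ∈ Set.Icc (0 : ℝ) 1)
    (x z x' z' : ℝ) : Real.sqrt (dd γ ν (x + x') (z + z')) ≤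
      Real.sqrt (dd γ ν x z) + Real.sqrt (dd γ ν x' z') := by
  have hd := dd_nonneg hγ hν x z
  have hd' := dd_nonneg hγ hν x' z'
  obtain ⟨h1, h2⟩ := hγ
  obtain ⟨h3, h4⟩ := hν
  have h5 : 0 ≤ 1 - γ := by linarith
  have h6 : 0 ≤ 1 - ν := by linarith
  have hs := Real.sqrt_nonneg (dd γ ν x z)
  have hs' := Real.sqrt_nonneg (dd γ ν x' z')
  rw [Real.sqrt_le_left (by linarith), add_sq, Real.sq_sqrt hd, Real.sq_sqrt hd']
  have h7 : γ * ν * (1 - ν) * (x + z) * (x' + z') +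
      γ * (1 - γ) * (z - ν * (x + z)) * (z' - ν * (x' + z')) ≤
      Real.sqrt (dd γ ν x z) * Real.sqrt (dd γ ν x' z') := by
    rw [← Real.sqrt_mul hd]
    apply Real.le_sqrt_of_sq_le
    unfold dd
    have hA : 0 ≤ γ * ν * (1 - ν) := by positivity
    have hB : 0 ≤ γ * (1 - γ) := by positivity
    generalize γ * ν * (1 - ν) = A at *
    generalize γ * (1 - γ) = B at *
    generalize z - ν * (x + z) = u at *
    generalize z' - ν * (x' + z') = u' at *
    generalize x + z = v at *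
    generalize x' + z' = v' at *
    nlinarith [mul_nonneg (mul_nonneg hA hB) (sq_nonneg (v * u' - v' * u))]
  have h8 : dd γ ν (x + x') (z + z') = dd γ ν x z + dd γ ν x' z' +
      2 * (γ * ν * (1 - ν) * (x + z) * (x' + z') +
      γ * (1 - γ) * (z - ν * (x + z)) * (z' - ν * (x' + z'))) := by
    unfold dd; ring
  rw [h8]
  linarith

theorem dd_superadd {γ ν : ℝ} (hγ : γ ∈ Set.Icc (0 : ℝ) 1) (hν : ν ∈ Set.Icc (0 : ℝ) 1)
    {x z x' z' : ℝ} (hx : 0 ≤ x) (hz : 0 ≤ z) (hx' : 0 ≤ x') (hz' : 0 ≤ z') :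
    ent2 (x + x' + (z + z')) (dd γ ν (x + x') (z + z')) - Real.negMulLog (x + x' + (z + z')) ≤
      (ent2 (x + z) (dd γ ν x z) - Real.negMulLog (x + z)) +
      (ent2 (x' + z') (dd γ ν x' z') - Real.negMulLog (x' + z')) := by
  have hs : ∀ a b : ℝ, 0 ≤ a → 0 ≤ b → 2 * Real.sqrt (dd γ ν a b) ≤ a + b := by
    intro a b ha hb
    have h1 := four_dd_le hγ hν ha hb
    have h2 := Real.sqrt_le_sqrt h1
    rw [Real.sqrt_sq (by linarith), show (4 : ℝ) * dd γ ν a b = 2 ^ 2 * dd γ ν a b by norm_num,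
      Real.sqrt_mul (by norm_num), Real.sqrt_sq (by norm_num)] at h2
    exact h2
  have h1 := hs x z hx hz
  have h2 := hs x' z' hx' hz'
  have h3 := w_add (Real.sqrt_nonneg (dd γ ν x z)) h1 (Real.sqrt_nonneg (dd γ ν x' z')) h2
  unfold w at h3
  rw [Real.sq_sqrt (dd_nonneg hγ hν x z), Real.sq_sqrt (dd_nonneg hγ hν x' z')] at h3
  have h4 := ent2_mono (t := x + z + (x' + z'))
    (Real.sqrt_nonneg (dd γ ν (x + x') (z + z'))) (sqrt_dd_add hγ hν x z x' z') (by linarith)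
  rw [Real.sq_sqrt (dd_nonneg hγ hν (x + x') (z + z'))] at h4
  rw [show x + x' + (z + z') = x + z + (x' + z') by ring]
  linarith

end Vale.Agent.Lib.P358
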