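import Vale.Agent.Lib.P358.Ent
import Vale.Agent.Lib.P358.Scalar
import Vale.Agent.Lib.P358.Tensor

/-!
# P358, module CHAIN: the chain inequality for tensor powers
-/

namespace Vale.Agent.Lib.P358

open Matrix Vale.Agent.AmplitudeDamping
open scoped ComplexOrder

namespace Chain

/-- the quantity of one site -/
noncomputable def W (γ ν x z : ℝ) : ℝ :=
  ent2 (x + z) (dd γ ν x z) - Real.negMulLog (x + z)

theorem W_add {γ ν : ℝ} (hγ : γ ∈ Set.Icc (0 : ℝ) 1) (hν : ν ∈ Set.Icc (0 : ℝ) 1)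
    {x z x' z' : ℝ} (hx : 0 ≤ x) (hz : 0 ≤ z) (hx' : 0 ≤ x') (hz' : 0 ≤ z') :
    W γ ν (x + x') (z + z') ≤ W γ ν x z + W γ ν x' z' :=
  dd_superadd hγ hν hx hz hx' hz'

theorem W_smul {γ ν a x z : ℝ} (ha : 0 ≤ a) : W γ ν (a * x) (a * z) = a * W γ ν x z := by
  unfold W
  have h1 : dd γ ν (a * x) (a * z) = a ^ 2 * dd γ ν x z := by
    unfold dd
    ring
  rw [h1, ← mul_add, Scalar.ent2_homog ha, Real.negMulLog_mul]
  ring

theorem pureEntropy_eq (γ ν q : ℝ) : pureEntropy γ ν q = W γ ν (1 - q) q / Real.log 2 := by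
  unfold pureEntropy h₂ W
  rw [sub_add_cancel, Real.negMulLog_one, sub_zero, Real.binEntropy_eq_negMulLog_add_negMulLog_one_sub]
  congr 1
  unfold ent2
  have h1 : dd γ ν (1 - q) q = γ * ν * (1 - ν) + γ * (1 - γ) * (q - ν) ^ 2 := by
    unfold dd
    ring
  rw [h1, one_pow]
  congr 2
  ring

end Chain

open Chain in
theorem chain {γ ν : ℝ} (hγ : γ ∈ Set.Icc (0 : ℝ) 1) (hν : ν ∈ Set.Icc (0 : ℝ) 1)
    (hkey : KeyIneq γ ν) (n : ℕ) (M : Matrix (Fin n → Fin 2) (Fin n → Fin 2) ℂ)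
    (hM : M.PosSemidef) :
    Real.negMulLog M.trace.re +
      ∑ s, (ent2 (pop M s 0 + pop M s 1) (dd γ ν (pop M s 0) (pop M s 1))
        - Real.negMulLog (pop M s 0 + pop M s 1)) ≤ eta (tensorPow (gad γ ν) n M) := by
  induction n with
  | zero =>
    rw [tensorPow_zero, eta_eq hM.isHermitian, trace_re_eq hM.isHermitian]
    simp
  | succ n ih =>
    obtain ⟨e, he⟩ := exists_equiv_blk n
    have h1 : (fromBlocks (blk M 0 0) (blk M 0 1) (blk M 1 0) (blk M 1 1)).PosSemidef := by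
      rw [← he M]
      exact hM.submatrix e
    have h2 := tensorPow_fromBlocks_posSemidef hγ hν n h1
    have h3 : tensorPow (gad γ ν) n (blk M 1 0) = (tensorPow (gad γ ν) n (blk M 0 1))ᴴ := by
      have h4 := h2.isHermitian
      rw [Matrix.isHermitian_fromBlocks_iff] at h4
      rw [h4.2.1]
    rw [h3] at h2
    have h4 := hkey (Fin n → Fin 2) _ _ _ h2
    rw [← h3, ← tensorPow_succ_blk, ← he,
      eta_submatrix (tensorPow_posSemidef hγ hν (n + 1) hM) e, tensorPow_trace,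
      tensorPow_trace] at h4
    have hX : (blk M 0 0).PosSemidef := h1.submatrix Sum.inl
    have hZ : (blk M 1 1).PosSemidef := h1.submatrix Sum.inr
    have h5 := ih (blk M 0 0) hX
    have h6 := ih (blk M 1 1) hZ
    rw [Fin.sum_univ_succ]
    have h7 : ∑ s : Fin n, (ent2 (pop M s.succ 0 + pop M s.succ 1)
          (dd γ ν (pop M s.succ 0) (pop M s.succ 1))
        - Real.negMulLog (pop M s.succ 0 + pop M s.succ 1)) ≤
        ∑ s, (ent2 (pop (blk M 0 0) s 0 + pop (blk M 0 0) s 1)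
          (dd γ ν (pop (blk M 0 0) s 0) (pop (blk M 0 0) s 1))
        - Real.negMulLog (pop (blk M 0 0) s 0 + pop (blk M 0 0) s 1)) +
        ∑ s, (ent2 (pop (blk M 1 1) s 0 + pop (blk M 1 1) s 1)
          (dd γ ν (pop (blk M 1 1) s 0) (pop (blk M 1 1) s 1))
        - Real.negMulLog (pop (blk M 1 1) s 0 + pop (blk M 1 1) s 1)) := by
      rw [← Finset.sum_add_distrib]
      apply Finset.sum_le_sum
      intro s _
      rw [pop_blk_succ, pop_blk_succ]
      exact dd_superadd hγ hν (pop_nonneg hX s 0) (pop_nonneg hX s 1) (pop_nonneg hZ s 0)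
        (pop_nonneg hZ s 1)
    have h8 : M.trace.re = (blk M 0 0).trace.re + (blk M 1 1).trace.re := by
      rw [← pop_add M 0, pop_blk_zero, pop_blk_zero]
    rw [pop_blk_zero, pop_blk_zero, h8]
    linarith

/-- normalised form -/
theorem entropy_lower {γ ν : ℝ} (hγ : γ ∈ Set.Icc (0 : ℝ) 1) (hν : ν ∈ Set.Icc (0 : ℝ) 1)
    (hkey : KeyIneq γ ν) (n : ℕ) (ρ : Matrix (Fin n → Fin 2) (Fin n → Fin 2) ℂ)
    (hρ : IsDensity ρ) :
    ∑ s, pureEntropy γ ν (pop ρ s 1) ≤ entropy (tensorPow (gad γ ν) n ρ) := by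
  have h1 := chain hγ hν hkey n ρ hρ.1
  rw [hρ.2, Complex.one_re, Real.negMulLog_one, zero_add] at h1
  rw [entropy_eq]
  have h2 : ∑ s, pureEntropy γ ν (pop ρ s 1) =
      (∑ s, (ent2 (pop ρ s 0 + pop ρ s 1) (dd γ ν (pop ρ s 0) (pop ρ s 1))
        - Real.negMulLog (pop ρ s 0 + pop ρ s 1))) / Real.log 2 := by
    rw [Finset.sum_div]
    apply Finset.sum_congr rfl
    intro s _
    have h3 := pop_add ρ s
    rw [hρ.2, Complex.one_re] at h3
    have h4 : pop ρ s 0 = 1 - pop ρ s 1 := by linarith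
    rw [Chain.pureEntropy_eq, h4]
    rfl
  rw [h2]
  have h3 : (0 : ℝ) < Real.log 2 := Real.log_pos (by norm_num)
  exact div_le_div_of_nonneg_right h1 h3.le

/-- convexity of the output entropy of pure states, from `dd_superadd` and homogeneity -/
theorem pureEntropy_convexOn {γ ν : ℝ} (hγ : γ ∈ Set.Icc (0 : ℝ) 1)
    (hν : ν ∈ Set.Icc (0 : ℝ) 1) : ConvexOn ℝ (Set.Icc 0 1) (pureEntropy γ ν) := by
  refine ⟨convex_Icc 0 1, ?_⟩
  intro q hq q' hq' a b ha hb hab
  have h3 : (0 : ℝ) < Real.log 2 := Real.log_pos (by norm_num)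
  simp only [smul_eq_mul, Chain.pureEntropy_eq]
  have h1 := Chain.W_add hγ hν (x := a * (1 - q)) (z := a * q) (x' := b * (1 - q')) (z' := b * q')
    (mul_nonneg ha (by linarith [hq.2])) (mul_nonneg ha hq.1)
    (mul_nonneg hb (by linarith [hq'.2])) (mul_nonneg hb hq'.1)
  rw [Chain.W_smul ha, Chain.W_smul hb] at h1
  have h2 : a * (1 - q) + b * (1 - q') = 1 - (a * q + b * q') := by
    linear_combination hab
  rw [h2] at h1
  have h4 : a * (Chain.W γ ν (1 - q) q / Real.log 2) + b * (Chain.W γ ν (1 - q') q' / Real.log 2)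
      = (a * Chain.W γ ν (1 - q) q + b * Chain.W γ ν (1 - q') q') / Real.log 2 := by ring
  rw [h4]
  exact div_le_div_of_nonneg_right h1 h3.le

end Vale.Agent.Lib.P358
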