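import Vale.Agent.Lib.P358.Hua
import Vale.Agent.Lib.P358.Balanced

/-!
# P358, module ENT: entropies through determinants
-/

namespace Vale.Agent.Lib.P358

open Matrix Vale.Agent.AmplitudeDamping Filter Topology
open scoped ComplexOrder

theorem ld_eq {ι : Type*} [Fintype ι] [DecidableEq ι] {M : Matrix ι ι ℂ} (hM : M.PosSemidef)
    {r : ℝ} (hr : 0 < r) :
    ld M r = ∑ i, Real.log (1 + hM.isHermitian.eigenvalues i / r) := by
  unfold ld
  rw [det_one_add_smul hM.isHermitian, norm_prod, Real.log_prod]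
  · refine Finset.sum_congr rfl fun i _ => ?_
    congr 1
    have h := hM.eigenvalues_nonneg i
    have e : (1 + ((r⁻¹ : ℝ) : ℂ) * (hM.isHermitian.eigenvalues i : ℂ)) =
        ((1 + hM.isHermitian.eigenvalues i / r : ℝ) : ℂ) := by push_cast; ring
    rw [e, Complex.norm_real, Real.norm_of_nonneg (by positivity)]
  · intro i _
    have h := hM.eigenvalues_nonneg i
    have e : (1 + ((r⁻¹ : ℝ) : ℂ) * (hM.isHermitian.eigenvalues i : ℂ)) =
        ((1 + hM.isHermitian.eigenvalues i / r : ℝ) : ℂ) := by push_cast; ring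
    rw [e, Complex.norm_real, Real.norm_of_nonneg (by positivity)]
    positivity

theorem eta_eq {ι : Type*} [Fintype ι] [DecidableEq ι] {M : Matrix ι ι ℂ} (hM : M.IsHermitian) :
    eta M = ∑ i, Real.negMulLog (hM.eigenvalues i) := by
  unfold eta
  rw [dif_pos hM]

theorem trace_re_eq {ι : Type*} [Fintype ι] [DecidableEq ι] {M : Matrix ι ι ℂ}
    (hM : M.IsHermitian) : M.trace.re = ∑ i, hM.eigenvalues i := by
  rw [hM.trace_eq_sum_eigenvalues]
  simp

theorem eta_le6 {a b c a' b' c' : Type*} [Fintype a] [DecidableEq a] [Fintype b] [DecidableEq b]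
    [Fintype c] [DecidableEq c] [Fintype a'] [DecidableEq a'] [Fintype b'] [DecidableEq b']
    [Fintype c'] [DecidableEq c'] {A : Matrix a a ℂ} {B : Matrix b b ℂ} {C : Matrix c c ℂ}
    {A' : Matrix a' a' ℂ} {B' : Matrix b' b' ℂ} {C' : Matrix c' c' ℂ}
    (hA : A.PosSemidef) (hB : B.PosSemidef) (hC : C.PosSemidef) (hA' : A'.PosSemidef)
    (hB' : B'.PosSemidef) (hC' : C'.PosSemidef)
    (h0 : A.trace.re + B.trace.re + C.trace.re = A'.trace.re + B'.trace.re + C'.trace.re)
    (hr : ∀ r : ℝ, 0 < r → ld A r + ld B r + ld C r ≤ ld A' r + ld B' r + ld C' r) :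
    eta A + eta B + eta C ≤ eta A' + eta B' + eta C' := by
  have h := balanced
    (Sum.elim (fun _ : a ⊕ b ⊕ c => (-1 : ℝ)) (fun _ : a' ⊕ b' ⊕ c' => (1 : ℝ)))
    (Sum.elim (Sum.elim hA.isHermitian.eigenvalues (Sum.elim hB.isHermitian.eigenvalues
      hC.isHermitian.eigenvalues)) (Sum.elim hA'.isHermitian.eigenvalues
        (Sum.elim hB'.isHermitian.eigenvalues hC'.isHermitian.eigenvalues))) ?_ ?_ ?_
  · simp only [Fintype.sum_sum_type, Sum.elim_inl, Sum.elim_inr, neg_mul, one_mul,
      Finset.sum_neg_distrib] at h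
    rw [eta_eq hA.isHermitian, eta_eq hB.isHermitian, eta_eq hC.isHermitian,
      eta_eq hA'.isHermitian, eta_eq hB'.isHermitian, eta_eq hC'.isHermitian]
    linarith
  · rintro ((i | i | i) | (i | i | i))
    · exact hA.eigenvalues_nonneg i
    · exact hB.eigenvalues_nonneg i
    · exact hC.eigenvalues_nonneg i
    · exact hA'.eigenvalues_nonneg i
    · exact hB'.eigenvalues_nonneg i
    · exact hC'.eigenvalues_nonneg i
  · simp only [Fintype.sum_sum_type, Sum.elim_inl, Sum.elim_inr, neg_mul, one_mul,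
      Finset.sum_neg_distrib]
    rw [trace_re_eq hA.isHermitian, trace_re_eq hB.isHermitian, trace_re_eq hC.isHermitian,
      trace_re_eq hA'.isHermitian, trace_re_eq hB'.isHermitian, trace_re_eq hC'.isHermitian] at h0
    linarith
  · intro r hr0
    have h1 := hr r hr0
    rw [ld_eq hA hr0, ld_eq hB hr0, ld_eq hC hr0, ld_eq hA' hr0, ld_eq hB' hr0, ld_eq hC' hr0]
      at h1
    simp only [Fintype.sum_sum_type, Sum.elim_inl, Sum.elim_inr, neg_mul, one_mul,
      Finset.sum_neg_distrib]
    linarith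

/-- `eta` is determined by the trace and the determinants -/
theorem eta_eq_of {a κ : Type*} [Fintype a] [DecidableEq a] [Fintype κ] {A : Matrix a a ℂ}
    (hA : A.PosSemidef) (l : κ → ℝ) (hl : ∀ i, 0 ≤ l i) (h0 : A.trace.re = ∑ i, l i)
    (hr : ∀ r : ℝ, 0 < r → ld A r = ∑ i, Real.log (1 + l i / r)) :
    eta A = ∑ i, Real.negMulLog (l i) := by
  have hnn : ∀ i, 0 ≤ (Sum.elim hA.isHermitian.eigenvalues l) i := by
    rintro (i | i)
    · exact hA.eigenvalues_nonneg i
    · exact hl i
  rw [trace_re_eq hA.isHermitian] at h0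
  have h1 := balanced (Sum.elim (fun _ : a => (-1 : ℝ)) (fun _ : κ => (1 : ℝ)))
    (Sum.elim hA.isHermitian.eigenvalues l) hnn (by
      simp only [Fintype.sum_sum_type, Sum.elim_inl, Sum.elim_inr, neg_mul, one_mul,
        Finset.sum_neg_distrib]
      linarith) (by
      intro r hr0
      have := hr r hr0
      rw [ld_eq hA hr0] at this
      simp only [Fintype.sum_sum_type, Sum.elim_inl, Sum.elim_inr, neg_mul, one_mul,
        Finset.sum_neg_distrib]
      linarith)
  have h2 := balanced (Sum.elim (fun _ : a => (1 : ℝ)) (fun _ : κ => (-1 : ℝ)))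
    (Sum.elim hA.isHermitian.eigenvalues l) hnn (by
      simp only [Fintype.sum_sum_type, Sum.elim_inl, Sum.elim_inr, neg_mul, one_mul,
        Finset.sum_neg_distrib]
      linarith) (by
      intro r hr0
      have := hr r hr0
      rw [ld_eq hA hr0] at this
      simp only [Fintype.sum_sum_type, Sum.elim_inl, Sum.elim_inr, neg_mul, one_mul,
        Finset.sum_neg_distrib]
      linarith)
  simp only [Fintype.sum_sum_type, Sum.elim_inl, Sum.elim_inr, neg_mul, one_mul,
    Finset.sum_neg_distrib] at h1 h2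
  rw [eta_eq hA.isHermitian]
  linarith

theorem eta_congr {a b : Type*} [Fintype a] [DecidableEq a] [Fintype b] [DecidableEq b]
    {A : Matrix a a ℂ} {B : Matrix b b ℂ} (hA : A.PosSemidef) (hB : B.PosSemidef)
    (h0 : A.trace.re = B.trace.re) (hr : ∀ r : ℝ, 0 < r → ld A r = ld B r) : eta A = eta B := by
  rw [eta_eq hB.isHermitian]
  refine eta_eq_of hA _ hB.eigenvalues_nonneg ?_ ?_
  · rw [h0, trace_re_eq hB.isHermitian]
  · intro r hr0
    rw [hr r hr0, ld_eq hB hr0]

theorem posSemidef_diagonal {a : Type*} [Fintype a] [DecidableEq a] (d : a → ℝ)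
    (hd : ∀ i, 0 ≤ d i) : (diagonal fun i => (d i : ℂ)).PosSemidef := by
  refine PosSemidef.diagonal ?_
  intro i
  simp only [Pi.zero_apply]
  exact_mod_cast hd i

theorem eta_diagonal {a : Type*} [Fintype a] [DecidableEq a] (d : a → ℝ) (hd : ∀ i, 0 ≤ d i) :
    eta (diagonal fun i => (d i : ℂ)) = ∑ i, Real.negMulLog (d i) := by
  refine eta_eq_of (posSemidef_diagonal d hd) d hd ?_ ?_
  · rw [trace_diagonal]
    simp
  · intro r hr0
    unfold ld
    have e : (1 + ((r⁻¹ : ℝ) : ℂ) • diagonal fun i => (d i : ℂ)) =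
        diagonal fun i => ((1 + d i / r : ℝ) : ℂ) := by
      rw [← diagonal_one, ← diagonal_smul, diagonal_add]
      congr 1
      funext i
      simp only [Pi.smul_apply, smul_eq_mul]
      push_cast
      ring
    have hp : ∀ i, 0 < 1 + d i / r := fun i => by
      have := hd i
      positivity
    rw [e, det_diagonal, norm_prod, Real.log_prod]
    · refine Finset.sum_congr rfl fun i _ => ?_
      rw [Complex.norm_real, Real.norm_of_nonneg (hp i).le]
    · intro i _
      rw [Complex.norm_real, Real.norm_of_nonneg (hp i).le]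
      exact (hp i).ne'

theorem posSemidef_fromBlocks {a b : Type*} [Fintype a] [DecidableEq a] [Fintype b]
    [DecidableEq b] {A : Matrix a a ℂ} {B : Matrix b b ℂ} (hA : A.PosSemidef)
    (hB : B.PosSemidef) : (fromBlocks A 0 0 B).PosSemidef := by
  obtain ⟨S, hS⟩ := exists_factor hA
  obtain ⟨T, hT⟩ := exists_factor hB
  have : fromBlocks A 0 0 B = (fromBlocks S 0 0 T)ᴴ * fromBlocks S 0 0 T := by
    rw [fromBlocks_conjTranspose, fromBlocks_multiply, hS, hT]
    simp
  rw [this]
  exact posSemidef_conjTranspose_mul_self _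

theorem norm_det_one_add_ne {c : Type*} [Fintype c] [DecidableEq c] {C : Matrix c c ℂ}
    (hC : C.PosSemidef) {r : ℝ} (hr : 0 < r) : ‖(1 + ((r⁻¹ : ℝ) : ℂ) • C).det‖ ≠ 0 := by
  have h1 : (((r⁻¹ : ℝ) : ℂ) • C).PosSemidef := by
    have := hC.smul (inv_pos.2 hr).le
    rwa [Complex.coe_smul]
  exact (norm_det_pos (PosDef.one.add_posSemidef h1)).ne'

theorem ld_fromBlocks {a b : Type*} [Fintype a] [DecidableEq a] [Fintype b] [DecidableEq b]
    {A : Matrix a a ℂ} {B : Matrix b b ℂ} (hA : A.PosSemidef) (hB : B.PosSemidef) {r : ℝ}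
    (hr : 0 < r) : ld (fromBlocks A 0 0 B) r = ld A r + ld B r := by
  unfold ld
  rw [fromBlocks_smul, smul_zero, smul_zero, ← fromBlocks_one, fromBlocks_add, add_zero,
    add_zero, det_fromBlocks_zero₂₁, norm_mul, Real.log_mul (norm_det_one_add_ne hA hr)
      (norm_det_one_add_ne hB hr)]

theorem eta_fromBlocks {a b : Type*} [Fintype a] [DecidableEq a] [Fintype b] [DecidableEq b]
    {A : Matrix a a ℂ} {B : Matrix b b ℂ} (hA : A.PosSemidef) (hB : B.PosSemidef) :
    eta (fromBlocks A 0 0 B) = eta A + eta B := by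
  have h := eta_eq_of (posSemidef_fromBlocks hA hB)
    (Sum.elim hA.isHermitian.eigenvalues hB.isHermitian.eigenvalues) ?_ ?_ ?_
  · rw [h, Fintype.sum_sum_type, eta_eq hA.isHermitian, eta_eq hB.isHermitian]
    simp only [Sum.elim_inl, Sum.elim_inr]
  · rintro (i | i)
    · exact hA.eigenvalues_nonneg i
    · exact hB.eigenvalues_nonneg i
  · have e : (fromBlocks A 0 0 B).trace = A.trace + B.trace := by
      simp [trace, Fintype.sum_sum_type]
    rw [Fintype.sum_sum_type, e, Complex.add_re, trace_re_eq hA.isHermitian,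
      trace_re_eq hB.isHermitian]
    simp only [Sum.elim_inl, Sum.elim_inr]
  · intro r hr0
    rw [ld_fromBlocks hA hB hr0, Fintype.sum_sum_type, ld_eq hA hr0, ld_eq hB hr0]
    simp only [Sum.elim_inl, Sum.elim_inr]

theorem ld_mul_conjTranspose {a b : Type*} [Fintype a] [DecidableEq a] [Fintype b]
    [DecidableEq b] (V : Matrix a b ℂ) (r : ℝ) : ld (V * Vᴴ) r = ld (Vᴴ * V) r := by
  unfold ld
  rw [← Matrix.smul_mul, det_one_add_mul_comm, Matrix.mul_smul]

theorem eta_mul_conjTranspose {a b : Type*} [Fintype a] [DecidableEq a] [Fintype b]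
    [DecidableEq b] (V : Matrix a b ℂ) : eta (V * Vᴴ) = eta (Vᴴ * V) := by
  refine eta_congr (posSemidef_self_mul_conjTranspose V) (posSemidef_conjTranspose_mul_self V) ?_
    fun r _ => ld_mul_conjTranspose V r
  rw [trace_mul_comm]

theorem eta_unitary {a : Type*} [Fintype a] [DecidableEq a] {M U : Matrix a a ℂ}
    (hM : M.PosSemidef) (hU : Uᴴ * U = 1) : eta (U * M * Uᴴ) = eta M := by
  have hU' : U * Uᴴ = 1 := mul_eq_one_comm.1 hU
  refine eta_congr (hM.mul_mul_conjTranspose_same U) hM ?_ ?_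
  · rw [trace_mul_cycle, hU, one_mul]
  · intro r _
    unfold ld
    have e : 1 + ((r⁻¹ : ℝ) : ℂ) • (U * M * Uᴴ) = U * (1 + ((r⁻¹ : ℝ) : ℂ) • M) * Uᴴ := by
      rw [mul_add, add_mul, mul_one, hU', Matrix.mul_smul, Matrix.smul_mul]
    rw [e, det_mul_right_comm, hU', one_mul]

theorem eta_submatrix {a b : Type*} [Fintype a] [DecidableEq a] [Fintype b] [DecidableEq b]
    {M : Matrix a a ℂ} (hM : M.PosSemidef) (e : b ≃ a) : eta (M.submatrix e e) = eta M := by
  refine eta_congr (hM.submatrix e) hM ?_ ?_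
  · congr 1
    simp only [trace, diag_apply, submatrix_apply]
    exact Equiv.sum_comp e fun i => M i i
  · intro r _
    unfold ld
    have h : 1 + ((r⁻¹ : ℝ) : ℂ) • M.submatrix e e =
        (1 + ((r⁻¹ : ℝ) : ℂ) • M).submatrix e e := by
      rw [submatrix_add, Pi.add_apply, Pi.add_apply, submatrix_one_equiv]
      rfl
    rw [h, det_submatrix_equiv_self]

theorem eta_smul {a : Type*} [Fintype a] [DecidableEq a] {M : Matrix a a ℂ}
    (hM : M.PosSemidef) {c : ℝ} (hc : 0 ≤ c) :
    eta ((c : ℂ) • M) = c * eta M + Real.negMulLog c * M.trace.re := by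
  have hcM : ((c : ℂ) • M).PosSemidef := by
    have := hM.smul hc
    rwa [Complex.coe_smul]
  have h := eta_eq_of hcM (fun i => c * hM.isHermitian.eigenvalues i) ?_ ?_ ?_
  · rw [h, eta_eq hM.isHermitian, trace_re_eq hM.isHermitian, Finset.mul_sum, Finset.mul_sum,
      ← Finset.sum_add_distrib]
    refine Finset.sum_congr rfl fun i _ => ?_
    rw [Real.negMulLog_mul]
    ring
  · intro i
    exact mul_nonneg hc (hM.eigenvalues_nonneg i)
  · rw [trace_smul, smul_eq_mul, Complex.re_ofReal_mul, trace_re_eq hM.isHermitian,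
      Finset.mul_sum]
  · intro r hr0
    unfold ld
    rw [smul_smul, det_one_add_smul hM.isHermitian, norm_prod, Real.log_prod]
    · refine Finset.sum_congr rfl fun i _ => ?_
      congr 1
      have h := hM.eigenvalues_nonneg i
      have e : (1 + ((r⁻¹ : ℝ) : ℂ) * (c : ℂ) * (hM.isHermitian.eigenvalues i : ℂ)) =
          ((1 + c * hM.isHermitian.eigenvalues i / r : ℝ) : ℂ) := by push_cast; ring
      rw [e, Complex.norm_real, Real.norm_of_nonneg (by positivity)]
    · intro i _
      have h := hM.eigenvalues_nonneg i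
      have e : (1 + ((r⁻¹ : ℝ) : ℂ) * (c : ℂ) * (hM.isHermitian.eigenvalues i : ℂ)) =
          ((1 + c * hM.isHermitian.eigenvalues i / r : ℝ) : ℂ) := by push_cast; ring
      rw [e, Complex.norm_real, Real.norm_of_nonneg (by positivity)]
      positivity

theorem entropy_eq {a : Type*} [Fintype a] [DecidableEq a] (M : Matrix a a ℂ) :
    entropy M = eta M / Real.log 2 := by
  unfold entropy eta
  split_ifs <;> simp

/-- `ent2` for a pair of numbers with given sum and product -/
theorem ent2_eq (p q : ℝ) : ent2 (p + q) (p * q) = Real.negMulLog p + Real.negMulLog q := by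
  unfold ent2
  have h : (p + q) ^ 2 - 4 * (p * q) = (p - q) ^ 2 := by ring
  rw [h, Real.sqrt_sq_eq_abs]
  rcases le_total 0 (p - q) with h1 | h1
  · rw [abs_of_nonneg h1]
    congr 2 <;> ring
  · rw [abs_of_nonpos h1, add_comm (Real.negMulLog p)]
    congr 2 <;> ring

theorem eta_two {M : Matrix (Fin 2) (Fin 2) ℂ} (hM : M.PosSemidef) :
    eta M = ent2 M.trace.re M.det.re := by
  have h1 : M.trace.re = hM.isHermitian.eigenvalues 0 + hM.isHermitian.eigenvalues 1 := by
    rw [trace_re_eq hM.isHermitian, Fin.sum_univ_two]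
  have h2 : M.det.re = hM.isHermitian.eigenvalues 0 * hM.isHermitian.eigenvalues 1 := by
    rw [hM.isHermitian.det_eq_prod_eigenvalues, Fin.prod_univ_two]
    simp
  rw [h1, h2, ent2_eq, eta_eq hM.isHermitian, Fin.sum_univ_two]

end Vale.Agent.Lib.P358
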