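import Vale.Agent.Lib.P358.Ent
import Vale.Agent.Lib.P358.Tensor

/-!
# P358: UPPER
-/

namespace Vale.Agent.Lib.P358

open Matrix Vale.Agent.AmplitudeDamping
open scoped ComplexOrder

/-- the von Neumann entropy is at most the Shannon entropy of the diagonal -/
theorem eta_le_diag {ι : Type*} [Fintype ι] [DecidableEq ι] {M : Matrix ι ι ℂ}
    (hM : M.PosSemidef) : eta M ≤ ∑ i, Real.negMulLog (M i i).re := by
  have hH := hM.isHermitian
  rw [eta_eq hH]
  obtain ⟨U, hUdef⟩ : ∃ U : Matrix ι ι ℂ, U = (hH.eigenvectorUnitary : Matrix ι ι ℂ) := ⟨_, rfl⟩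
  have hUU : Uᴴ * U = 1 := by
    rw [hUdef]; exact Unitary.star_mul_self_of_mem hH.eigenvectorUnitary.2
  have hUU' : U * Uᴴ = 1 := by
    rw [hUdef]; exact Unitary.mul_star_self_of_mem hH.eigenvectorUnitary.2
  have hspec : M = U * (diagonal fun i => (hH.eigenvalues i : ℂ)) * Uᴴ := by
    have e := hH.spectral_theorem
    rw [Unitary.conjStarAlgAut_apply] at e
    rw [hUdef]
    exact e
  have hdiag : ∀ i, (M i i).re = ∑ j, Complex.normSq (U i j) * hH.eigenvalues j := by
    intro i
    have e : M i i = ∑ j, ((Complex.normSq (U i j) * hH.eigenvalues j : ℝ) : ℂ) := by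
      conv_lhs => rw [hspec]
      rw [Matrix.mul_apply]
      refine Finset.sum_congr rfl fun j _ => ?_
      rw [Matrix.mul_diagonal, conjTranspose_apply]
      push_cast
      rw [← Complex.mul_conj]
      simp only [RCLike.star_def]
      ring
    rw [e, Complex.re_sum]
    simp only [Complex.ofReal_re]
  have hrow : ∀ i, ∑ j, Complex.normSq (U i j) = 1 := by
    intro i
    have h := congrFun (congrFun hUU' i) i
    rw [Matrix.mul_apply, Matrix.one_apply_eq] at h
    have e : ∀ j, U i j * Uᴴ j i = ((Complex.normSq (U i j) : ℝ) : ℂ) := by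
      intro j
      rw [conjTranspose_apply, ← Complex.mul_conj]
      rfl
    rw [Finset.sum_congr rfl fun j _ => e j] at h
    exact_mod_cast h
  have hcol : ∀ j, ∑ i, Complex.normSq (U i j) = 1 := by
    intro j
    have h := congrFun (congrFun hUU j) j
    rw [Matrix.mul_apply, Matrix.one_apply_eq] at h
    have e : ∀ i, Uᴴ j i * U i j = ((Complex.normSq (U i j) : ℝ) : ℂ) := by
      intro i
      rw [conjTranspose_apply, ← Complex.mul_conj, mul_comm]
      rfl
    rw [Finset.sum_congr rfl fun i _ => e i] at h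
    exact_mod_cast h
  have hconc : ∀ i, ∑ j, Complex.normSq (U i j) * Real.negMulLog (hH.eigenvalues j) ≤
      Real.negMulLog (M i i).re := by
    intro i
    have h := Real.concaveOn_negMulLog.le_map_sum (t := Finset.univ)
      (w := fun j => Complex.normSq (U i j)) (p := fun j => hH.eigenvalues j)
      (fun j _ => Complex.normSq_nonneg _) (hrow i) (fun j _ => hM.eigenvalues_nonneg j)
    simp only [smul_eq_mul] at h
    rw [hdiag i]
    exact h
  calc ∑ j, Real.negMulLog (hH.eigenvalues j)
      = ∑ j, (∑ i, Complex.normSq (U i j)) * Real.negMulLog (hH.eigenvalues j) := by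
        refine Finset.sum_congr rfl fun j _ => ?_
        rw [hcol j, one_mul]
    _ = ∑ i, ∑ j, Complex.normSq (U i j) * Real.negMulLog (hH.eigenvalues j) := by
        rw [Finset.sum_comm]
        refine Finset.sum_congr rfl fun j _ => ?_
        rw [Finset.sum_mul]
    _ ≤ _ := Finset.sum_le_sum fun i _ => hconc i

/-- marginal of a function on bit strings -/
noncomputable def marg {n : ℕ} (p : (Fin n → Fin 2) → ℝ) (s : Fin n) (b : Fin 2) : ℝ :=
  ∑ k : Fin n → Fin 2, if k s = b then p k else 0

theorem marg_nonneg {n : ℕ} {p : (Fin n → Fin 2) → ℝ} (hp : ∀ k, 0 ≤ p k) (s : Fin n)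
    (b : Fin 2) : 0 ≤ marg p s b :=
  Finset.sum_nonneg fun k _ => by split_ifs <;> simp [hp k]

theorem le_marg {n : ℕ} {p : (Fin n → Fin 2) → ℝ} (hp : ∀ k, 0 ≤ p k) (s : Fin n)
    (k : Fin n → Fin 2) : p k ≤ marg p s (k s) := by
  have h := Finset.single_le_sum (f := fun l : Fin n → Fin 2 => if l s = k s then p l else 0)
    (fun l _ => by split_ifs <;> simp [hp l]) (Finset.mem_univ k)
  unfold marg
  simpa using h

theorem marg_add {n : ℕ} (p : (Fin n → Fin 2) → ℝ) (s : Fin n) :
    ∑ b, marg p s b = ∑ k, p k := by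
  unfold marg
  rw [Finset.sum_comm]
  refine Finset.sum_congr rfl fun k _ => ?_
  simp

/-- subadditivity of the Shannon entropy -/
theorem shannon_subadd {n : ℕ} (p : (Fin n → Fin 2) → ℝ) (hp : ∀ k, 0 ≤ p k)
    (h1 : ∑ k, p k = 1) :
    ∑ k, Real.negMulLog (p k) ≤ ∑ s, ∑ b, Real.negMulLog (marg p s b) := by
  have hq1 : ∑ k : Fin n → Fin 2, ∏ s, marg p s (k s) = 1 := by
    have h := Finset.prod_univ_sum (fun _ : Fin n => (Finset.univ : Finset (Fin 2)))
      (fun s b => marg p s b)
    rw [Fintype.piFinset_univ] at h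
    rw [← h]
    refine Finset.prod_eq_one fun s _ => ?_
    rw [marg_add, h1]
  have key : ∀ k : Fin n → Fin 2, Real.negMulLog (p k) + p k * ∑ s, Real.log (marg p s (k s)) ≤
      (∏ s, marg p s (k s)) - p k := by
    intro k
    rcases (hp k).eq_or_lt with h0 | h0
    · rw [← h0]
      simp only [Real.negMulLog_zero, zero_mul, add_zero, sub_zero]
      exact Finset.prod_nonneg fun s _ => marg_nonneg hp s (k s)
    · have hm : ∀ s, 0 < marg p s (k s) := fun s => h0.trans_le (le_marg hp s k)
      have hprod : 0 < ∏ s, marg p s (k s) := Finset.prod_pos fun s _ => hm s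
      rw [← Real.log_prod (fun s _ => (hm s).ne')]
      have hlog := Real.log_le_sub_one_of_pos (div_pos hprod h0)
      rw [Real.log_div hprod.ne' h0.ne'] at hlog
      have h2 := mul_le_mul_of_nonneg_left hlog h0.le
      unfold Real.negMulLog
      have e : p k * ((∏ s, marg p s (k s)) / p k - 1) = (∏ s, marg p s (k s)) - p k := by
        field_simp
      rw [e] at h2
      linarith
  have hsum := Finset.sum_le_sum fun k (_ : k ∈ (Finset.univ : Finset (Fin n → Fin 2))) => key k
  rw [Finset.sum_add_distrib, Finset.sum_sub_distrib, hq1, h1, sub_self] at hsum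
  have e : ∑ k : Fin n → Fin 2, p k * ∑ s, Real.log (marg p s (k s)) =
      -∑ s, ∑ b, Real.negMulLog (marg p s b) := by
    simp only [Finset.mul_sum]
    rw [Finset.sum_comm, ← Finset.sum_neg_distrib]
    refine Finset.sum_congr rfl fun s _ => ?_
    have e2 : ∀ k : Fin n → Fin 2, p k * Real.log (marg p s (k s)) =
        ∑ b, (if k s = b then p k else 0) * Real.log (marg p s b) := by
      intro k
      simp [ite_mul]
    rw [Finset.sum_congr rfl fun k _ => e2 k, Finset.sum_comm, ← Finset.sum_neg_distrib]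
    refine Finset.sum_congr rfl fun b _ => ?_
    rw [← Finset.sum_mul]
    unfold Real.negMulLog
    unfold marg
    ring
  rw [e] at hsum
  linarith

/-- subadditivity -/
theorem entropy_le_pop {n : ℕ} (ρ : Matrix (Fin n → Fin 2) (Fin n → Fin 2) ℂ)
    (hρ : IsDensity ρ) : entropy ρ ≤ ∑ s, h₂ (pop ρ s 1) := by
  have hpos : ∀ k, 0 ≤ (ρ k k).re := fun k => (Complex.le_def.mp (hρ.1.diag_nonneg (i := k))).1
  have htr : ∑ k, (ρ k k).re = 1 := by
    have h := congrArg Complex.re hρ.2
    unfold Matrix.trace at h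
    rw [Complex.re_sum] at h
    simpa using h
  have hsub := shannon_subadd (fun k => (ρ k k).re) hpos htr
  have h1 := (eta_le_diag hρ.1).trans hsub
  rw [entropy_eq]
  have hlog : 0 < Real.log 2 := Real.log_pos one_lt_two
  rw [div_le_iff₀ hlog, Finset.sum_mul]
  refine h1.trans (le_of_eq (Finset.sum_congr rfl fun s _ => ?_))
  have hm : ∀ b, marg (fun k => (ρ k k).re) s b = pop ρ s b := fun b => rfl
  have hadd : pop ρ s 0 + pop ρ s 1 = 1 := by
    rw [pop_add]
    have h := congrArg Complex.re hρ.2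
    simpa using h
  rw [Fin.sum_univ_two, hm, hm]
  unfold h₂
  rw [div_mul_cancel₀ _ hlog.ne', Real.binEntropy_eq_negMulLog_add_negMulLog_one_sub]
  have e : pop ρ s 0 = 1 - pop ρ s 1 := by linarith
  rw [e]
  ring

end Vale.Agent.Lib.P358
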