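import Vale.Agent.Lib.P358.Chain
import Vale.Agent.Lib.P358.Upper
import Vale.Agent.Lib.P358.Achieve

/-!
# P358, module FINAL: the capacity from the key inequality
-/

namespace Vale.Agent.Lib.P358

open Matrix Vale.Agent.AmplitudeDamping
open scoped ComplexOrder

namespace Final

/-- the one-letter quantity -/
noncomputable def F (γ ν q : ℝ) : ℝ := h₂ ((1 - γ) * q + γ * ν) - pureEntropy γ ν q

theorem continuous_F (γ ν : ℝ) : Continuous (F γ ν) := by
  unfold F pureEntropy h₂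
  have h1 := Real.binEntropy_continuous
  fun_prop

theorem pop_sum {n m : ℕ} (q : Fin m → ℝ)
    (ρ : Fin m → Matrix (Fin n → Fin 2) (Fin n → Fin 2) ℂ) (s : Fin n) (b : Fin 2) :
    pop (∑ a, (q a : ℂ) • ρ a) s b = ∑ a, q a * pop (ρ a) s b := by
  unfold pop
  simp only [Finset.mul_sum]
  rw [Finset.sum_comm]
  apply Finset.sum_congr rfl
  intro k _
  split_ifs with h
  · rw [Matrix.sum_apply, Complex.re_sum]
    apply Finset.sum_congr rfl
    intro a _
    simp [Matrix.smul_apply]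
  · simp

theorem holevo_le {γ ν : ℝ} (hγ : γ ∈ Set.Icc (0 : ℝ) 1) (hν : ν ∈ Set.Icc (0 : ℝ) 1)
    (hkey : KeyIneq γ ν) (c : ℝ) (hc : ∀ q ∈ Set.Icc (0 : ℝ) 1, F γ ν q ≤ c) (n : ℕ) (x : ℝ)
    (hx : x ∈ holevoValues (tensorPow (gad γ ν) n)) : x ≤ n * c := by
  obtain ⟨m, q, ρ, hq0, hq1, hρ, rfl⟩ := hx
  -- the average output
  have hdens : IsDensity (∑ a, (q a : ℂ) • tensorPow (gad γ ν) n (ρ a)) := by
    refine ⟨?_, ?_⟩
    · apply Matrix.posSemidef_sum
      intro a _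
      have h1 := (tensorPow_posSemidef hγ hν n (hρ a).1).smul (hq0 a)
      rwa [← Complex.coe_smul] at h1
    · rw [Matrix.trace_sum]
      have h1 : ∀ a, ((q a : ℂ) • tensorPow (gad γ ν) n (ρ a)).trace = (q a : ℂ) := by
        intro a
        rw [Matrix.trace_smul, tensorPow_trace, (hρ a).2, smul_eq_mul, mul_one]
      simp only [h1]
      rw [← Complex.ofReal_sum, hq1, Complex.ofReal_one]
  have h1 := entropy_le_pop _ hdens
  have hp01 : ∀ a s, pop (ρ a) s 1 ∈ Set.Icc (0 : ℝ) 1 := by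
    intro a s
    have h2 := pop_add (ρ a) s
    rw [(hρ a).2, Complex.one_re] at h2
    have h3 := pop_nonneg (hρ a).1 s 0
    have h4 := pop_nonneg (hρ a).1 s 1
    exact ⟨h4, by linarith⟩
  -- populations of the average output
  have h2 : ∀ s, pop (∑ a, (q a : ℂ) • tensorPow (gad γ ν) n (ρ a)) s 1 =
      (1 - γ) * (∑ a, q a * pop (ρ a) s 1) + γ * ν := by
    intro s
    rw [pop_sum]
    have h3 : ∀ a, q a * pop (tensorPow (gad γ ν) n (ρ a)) s 1 =
        (1 - γ) * (q a * pop (ρ a) s 1) + q a * (γ * ν) := by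
      intro a
      have h4 := pop_add (ρ a) s
      rw [(hρ a).2, Complex.one_re] at h4
      rw [pop_tensorPow hγ hν, show pop (ρ a) s 0 = 1 - pop (ρ a) s 1 by linarith]
      ring
    simp only [h3]
    rw [Finset.sum_add_distrib, ← Finset.mul_sum, ← Finset.sum_mul, hq1, one_mul]
  -- Jensen
  have h3 : ∀ s, pureEntropy γ ν (∑ a, q a * pop (ρ a) s 1) ≤
      ∑ a, q a * pureEntropy γ ν (pop (ρ a) s 1) := by
    intro s
    have h4 := (pureEntropy_convexOn hγ hν).map_sum_le (t := Finset.univ) (w := q)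
      (p := fun a => pop (ρ a) s 1) (fun a _ => hq0 a) hq1 (fun a _ => hp01 a s)
    simpa using h4
  have h4 : ∑ s, ∑ a, q a * pureEntropy γ ν (pop (ρ a) s 1) ≤
      ∑ a, q a * entropy (tensorPow (gad γ ν) n (ρ a)) := by
    rw [Finset.sum_comm]
    apply Finset.sum_le_sum
    intro a _
    rw [← Finset.mul_sum]
    exact mul_le_mul_of_nonneg_left (entropy_lower hγ hν hkey n (ρ a) (hρ a)) (hq0 a)
  have h5 : ∑ s, pureEntropy γ ν (∑ a, q a * pop (ρ a) s 1) ≤
      ∑ s, ∑ a, q a * pureEntropy γ ν (pop (ρ a) s 1) := Finset.sum_le_sum fun s _ => h3 s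
  have h6 : ∑ s : Fin n, (h₂ ((1 - γ) * (∑ a, q a * pop (ρ a) s 1) + γ * ν) -
      pureEntropy γ ν (∑ a, q a * pop (ρ a) s 1)) ≤ n * c := by
    have h7 : ∀ s : Fin n, (h₂ ((1 - γ) * (∑ a, q a * pop (ρ a) s 1) + γ * ν) -
      pureEntropy γ ν (∑ a, q a * pop (ρ a) s 1)) ≤ c := by
      intro s
      apply hc
      refine ⟨Finset.sum_nonneg fun a _ => mul_nonneg (hq0 a) (hp01 a s).1, ?_⟩
      rw [← hq1]
      apply Finset.sum_le_sum
      intro a _
      have h8 := (hp01 a s).2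
      have h9 := hq0 a
      nlinarith
    calc _ ≤ ∑ _s : Fin n, c := Finset.sum_le_sum fun s _ => h7 s
      _ = n * c := by simp
  rw [Finset.sum_sub_distrib] at h6
  simp only [h2] at h1
  linarith

end Final

open Final in
theorem main_of_keyIneq {γ ν : ℝ} (hγ : γ ∈ Set.Icc (0 : ℝ) 1) (hν : ν ∈ Set.Icc (0 : ℝ) 1)
    (hkey : KeyIneq γ ν) :
    (∀ n : ℕ, IsGreatest (holevoValues (tensorPow (gad γ ν) n)) ((n : ℝ) * chi (gad γ ν))) ∧
    (∀ n : ℕ, chi (tensorPow (gad γ ν) n) = n * chi (gad γ ν)) ∧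
    capacity (gad γ ν) = chi (gad γ ν) ∧
    IsGreatest ((fun q => h₂ ((1 - γ) * q + γ * ν) - pureEntropy γ ν q) '' Set.Icc 0 1)
      (capacity (gad γ ν)) := by
  obtain ⟨q0, hq0, hmax⟩ := (isCompact_Icc (a := (0 : ℝ)) (b := 1)).exists_isMaxOn
    ⟨0, by simp⟩ (continuous_F γ ν).continuousOn
  have hc : ∀ q ∈ Set.Icc (0 : ℝ) 1, F γ ν q ≤ F γ ν q0 := fun q hq => hmax hq
  have h1 : ∀ n : ℕ, IsGreatest (holevoValues (tensorPow (gad γ ν) n)) ((n : ℝ) * F γ ν q0) := by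
    intro n
    exact ⟨achieve hγ hν hq0 n, fun x hx => holevo_le hγ hν hkey _ hc n x hx⟩
  have h2 : ∀ n : ℕ, chi (tensorPow (gad γ ν) n) = n * F γ ν q0 := fun n => (h1 n).csSup_eq
  have h3 : chi (gad γ ν) = F γ ν q0 := by
    have h4 := h2 1
    rw [Nat.cast_one, one_mul] at h4
    rw [← h4]
    unfold chi
    rw [holevoValues_one]
  have h4 : capacity (gad γ ν) = F γ ν q0 := by
    unfold capacity
    have h5 : ∀ n : ℕ, chi (tensorPow (gad γ ν) (n + 1)) / ((n : ℝ) + 1) = F γ ν q0 := by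
      intro n
      rw [h2 (n + 1)]
      push_cast
      have h6 : ((n : ℝ) + 1) ≠ 0 := by positivity
      field_simp
    simp only [h5]
    exact ciSup_const
  refine ⟨fun n => by rw [h3]; exact h1 n, fun n => by rw [h3]; exact h2 n, by rw [h4, h3], ?_⟩
  rw [h4]
  refine ⟨⟨q0, hq0, rfl⟩, ?_⟩
  rintro _ ⟨q, hq, rfl⟩
  exact hc q hq

end Vale.Agent.Lib.P358
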