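import Mathlib

/-!
# P358, module G1: scalar dual potentials
-/

namespace Vale.Agent.Lib.P358

open MeasureTheory

/-- properties of the dual potentials -/
structure IsPot (x q : ℝ) (F : ℝ → ℝ) : Prop where
  zero : F 0 = 0
  mono : MonotoneOn F (Set.Ici 0)
  concave : ConcaveOn ℝ (Set.Ici 0) F
  lip : ∀ k k' : ℝ, 0 ≤ k → k ≤ k' → F k' - F k ≤ k' - k
  le_log : ∀ k : ℝ, 0 ≤ k → F k ≤ Real.log (1 + k)
  lower : ∃ C : ℝ, 0 ≤ C ∧ ∀ k : ℝ, 0 ≤ k → k - C * k ^ 2 ≤ F k
  const : ∀ k : ℝ, 0 ≤ k → x ≤ k * q → F k = F (x / q)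

namespace Pot

/-- the second coordinate of the curve as a function of the first one -/
noncomputable def T (x y q s κ : ℝ) : ℝ := y * κ / (x + (s - q) * κ)

/-- the derivative of the potential -/
noncomputable def f (x y q s κ : ℝ) : ℝ :=
  if κ * q < x then (1 + κ + T x y q s κ)⁻¹ else 0

/-- the potential -/
noncomputable def F (x y q s k : ℝ) : ℝ := ∫ κ in (0 : ℝ)..k, f x y q s κ

variable {x y q s : ℝ}

theorem den_pos (hs : 0 ≤ s) {κ : ℝ} (hκ : 0 ≤ κ) (h : κ * q < x) : 0 < x + (s - q) * κ := by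
  have := mul_nonneg hs hκ
  nlinarith

theorem T_nonneg (hy : 0 < y) (hs : 0 ≤ s) {κ : ℝ} (hκ : 0 ≤ κ) (h : κ * q < x) :
    0 ≤ T x y q s κ := by
  have := den_pos hs hκ h
  unfold T
  positivity

theorem T_mono (hx : 0 < x) (hy : 0 < y) (hq : 0 ≤ q) (hs : 0 ≤ s) {κ₁ κ₂ : ℝ} (h1 : 0 ≤ κ₁)
    (h12 : κ₁ ≤ κ₂) (h : κ₂ * q < x) : T x y q s κ₁ ≤ T x y q s κ₂ := by
  have h3 : κ₁ * q < x := lt_of_le_of_lt (mul_le_mul_of_nonneg_right h12 hq) h
  have d1 := den_pos hs h1 h3
  have d2 := den_pos hs (h1.trans h12) h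
  unfold T
  rw [div_le_div_iff₀ d1 d2]
  have h4 : κ₁ * x ≤ κ₂ * x := mul_le_mul_of_nonneg_right h12 hx.le
  nlinarith

theorem f_nonneg (hy : 0 < y) (hs : 0 ≤ s) {κ : ℝ} (hκ : 0 ≤ κ) : 0 ≤ f x y q s κ := by
  unfold f
  split_ifs with h
  · have := T_nonneg hy hs hκ h
    positivity
  · exact le_rfl

theorem f_le (_hy : 0 < y) (_hs : 0 ≤ s) {κ c : ℝ} (hκ : 0 ≤ κ) (hc : 0 ≤ c)
    (h : κ * q < x → c ≤ T x y q s κ) : f x y q s κ ≤ (1 + κ + c)⁻¹ := by
  unfold f
  split_ifs with h1
  · have h2 := h h1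
    exact inv_anti₀ (by positivity) (by linarith)
  · positivity

theorem f_anti (hx : 0 < x) (hy : 0 < y) (hq : 0 ≤ q) (hs : 0 ≤ s) :
    AntitoneOn (f x y q s) (Set.Ici 0) := by
  intro κ₁ h1 κ₂ h2 h12
  rw [Set.mem_Ici] at h1 h2
  by_cases h : κ₂ * q < x
  · have h3 : κ₁ * q < x := lt_of_le_of_lt (mul_le_mul_of_nonneg_right h12 hq) h
    have h4 := T_mono hx hy hq hs h1 h12 h
    have h5 := T_nonneg hy hs h1 h3
    unfold f
    rw [if_pos h, if_pos h3]
    exact inv_anti₀ (by positivity) (by linarith)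
  · have h3 := f_nonneg (x := x) (q := q) hy hs h1
    unfold f at h3 ⊢
    rw [if_neg h]
    exact h3

theorem f_le_one (hy : 0 < y) (hs : 0 ≤ s) {κ : ℝ} (hκ : 0 ≤ κ) : f x y q s κ ≤ 1 := by
  have h1 := f_le (x := x) (q := q) (c := 0) hy hs hκ le_rfl (fun h => T_nonneg hy hs hκ h)
  refine h1.trans ?_
  rw [add_zero]
  exact inv_le_one_of_one_le₀ (by linarith)

theorem integrable (hx : 0 < x) (hy : 0 < y) (hq : 0 ≤ q) (hs : 0 ≤ s) {a b : ℝ} (ha : 0 ≤ a)
    (hb : 0 ≤ b) : IntervalIntegrable (f x y q s) volume a b := by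
  apply AntitoneOn.intervalIntegrable
  apply (f_anti hx hy hq hs).mono
  intro z hz
  rw [Set.mem_uIcc] at hz
  rw [Set.mem_Ici]
  rcases hz with h | h
  · exact ha.trans h.1
  · exact hb.trans h.1

theorem F_sub (hx : 0 < x) (hy : 0 < y) (hq : 0 ≤ q) (hs : 0 ≤ s) {a b : ℝ} (ha : 0 ≤ a)
    (hb : 0 ≤ b) : F x y q s b - F x y q s a = ∫ κ in a..b, f x y q s κ := by
  unfold F
  exact intervalIntegral.integral_interval_sub_left (integrable hx hy hq hs le_rfl hb)
    (integrable hx hy hq hs le_rfl ha)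

theorem F_zero : F x y q s 0 = 0 := by
  unfold F
  exact intervalIntegral.integral_same

theorem F_upper (hx : 0 < x) (hy : 0 < y) (hq : 0 ≤ q) (hs : 0 ≤ s) {a b : ℝ} (ha : 0 ≤ a)
    (hab : a ≤ b) : F x y q s b - F x y q s a ≤ (b - a) * f x y q s a := by
  rw [F_sub hx hy hq hs ha (ha.trans hab)]
  have h1 : ∫ κ in a..b, f x y q s κ ≤ ∫ _κ in a..b, f x y q s a := by
    apply intervalIntegral.integral_mono_on hab (integrable hx hy hq hs ha (ha.trans hab))
      (by simp)
    intro z hz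
    exact f_anti hx hy hq hs (Set.mem_Ici.2 ha) (Set.mem_Ici.2 (ha.trans hz.1)) hz.1
  rwa [intervalIntegral.integral_const, smul_eq_mul] at h1

theorem F_lower (hx : 0 < x) (hy : 0 < y) (hq : 0 ≤ q) (hs : 0 ≤ s) {a b : ℝ} (ha : 0 ≤ a)
    (hab : a ≤ b) : (b - a) * f x y q s b ≤ F x y q s b - F x y q s a := by
  rw [F_sub hx hy hq hs ha (ha.trans hab)]
  have h1 : ∫ _κ in a..b, f x y q s b ≤ ∫ κ in a..b, f x y q s κ := by
    apply intervalIntegral.integral_mono_on hab (by simp)
      (integrable hx hy hq hs ha (ha.trans hab))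
    intro z hz
    exact f_anti hx hy hq hs (Set.mem_Ici.2 (ha.trans hz.1)) (Set.mem_Ici.2 (ha.trans hab)) hz.2
  rwa [intervalIntegral.integral_const, smul_eq_mul] at h1

theorem F_mono (hx : 0 < x) (hy : 0 < y) (hq : 0 ≤ q) (hs : 0 ≤ s) :
    MonotoneOn (F x y q s) (Set.Ici 0) := by
  intro a ha b hb hab
  have h1 := F_lower hx hy hq hs (Set.mem_Ici.1 ha) hab
  have h2 := f_nonneg (x := x) (q := q) hy hs (Set.mem_Ici.1 hb)
  have h3 : 0 ≤ (b - a) * f x y q s b := mul_nonneg (by linarith) h2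
  linarith

theorem F_lip (hx : 0 < x) (hy : 0 < y) (hq : 0 ≤ q) (hs : 0 ≤ s) {a b : ℝ} (ha : 0 ≤ a)
    (hab : a ≤ b) : F x y q s b - F x y q s a ≤ b - a := by
  have h1 := F_upper hx hy hq hs ha hab
  have h2 := f_le_one (x := x) (q := q) hy hs ha
  have h3 : (b - a) * f x y q s a ≤ (b - a) * 1 := mul_le_mul_of_nonneg_left h2 (by linarith)
  linarith

theorem F_concave (hx : 0 < x) (hy : 0 < y) (hq : 0 ≤ q) (hs : 0 ≤ s) :
    ConcaveOn ℝ (Set.Ici 0) (F x y q s) := by
  apply concaveOn_of_slope_anti_adjacent (convex_Ici 0)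
  intro a b c ha hc hab hbc
  rw [Set.mem_Ici] at ha hc
  have h1 := F_upper hx hy hq hs (ha.trans hab.le) hbc.le
  have h2 := F_lower hx hy hq hs ha hab.le
  have h3 : (F x y q s c - F x y q s b) / (c - b) ≤ f x y q s b := by
    rw [div_le_iff₀ (by linarith)]
    linarith
  have h4 : f x y q s b ≤ (F x y q s b - F x y q s a) / (b - a) := by
    rw [le_div_iff₀ (by linarith)]
    linarith
  exact h3.trans h4

theorem F_const (hx : 0 < x) (hy : 0 < y) (hq : 0 ≤ q) (hs : 0 ≤ s) {k : ℝ} (hk : 0 ≤ k)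
    (h : x ≤ k * q) : F x y q s k = F x y q s (x / q) := by
  have hq' : 0 < q := by
    rcases hq.lt_or_eq with h1 | h1
    · exact h1
    · rw [← h1, mul_zero] at h
      linarith
  have h1 : 0 ≤ x / q := by positivity
  have h2 : x / q ≤ k := by
    rw [div_le_iff₀ hq']
    exact h
  have h3 := F_upper hx hy hq hs h1 h2
  have h4 : f x y q s (x / q) = 0 := by
    unfold f
    rw [if_neg]
    rw [div_mul_cancel₀ _ hq'.ne']
    exact lt_irrefl x
  rw [h4, mul_zero] at h3
  have h5 := F_mono hx hy hq hs (Set.mem_Ici.2 h1) (Set.mem_Ici.2 hk) h2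
  linarith

theorem F_lower_bound (hx : 0 < x) (hy : 0 < y) (hq : 0 ≤ q) (hs : 0 ≤ s) :
    ∃ C : ℝ, 0 ≤ C ∧ ∀ k : ℝ, 0 ≤ k → k - C * k ^ 2 ≤ F x y q s k := by
  refine ⟨1 + 2 * y / x + 2 * q / x, by positivity, fun k hk => ?_⟩
  have hF0 : 0 ≤ F x y q s k := by
    have := F_mono hx hy hq hs (Set.mem_Ici.2 le_rfl) (Set.mem_Ici.2 hk) hk
    rwa [F_zero] at this
  have e1 : 0 ≤ 2 * y / x * k ^ 2 := by positivity
  have e2 : 0 ≤ 2 * q / x * k ^ 2 := by positivity
  have e3 : 0 ≤ k ^ 2 := by positivity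
  by_cases h : 2 * (k * q) ≤ x
  · have h1 := F_lower hx hy hq hs le_rfl hk
    rw [F_zero, sub_zero, sub_zero] at h1
    have h2 : 1 - k - 2 * y / x * k ≤ f x y q s k := by
      have h3 : k * q < x := by linarith
      have h4 := den_pos hs hk h3
      have h5 := T_nonneg hy hs hk h3
      have h6 : T x y q s k ≤ 2 * y / x * k := by
        unfold T
        rw [div_mul_eq_mul_div, div_le_div_iff₀ h4 hx]
        have h7 : x / 2 ≤ x + (s - q) * k := by
          have := mul_nonneg hs hk
          nlinarith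
        have h8 : 0 ≤ y * k := by positivity
        nlinarith
      unfold f
      rw [if_pos h3]
      have h9 : 0 < 1 + k + T x y q s k := by positivity
      have h10 : 1 - (k + T x y q s k) ≤ (1 + k + T x y q s k)⁻¹ := by
        rw [← one_div, le_div_iff₀ h9]
        nlinarith [sq_nonneg (k + T x y q s k)]
      linarith
    have h3 : k * (1 - k - 2 * y / x * k) ≤ k * f x y q s k := mul_le_mul_of_nonneg_left h2 hk
    nlinarith
  · have h1 : x < 2 * (k * q) := not_le.1 h
    have h2 : k ≤ 2 * q / x * k ^ 2 := by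
      rw [div_mul_eq_mul_div, le_div_iff₀ hx]
      nlinarith
    nlinarith

theorem measurable_f : Measurable (f x y q s) := by
  unfold f T
  apply Measurable.ite
  · exact measurableSet_lt (by fun_prop) (by fun_prop)
  · fun_prop
  · fun_prop

theorem hasDerivAt_F (hx : 0 < x) (hy : 0 < y) (hq : 0 ≤ q) (hs : 0 ≤ s) {k : ℝ} (hk : 0 < k)
    (h : k * q < x) : HasDerivAt (F x y q s) (f x y q s k) k := by
  unfold F
  apply intervalIntegral.integral_hasDerivAt_right (integrable hx hy hq hs le_rfl hk.le)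
  · exact (measurable_f.stronglyMeasurable).stronglyMeasurableAtFilter
  · have h1 : ContinuousAt (fun κ => (1 + κ + T x y q s κ)⁻¹) k := by
      have h2 := den_pos hs hk.le h
      have h3 := T_nonneg hy hs hk.le h
      have h4 : ContinuousAt (fun κ => T x y q s κ) k := by
        unfold T
        exact ContinuousAt.div (f := fun κ => y * κ) (g := fun κ => x + (s - q) * κ)
          (by fun_prop) (by fun_prop) h2.ne'
      apply ContinuousAt.inv₀ (by fun_prop)
      positivity
    apply h1.congr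
    have h5 : ∀ᶠ κ in nhds k, κ * q < x := by
      have : ContinuousAt (fun κ : ℝ => κ * q) k := by fun_prop
      exact this.eventually_lt continuousAt_const h
    filter_upwards [h5] with κ hκ
    unfold f
    rw [if_pos hκ]

/-- values on the curve -/
theorem f_curve (hx : 0 < x) (_hy : 0 < y) (hq : 0 ≤ q) (hs : 0 ≤ s) {r : ℝ} (hr : 0 < r) :
    x / (r + q) * q < x ∧ T x y q s (x / (r + q)) = y / (r + s) ∧
      f x y q s (x / (r + q)) = (1 + x / (r + q) + y / (r + s))⁻¹ := by
  have h1 : 0 < r + q := by linarith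
  have h2 : 0 < r + s := by linarith
  have h3 : x / (r + q) * q < x := by
    rw [div_mul_eq_mul_div, div_lt_iff₀ h1]
    nlinarith
  have h4 : T x y q s (x / (r + q)) = y / (r + s) := by
    unfold T
    have h5 : x + (s - q) * (x / (r + q)) = x * (r + s) / (r + q) := by
      field_simp
      ring
    rw [h5]
    field_simp
  refine ⟨h3, h4, ?_⟩
  unfold f
  rw [if_pos h3, h4]

theorem hasDerivAt_curve (hx : 0 < x) (hy : 0 < y) (hq : 0 ≤ q) (hs : 0 ≤ s) {r : ℝ}
    (hr : 0 < r) : HasDerivAt (fun r => F x y q s (x / (r + q)))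
      (-(x / ((r + q) ^ 2 * (1 + x / (r + q) + y / (r + s))))) r := by
  have h1 : 0 < r + q := by linarith
  have h2 : 0 < r + s := by linarith
  obtain ⟨a1, a2, a3⟩ := f_curve hx hy hq hs hr
  have d1 : HasDerivAt (fun r => x / (r + q)) (-(x / (r + q) ^ 2)) r := by
    have h3 := (((hasDerivAt_id r).add_const q).inv h1.ne').const_mul x
    refine (h3.congr_deriv ?_).congr_of_eventuallyEq ?_
    · simp only [id]
      ring
    · exact Filter.Eventually.of_forall fun z => by simp [div_eq_mul_inv]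
  have e1 := (hasDerivAt_F hx hy hq hs (by positivity : 0 < x / (r + q)) a1).comp r d1
  refine e1.congr_deriv ?_
  rw [a3, div_mul_eq_div_div, div_eq_mul_inv (x / (r + q) ^ 2)]
  ring

theorem tendsto_curve (hx : 0 < x) (hy : 0 < y) (hq : 0 ≤ q) (hs : 0 ≤ s) :
    Filter.Tendsto (fun r => F x y q s (x / (r + q))) Filter.atTop (nhds 0) := by
  have h1 : Filter.Tendsto (fun r : ℝ => x / r) Filter.atTop (nhds 0) :=
    Filter.Tendsto.div_atTop tendsto_const_nhds Filter.tendsto_id
  refine tendsto_of_tendsto_of_tendsto_of_le_of_le' tendsto_const_nhds h1 ?_ ?_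
  · filter_upwards [Filter.eventually_gt_atTop (0 : ℝ)] with r hr
    have h2 : 0 < r + q := by linarith
    have h3 : 0 ≤ x / (r + q) := by positivity
    have h4 := F_mono hx hy hq hs (Set.mem_Ici.2 le_rfl) (Set.mem_Ici.2 h3) h3
    rwa [F_zero] at h4
  · filter_upwards [Filter.eventually_gt_atTop (0 : ℝ)] with r hr
    have h2 : 0 < r + q := by linarith
    have h3 : 0 ≤ x / (r + q) := by positivity
    have h4 := F_lip hx hy hq hs le_rfl h3
    rw [F_zero] at h4
    have h5 : x / (r + q) ≤ x / r := div_le_div_of_nonneg_left hx.le hr (by linarith)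
    linarith

theorem curve_eq (hx : 0 < x) (hy : 0 < y) (hq : 0 ≤ q) (hs : 0 ≤ s) {r : ℝ} (hr : 0 < r) :
    F x y q s (x / (r + q)) + F y x s q (y / (r + s)) =
      Real.log (1 + x / (r + q) + y / (r + s)) := by
  -- the difference is constant
  set φ : ℝ → ℝ := fun r => F x y q s (x / (r + q)) + F y x s q (y / (r + s)) -
      Real.log (1 + x / (r + q) + y / (r + s)) with hφ
  have hderiv : ∀ r, 0 < r → HasDerivAt φ 0 r := by
    intro r hr
    have h1 : 0 < r + q := by linarith
    have h2 : 0 < r + s := by linarith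
    obtain ⟨a1, a2, a3⟩ := f_curve hx hy hq hs hr
    obtain ⟨b1, b2, b3⟩ := f_curve hy hx hs hq hr
    have d1 : HasDerivAt (fun r => x / (r + q)) (-(x / (r + q) ^ 2)) r := by
      have h3 := (((hasDerivAt_id r).add_const q).inv h1.ne').const_mul x
      refine (h3.congr_deriv ?_).congr_of_eventuallyEq ?_
      · simp only [id]
        ring
      · exact Filter.Eventually.of_forall fun z => by simp [div_eq_mul_inv]
    have d2 : HasDerivAt (fun r => y / (r + s)) (-(y / (r + s) ^ 2)) r := by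
      have h3 := (((hasDerivAt_id r).add_const s).inv h2.ne').const_mul y
      refine (h3.congr_deriv ?_).congr_of_eventuallyEq ?_
      · simp only [id]
        ring
      · exact Filter.Eventually.of_forall fun z => by simp [div_eq_mul_inv]
    have e1 := (hasDerivAt_F hx hy hq hs (by positivity : 0 < x / (r + q)) a1).comp r d1
    have e2 := (hasDerivAt_F hy hx hs hq (by positivity : 0 < y / (r + s)) b1).comp r d2
    have hE : 0 < 1 + x / (r + q) + y / (r + s) := by positivity
    have d3 : HasDerivAt (fun r => 1 + x / (r + q) + y / (r + s))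
        (-(x / (r + q) ^ 2) + -(y / (r + s) ^ 2)) r := (d1.const_add 1).add d2
    have e3 := d3.log hE.ne'
    have e4 : HasDerivAt φ (f x y q s (x / (r + q)) * -(x / (r + q) ^ 2) +
        f y x s q (y / (r + s)) * -(y / (r + s) ^ 2) -
        (-(x / (r + q) ^ 2) + -(y / (r + s) ^ 2)) / (1 + x / (r + q) + y / (r + s))) r :=
      (e1.add e2).sub e3
    refine e4.congr_deriv ?_
    rw [a3, b3]
    have hE' : 1 + y / (r + s) + x / (r + q) = 1 + x / (r + q) + y / (r + s) := by ring
    rw [hE', div_eq_mul_inv (-(x / (r + q) ^ 2) + -(y / (r + s) ^ 2))]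
    ring
  have hconst : ∀ r₁ r₂, 0 < r₁ → r₁ ≤ r₂ → φ r₂ = φ r₁ := by
    intro r₁ r₂ h1 h12
    apply constant_of_has_deriv_right_zero (a := r₁) (b := r₂)
    · intro z hz
      exact (hderiv z (lt_of_lt_of_le h1 hz.1)).continuousAt.continuousWithinAt
    · intro z hz
      exact (hderiv z (lt_of_lt_of_le h1 hz.1)).hasDerivWithinAt
    · exact ⟨h12, le_rfl⟩
  have hbound : ∀ r, 0 < r → |φ r| ≤ 2 * (x + y) / r := by
    intro r hr
    have h1 : 0 < r + q := by linarith
    have h2 : 0 < r + s := by linarith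
    have k1 : 0 ≤ x / (r + q) := by positivity
    have k2 : 0 ≤ y / (r + s) := by positivity
    have u1 : x / (r + q) ≤ x / r := div_le_div_of_nonneg_left hx.le hr (by linarith)
    have u2 : y / (r + s) ≤ y / r := div_le_div_of_nonneg_left hy.le hr (by linarith)
    have a1 := F_lip hx hy hq hs le_rfl k1
    have a2 := F_mono hx hy hq hs (Set.mem_Ici.2 le_rfl) (Set.mem_Ici.2 k1) k1
    have b1 := F_lip hy hx hs hq le_rfl k2
    have b2 := F_mono hy hx hs hq (Set.mem_Ici.2 le_rfl) (Set.mem_Ici.2 k2) k2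
    rw [F_zero] at a1 a2 b1 b2
    have l1 : Real.log (1 + x / (r + q) + y / (r + s)) ≤ x / (r + q) + y / (r + s) := by
      have := Real.log_le_sub_one_of_pos (show 0 < 1 + x / (r + q) + y / (r + s) by positivity)
      linarith
    have l2 : 0 ≤ Real.log (1 + x / (r + q) + y / (r + s)) := Real.log_nonneg (by linarith)
    have h3 : 2 * (x + y) / r = 2 * (x / r) + 2 * (y / r) := by ring
    rw [h3, abs_le]
    constructor <;> simp only [hφ] <;> linarith
  have hz : φ r = 0 := by
    by_contra hne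
    have hpos : 0 < |φ r| := abs_pos.2 hne
    set r₂ := max r (2 * (2 * (x + y)) / |φ r|) with hr₂
    have h1 : 0 < r₂ := lt_of_lt_of_le hr (le_max_left _ _)
    have h2 := hbound r₂ h1
    rw [hconst r r₂ hr (le_max_left _ _)] at h2
    have h3 : 2 * (2 * (x + y)) / |φ r| ≤ r₂ := le_max_right _ _
    rw [div_le_iff₀ hpos] at h3
    rw [le_div_iff₀ h1] at h2
    nlinarith
  have := hz
  simp only [hφ] at this
  linarith

/-- integration of an upper bound of the derivative -/
theorem F_log (hx : 0 < x) (hy : 0 < y) (hq : 0 ≤ q) (hs : 0 ≤ s) {a b c : ℝ} (ha : 0 ≤ a)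
    (hab : a ≤ b) (hc : 0 ≤ c) (h : ∀ κ, a ≤ κ → κ ≤ b → κ * q < x → c ≤ T x y q s κ) :
    F x y q s b - F x y q s a ≤ Real.log (1 + b + c) - Real.log (1 + a + c) := by
  rw [F_sub hx hy hq hs ha (ha.trans hab)]
  have hcont : ContinuousOn (fun κ : ℝ => (1 + κ + c)⁻¹) (Set.uIcc a b) := by
    apply ContinuousOn.inv₀ (by fun_prop)
    intro z hz
    rw [Set.uIcc_of_le hab] at hz
    have := ha.trans hz.1
    positivity
  have h1 : ∫ κ in a..b, (1 + κ + c)⁻¹ = Real.log (1 + b + c) - Real.log (1 + a + c) := by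
    apply intervalIntegral.integral_eq_sub_of_hasDerivAt
    · intro z hz
      rw [Set.uIcc_of_le hab] at hz
      have hz0 := ha.trans hz.1
      have hz1 : 0 < 1 + z + c := by positivity
      have h2 := (((hasDerivAt_id z).const_add 1).add_const c).log hz1.ne'
      refine h2.congr_deriv ?_
      simp
    · exact hcont.intervalIntegrable
  rw [← h1]
  apply intervalIntegral.integral_mono_on hab (integrable hx hy hq hs ha (ha.trans hab))
    hcont.intervalIntegrable
  intro z hz
  exact f_le hy hs (ha.trans hz.1) hc (h z hz.1 hz.2)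

/-- duality inequality in the interior -/
theorem dual_interior (hx : 0 < x) (hy : 0 < y) (hq : 0 ≤ q) (hs : 0 ≤ s) {k k' : ℝ}
    (hk : 0 ≤ k) (hk' : 0 ≤ k') (h : k * q < x) (h' : k' * s < y) :
    F x y q s k + F y x s q k' ≤ Real.log (1 + k + k') := by
  rcases hk.lt_or_eq with hk0 | hk0
  · rcases hk'.lt_or_eq with hk0' | hk0'
    · -- both positive
      obtain ⟨r, hr⟩ : ∃ r, r = x / k - q := ⟨_, rfl⟩
      obtain ⟨r', hr'⟩ : ∃ r', r' = y / k' - s := ⟨_, rfl⟩
      have hr0 : 0 < r := by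
        rw [hr, sub_pos, lt_div_iff₀ hk0]
        linarith
      have hr0' : 0 < r' := by
        rw [hr', sub_pos, lt_div_iff₀ hk0']
        linarith
      have ek : k = x / (r + q) := by
        rw [hr, sub_add_cancel]
        field_simp
      have ek' : k' = y / (r' + s) := by
        rw [hr', sub_add_cancel]
        field_simp
      rcases le_total r r' with hrr | hrr
      · have h1 := curve_eq hx hy hq hs hr0'
        have h2 : x / (r' + q) ≤ k := by
          rw [ek]
          exact div_le_div_of_nonneg_left hx.le (by linarith) (by linarith)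
        have h3 : 0 ≤ x / (r' + q) := by positivity
        have h4 := F_log hx hy hq hs h3 h2 hk'
          (fun κ h5 _ h7 => by
            have h8 := T_mono hx hy hq hs h3 h5 h7
            rw [(f_curve hx hy hq hs hr0').2.1, ← ek'] at h8
            exact h8)
        rw [← ek'] at h1
        linarith
      · have h1 := curve_eq hx hy hq hs hr0
        have h2 : y / (r + s) ≤ k' := by
          rw [ek']
          exact div_le_div_of_nonneg_left hy.le (by linarith) (by linarith)
        have h3 : 0 ≤ y / (r + s) := by positivity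
        have h4 := F_log hy hx hs hq h3 h2 hk
          (fun κ h5 _ h7 => by
            have h8 := T_mono hy hx hs hq h3 h5 h7
            rw [(f_curve hy hx hs hq hr0).2.1, ← ek] at h8
            exact h8)
        rw [← ek] at h1
        have e1 : 1 + k' + k = 1 + k + k' := by ring
        have e2 : 1 + y / (r + s) + k = 1 + k + y / (r + s) := by ring
        rw [e1, e2] at h4
        linarith
    · rw [← hk0', F_zero, add_zero, add_zero]
      have h1 := F_log hx hy hq hs (c := 0) le_rfl hk le_rfl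
        (fun κ h5 _ h7 => T_nonneg hy hs h5 h7)
      simpa [F_zero] using h1
  · rw [← hk0, F_zero, zero_add, add_zero]
    have h1 := F_log hy hx hs hq (c := 0) le_rfl hk' le_rfl
      (fun κ h5 _ h7 => T_nonneg hx hq h5 h7)
    simpa [F_zero] using h1

/-- approximation of an arbitrary point by interior points -/
theorem approx (hx : 0 < x) (hy : 0 < y) (hq : 0 ≤ q) (hs : 0 ≤ s) {k ε : ℝ} (hk : 0 ≤ k)
    (hε : 0 < ε) : ∃ κ, 0 ≤ κ ∧ κ ≤ k ∧ κ * q < x ∧ F x y q s k ≤ F x y q s κ + ε := by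
  by_cases h : k * q < x
  · exact ⟨k, hk, le_rfl, h, by linarith⟩
  · have h1 : x ≤ k * q := not_lt.1 h
    have hq' : 0 < q := by
      rcases hq.lt_or_eq with h2 | h2
      · exact h2
      · rw [← h2, mul_zero] at h1
        linarith
    have h2 : 0 < x / q := by positivity
    have h3 : x / q ≤ k := by
      rw [div_le_iff₀ hq']
      exact h1
    refine ⟨max 0 (x / q - ε), le_max_left _ _, ?_, ?_, ?_⟩
    · apply max_le hk
      linarith
    · have h4 : max 0 (x / q - ε) < x / q := max_lt h2 (by linarith)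
      calc max 0 (x / q - ε) * q < x / q * q := mul_lt_mul_of_pos_right h4 hq'
        _ = x := div_mul_cancel₀ _ hq'.ne'
    · rw [F_const hx hy hq hs hk h1]
      have h4 : max 0 (x / q - ε) ≤ x / q := max_le h2.le (by linarith)
      have h5 := F_lip hx hy hq hs (le_max_left 0 (x / q - ε)) h4
      have h6 := le_max_right 0 (x / q - ε)
      linarith

theorem dual (hx : 0 < x) (hy : 0 < y) (hq : 0 ≤ q) (hs : 0 ≤ s) {k k' : ℝ}
    (hk : 0 ≤ k) (hk' : 0 ≤ k') :
    F x y q s k + F y x s q k' ≤ Real.log (1 + k + k') := by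
  apply le_of_forall_pos_le_add
  intro ε hε
  obtain ⟨κ, a1, a2, a3, a4⟩ := approx hx hy hq hs hk (half_pos hε)
  obtain ⟨κ', b1, b2, b3, b4⟩ := approx hy hx hs hq hk' (half_pos hε)
  have h1 := dual_interior hx hy hq hs a1 b1 a3 b3
  have h2 : Real.log (1 + κ + κ') ≤ Real.log (1 + k + k') :=
    Real.log_le_log (by positivity) (by linarith)
  linarith

theorem isPot (hx : 0 < x) (hy : 0 < y) (hq : 0 ≤ q) (hs : 0 ≤ s) : IsPot x q (F x y q s) where
  zero := F_zero
  mono := F_mono hx hy hq hs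
  concave := F_concave hx hy hq hs
  lip := fun _ _ h1 h2 => F_lip hx hy hq hs h1 h2
  le_log := fun k hk => by
    have h1 := dual hx hy hq hs hk (le_refl (0 : ℝ))
    rwa [F_zero, add_zero, add_zero] at h1
  lower := F_lower_bound hx hy hq hs
  const := fun _ h1 h2 => F_const hx hy hq hs h1 h2

end Pot

/-- MODULE G1. The dual potentials of `log (1 + k + k')` along the curve
`(x / (r + q), y / (r + s))`. -/
theorem exists_isPot {x y q s : ℝ} (hx : 0 < x) (hy : 0 < y) (hq : 0 ≤ q) (hs : 0 ≤ s) :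
    ∃ F G : ℝ → ℝ, IsPot x q F ∧ IsPot y s G ∧
      (∀ k k' : ℝ, 0 ≤ k → 0 ≤ k' → F k + G k' ≤ Real.log (1 + k + k')) ∧
      ∀ r : ℝ, 0 < r → F (x / (r + q)) + G (y / (r + s)) =
        Real.log (1 + x / (r + q) + y / (r + s)) :=
  ⟨Pot.F x y q s, Pot.F y x s q, Pot.isPot hx hy hq hs, Pot.isPot hy hx hs hq,
    fun _ _ h1 h2 => Pot.dual hx hy hq hs h1 h2, fun _ hr => Pot.curve_eq hx hy hq hs hr⟩

end Vale.Agent.Lib.P358
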