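import Vale.Agent.Lib.P358.GBasic
import Vale.Agent.Lib.P358.Pot

/-!
# P358, general parameters, module G1: the dual potentials
-/

namespace Vale.Agent.Lib.P358

theorem G1.pot {x y q s : ℝ} (hx : 0 < x) (hy : 0 < y) (hq : 0 < q) (hs : 0 ≤ s) :
    Pot (Pot.F x y q s) x q where
  zero := Pot.F_zero
  supp := by
    intro k hk
    refine ⟨Pot.f x y q s k, Pot.f_nonneg hy hs hk, Pot.f_le_one hy hs hk, fun t ht => ?_⟩
    rcases le_total k t with h | h
    · have h1 := Pot.F_upper hx hy hq.le hs hk h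
      linarith
    · have h1 := Pot.F_lower hx hy hq.le hs ht h
      linarith
  const := by
    intro t ht
    have h0 : 0 ≤ x / q := by positivity
    refine Pot.F_const hx hy hq.le hs (h0.trans ht) ?_
    rwa [div_le_iff₀ hq] at ht
  quad := Pot.F_lower_bound hx hy hq.le hs

theorem exists_pot {x y q s : ℝ} (hx : 0 < x) (hy : 0 < y) (hq : 0 < q) (hs : 0 < s) :
    ∃ F G : ℝ → ℝ, Pot F x q ∧ Pot G y s ∧
      (∀ k k', 0 ≤ k → 0 ≤ k' → F k + G k' ≤ Real.log (1 + k + k')) ∧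
      (∀ r, 0 < r → F (x / (r + q)) + G (y / (r + s)) =
        Real.log (1 + x / (r + q) + y / (r + s))) :=
  ⟨Pot.F x y q s, Pot.F y x s q, G1.pot hx hy hq hs.le, G1.pot hy hx hs hq.le,
    fun _ _ h1 h2 => Pot.dual hx hy hq.le hs.le h1 h2,
    fun _ hr => Pot.curve_eq hx hy hq.le hs.le hr⟩

end Vale.Agent.Lib.P358
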