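import Vale.Agent.Lib.P358.GBasic
import Vale.Agent.Lib.P358G.Peierls

/-!
# P358, general parameters, module G2: Schur complement and Peierls' inequality
-/

namespace Vale.Agent.Lib.P358

open Matrix
open scoped ComplexOrder

theorem concaveOn_of_supp {F : ℝ → ℝ}
    (hF : ∀ k, 0 ≤ k → ∃ g, ∀ t, 0 ≤ t → F t ≤ F k + g * (t - k)) :
    ConcaveOn ℝ (Set.Ici 0) F := by
  refine ⟨convex_Ici 0, fun a ha b hb u v hu hv huv => ?_⟩
  have hc : 0 ≤ u • a + v • b := by
    have h1 : (0 : ℝ) ≤ a := ha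
    have h2 : (0 : ℝ) ≤ b := hb
    simp only [smul_eq_mul]
    positivity
  obtain ⟨g, hg⟩ := hF _ hc
  have h1 := mul_le_mul_of_nonneg_left (hg a ha) hu
  have h2 := mul_le_mul_of_nonneg_left (hg b hb) hv
  simp only [smul_eq_mul] at h1 h2 ⊢
  have h3 : v = 1 - u := by linarith
  subst h3
  nlinarith

theorem sum_log_add {n : Type*} [Fintype n] [DecidableEq n] {Q : Matrix n n ℂ}
    (hQ : Q.PosSemidef) {r : ℝ} (hr : 0 < r) :
    ∑ i, Real.log (r + hQ.isHermitian.eigenvalues i) =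
      Fintype.card n * Real.log r + ld Q r := by
  rw [ld_eq hQ hr]
  have h : ∀ i, Real.log (r + hQ.isHermitian.eigenvalues i) =
      Real.log r + Real.log (1 + hQ.isHermitian.eigenvalues i / r) := fun i => by
    have h0 := hQ.eigenvalues_nonneg i
    have h1 : (1 + hQ.isHermitian.eigenvalues i / r) ≠ 0 := by positivity
    rw [← Real.log_mul hr.ne' h1]
    congr 1
    field_simp
  simp only [h]
  rw [Finset.sum_add_distrib]
  simp

theorem block_posSemidef {k m n : Type*} [Fintype k] [Fintype m] [DecidableEq m]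
    [Fintype n] [DecidableEq n] (A : Matrix k m ℂ) (B : Matrix k n ℂ) {Q : Matrix m m ℂ}
    {R : Matrix n n ℂ} (hQ : Q.PosSemidef) (hR : R.PosSemidef) :
    (fromBlocks (Aᴴ * A + Q) (Aᴴ * B) (Bᴴ * A) (Bᴴ * B + R)).PosSemidef := by
  have e : fromBlocks (Aᴴ * A + Q) (Aᴴ * B) (Bᴴ * A) (Bᴴ * B + R) =
      (fromCols A B)ᴴ * fromCols A B + fromBlocks Q 0 0 R := by
    rw [conjTranspose_fromCols_eq_fromRows_conjTranspose, fromRows_mul_fromCols, fromBlocks_add]
    simp
  rw [e]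
  exact (posSemidef_conjTranspose_mul_self _).add (posSemidef_fromBlocks hQ hR)

theorem ld_lower {k m n : Type*} [Fintype k] [DecidableEq k] [Fintype m] [DecidableEq m]
    [Fintype n] [DecidableEq n] (A : Matrix k m ℂ) (B : Matrix k n ℂ) {Q : Matrix m m ℂ}
    {R : Matrix n n ℂ} (hQ : Q.PosSemidef) (hR : R.PosSemidef) {F G : ℝ → ℝ}
    (hF : ∀ k, 0 ≤ k → ∃ g, ∀ t, 0 ≤ t → F t ≤ F k + g * (t - k))
    (hG : ∀ k, 0 ≤ k → ∃ g, ∀ t, 0 ≤ t → G t ≤ G k + g * (t - k))
    (hFG : ∀ k k', 0 ≤ k → 0 ≤ k' → F k + G k' ≤ Real.log (1 + k + k')) {r : ℝ} (hr : 0 < r) :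
    ∑ i, F ((resK_posSemidef A hQ hr).isHermitian.eigenvalues i) +
        ∑ i, G ((resK_posSemidef B hR hr).isHermitian.eigenvalues i) ≤
      ld (fromBlocks (Aᴴ * A + Q) (Aᴴ * B) (Bᴴ * A) (Bᴴ * B + R)) r - ld Q r - ld R r := by
  have hM := block_posSemidef A B hQ hR
  have h := P358G.log_det_ge A B hQ hR hM (concaveOn_of_supp hF) (concaveOn_of_supp hG) hFG hr
  rw [sum_log_add hM hr, sum_log_add hQ hr, sum_log_add hR hr] at h
  have h2 : ((Fintype.card (m ⊕ n) : ℕ) : ℝ) = Fintype.card m + Fintype.card n := by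
    rw [Fintype.card_sum]
    push_cast
    rfl
  rw [h2] at h
  have h3 : ∑ i, F ((resK_posSemidef A hQ hr).isHermitian.eigenvalues i) +
        ∑ i, G ((resK_posSemidef B hR hr).isHermitian.eigenvalues i) =
      ∑ j, F ((P358G.posSemidef_res A hQ hr).isHermitian.eigenvalues j) +
        ∑ j, G ((P358G.posSemidef_res B hR hr).isHermitian.eigenvalues j) := rfl
  rw [h3]
  linarith

end Vale.Agent.Lib.P358
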