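import Vale.Agent.Lib.P358.GBasic

/-!
# P358, module G3: counting eigenvalues
-/

namespace Vale.Agent.Lib.P358

open Matrix
open scoped ComplexOrder

/-- quadratic form -/
noncomputable def qf {m : Type*} [Fintype m] (M : Matrix m m ℂ) (v : m → ℂ) : ℝ :=
  (star v ⬝ᵥ M *ᵥ v).re

theorem qf_add {m : Type*} [Fintype m] (M N : Matrix m m ℂ) (v : m → ℂ) :
    qf (M + N) v = qf M v + qf N v := by
  unfold qf
  rw [add_mulVec, dotProduct_add, Complex.add_re]

theorem qf_sub {m : Type*} [Fintype m] (M N : Matrix m m ℂ) (v : m → ℂ) :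
    qf (M - N) v = qf M v - qf N v := by
  unfold qf
  rw [sub_mulVec, dotProduct_sub, Complex.sub_re]

theorem qf_smul {m : Type*} [Fintype m] (c : ℝ) (M : Matrix m m ℂ) (v : m → ℂ) :
    qf ((c : ℂ) • M) v = c * qf M v := by
  unfold qf
  rw [smul_mulVec, dotProduct_smul, smul_eq_mul, Complex.re_ofReal_mul]

theorem qf_one {m : Type*} [Fintype m] [DecidableEq m] (v : m → ℂ) :
    qf 1 v = ∑ i, Complex.normSq (v i) := by
  unfold qf
  rw [one_mulVec, dotProduct, Complex.re_sum]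
  refine Finset.sum_congr rfl fun i _ => ?_
  rw [Pi.star_apply, RCLike.star_def, ← Complex.normSq_eq_conj_mul_self, Complex.ofReal_re]

theorem qf_conj {k m : Type*} [Fintype k] [Fintype m] (M : Matrix k k ℂ) (A : Matrix k m ℂ)
    (v : m → ℂ) : qf (Aᴴ * M * A) v = qf M (A *ᵥ v) := by
  unfold qf
  rw [star_mulVec, ← dotProduct_mulVec, mulVec_mulVec, mulVec_mulVec, Matrix.mul_assoc]

theorem qf_gram {k m : Type*} [Fintype k] [DecidableEq k] [Fintype m] (A : Matrix k m ℂ)
    (v : m → ℂ) : qf (Aᴴ * A) v = qf 1 (A *ᵥ v) := by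
  rw [← qf_conj, Matrix.mul_one]

theorem qf_diagonal {m : Type*} [Fintype m] [DecidableEq m] (d : m → ℝ) (v : m → ℂ) :
    qf (diagonal fun i => (d i : ℂ)) v = ∑ i, d i * Complex.normSq (v i) := by
  unfold qf
  rw [dotProduct, Complex.re_sum]
  refine Finset.sum_congr rfl fun i _ => ?_
  rw [mulVec_diagonal, Pi.star_apply, RCLike.star_def]
  have : (starRingEnd ℂ) (v i) * ((d i : ℂ) * v i) = ((d i * Complex.normSq (v i) : ℝ) : ℂ) := by
    push_cast
    rw [Complex.normSq_eq_conj_mul_self]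
    ring
  rw [this, Complex.ofReal_re]

theorem qf_nonneg {m : Type*} [Fintype m] {M : Matrix m m ℂ} (hM : M.PosSemidef) (v : m → ℂ) :
    0 ≤ qf M v := by
  unfold qf
  exact (Complex.le_def.1 (hM.dotProduct_mulVec_nonneg v)).1

theorem exists_diag' {n : Type*} [Fintype n] [DecidableEq n] {K : Matrix n n ℂ}
    (hK : K.IsHermitian) : ∃ V : Matrix n n ℂ, Vᴴ * V = 1 ∧ V * Vᴴ = 1 ∧
      K = V * (diagonal fun j => (hK.eigenvalues j : ℂ)) * Vᴴ := by
  refine ⟨(hK.eigenvectorUnitary : Matrix n n ℂ),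
    Unitary.star_mul_self_of_mem hK.eigenvectorUnitary.2,
    Unitary.mul_star_self_of_mem hK.eigenvectorUnitary.2, ?_⟩
  have e := hK.spectral_theorem
  rw [Unitary.conjStarAlgAut_apply] at e
  exact e

/-- Counting: if the form of `M` at `A v` exceeds `κ |A v|²` whenever the form of `Y` at `v`
exceeds `c |v|²`, then `Y` has at most as many eigenvalues above `c` as `M` has above `κ`. -/
theorem count_general {k m : Type*} [Fintype k] [DecidableEq k] [Fintype m] [DecidableEq m]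
    (A : Matrix k m ℂ) {M : Matrix k k ℂ} (hM : M.IsHermitian) {Y : Matrix m m ℂ}
    (hY : Y.IsHermitian) (c κ : ℝ)
    (h : ∀ v : m → ℂ, c * qf 1 v < qf Y v → κ * qf 1 (A *ᵥ v) < qf M (A *ᵥ v)) :
    (Finset.univ.filter fun j => c < hY.eigenvalues j).card ≤
      (Finset.univ.filter fun i => κ < hM.eigenvalues i).card := by
  classical
  obtain ⟨V, hV1, hV2, hV3⟩ := exists_diag' hY
  obtain ⟨U, hU1, hU2, hU3⟩ := exists_diag' hM
  set J := {j // c < hY.eigenvalues j}
  set I := {i // κ < hM.eigenvalues i}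
  -- extension by zero
  let ext : (J → ℂ) →ₗ[ℂ] (m → ℂ) :=
    { toFun := fun α j => if hj : c < hY.eigenvalues j then α ⟨j, hj⟩ else 0
      map_add' := by
        intro a b
        funext j
        by_cases hj : c < hY.eigenvalues j <;> simp [hj]
      map_smul' := by
        intro a b
        funext j
        by_cases hj : c < hY.eigenvalues j <;> simp [hj] }
  let Φ : (J → ℂ) →ₗ[ℂ] (I → ℂ) :=
    (LinearMap.funLeft ℂ ℂ (fun i : I => (i : k))).comp
      ((Matrix.toLin' (Uᴴ * A * V)).comp ext)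
  have hinj : Function.Injective Φ := by
    rw [← LinearMap.ker_eq_bot, LinearMap.ker_eq_bot']
    intro α hα
    by_contra hne
    set w : m → ℂ := ext α with hw
    set v : m → ℂ := V *ᵥ w with hv
    set z : k → ℂ := Uᴴ *ᵥ (A *ᵥ v) with hz
    have hz0 : ∀ i, κ < hM.eigenvalues i → z i = 0 := by
      intro i hi
      have := congrFun hα ⟨i, hi⟩
      simp only [Φ, LinearMap.comp_apply, LinearMap.funLeft_apply, Matrix.toLin'_apply,
        Pi.zero_apply] at this
      rw [hz, hv, mulVec_mulVec, mulVec_mulVec]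
      exact this
    have hw0 : ∀ j, ¬ c < hY.eigenvalues j → w j = 0 := by
      intro j hj
      simp [hw, ext, hj]
    have hwJ : ∀ j : J, w j = α j := by
      intro j
      have := j.2
      simp [hw, ext, this]
    have h1 : qf 1 v = ∑ j, Complex.normSq (w j) := by
      have e : qf 1 v = qf (Vᴴ * 1 * V) w := by rw [qf_conj]
      rw [e, mul_one, hV1, qf_one]
    have h2 : qf Y v = ∑ j, hY.eigenvalues j * Complex.normSq (w j) := by
      have e : qf Y v = qf (Vᴴ * Y * V) w := by rw [qf_conj]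
      have e2 : Vᴴ * Y * V = diagonal fun j => (hY.eigenvalues j : ℂ) := by
        conv_lhs => rw [hV3]
        rw [mul_assoc, mul_assoc, hV1, mul_one, ← mul_assoc, hV1, one_mul]
      rw [e, e2, qf_diagonal]
    have h3 : c * qf 1 v < qf Y v := by
      rw [h1, h2, Finset.mul_sum]
      obtain ⟨j0, hj0⟩ : ∃ j : J, α j ≠ 0 := by
        by_contra hcon
        push Not at hcon
        exact hne (funext hcon)
      apply Finset.sum_lt_sum
      · intro j _
        by_cases hj : c < hY.eigenvalues j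
        · exact mul_le_mul_of_nonneg_right hj.le (Complex.normSq_nonneg _)
        · rw [hw0 j hj]
          simp
      · refine ⟨j0, Finset.mem_univ _, ?_⟩
        apply mul_lt_mul_of_pos_right j0.2
        rw [hwJ j0]
        exact Complex.normSq_pos.2 hj0
    have h4 := h v h3
    have h5 : qf 1 (A *ᵥ v) = ∑ i, Complex.normSq (z i) := by
      have e : qf 1 z = qf (Uᴴᴴ * 1 * Uᴴ) (A *ᵥ v) := by rw [qf_conj]
      rw [← qf_one, e, mul_one, conjTranspose_conjTranspose, hU2]
    have h6 : qf M (A *ᵥ v) = ∑ i, hM.eigenvalues i * Complex.normSq (z i) := by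
      have e : qf (diagonal fun i => (hM.eigenvalues i : ℂ)) z =
          qf (Uᴴᴴ * (diagonal fun i => (hM.eigenvalues i : ℂ)) * Uᴴ) (A *ᵥ v) := by rw [qf_conj]
      rw [← qf_diagonal, e, conjTranspose_conjTranspose, ← hU3]
    rw [h5, h6, Finset.mul_sum] at h4
    have h7 : ∑ i, hM.eigenvalues i * Complex.normSq (z i) ≤ ∑ i, κ * Complex.normSq (z i) := by
      apply Finset.sum_le_sum
      intro i _
      by_cases hi : κ < hM.eigenvalues i
      · rw [hz0 i hi]
        simp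
      · exact mul_le_mul_of_nonneg_right (not_lt.1 hi) (Complex.normSq_nonneg _)
    linarith
  have hcard := LinearMap.finrank_le_finrank_of_injective hinj
  rw [Module.finrank_fintype_fun_eq_card, Module.finrank_fintype_fun_eq_card] at hcard
  rw [← Fintype.card_subtype, ← Fintype.card_subtype]
  exact hcard

theorem card_ite {k : Type*} [Fintype k] (c : ℝ) (f : k → ℝ) :
    ∑ i, (if c < f i then (1 : ℝ) else 0) = ((Finset.univ.filter fun i => c < f i).card : ℝ) := by
  rw [Finset.sum_ite]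
  simp

/-- the form of `A (r+Q)⁻¹ Aᴴ` -/
theorem resK_form {k m : Type*} [Fintype k] [DecidableEq k] [Fintype m] [DecidableEq m]
    (A : Matrix k m ℂ) {Q : Matrix m m ℂ} (hQ : Q.PosSemidef) {r κ : ℝ} (hr : 0 < r) (hκ : 0 < κ)
    (v : m → ℂ) (hv : κ * (r * qf 1 v + qf Q v) < qf (Aᴴ * A) v) :
    κ * qf 1 (A *ᵥ v) < qf (resK A Q r) (A *ᵥ v) := by
  set D : Matrix m m ℂ := (r : ℂ) • (1 : Matrix m m ℂ) + Q with hD
  have hDp : D.PosDef := posDef_smul_one_add hQ hr
  have hDu : IsUnit D.det := (Matrix.isUnit_iff_isUnit_det _).1 hDp.isUnit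
  have hDH : Dᴴ = D := hDp.isHermitian.eq
  set X : Matrix m m ℂ := Aᴴ * A with hX
  have hXH : Xᴴ = X := (isHermitian_conjTranspose_mul_self A).eq
  have hDi : D⁻¹ * D = 1 := nonsing_inv_mul D hDu
  have hDi' : D * D⁻¹ = 1 := mul_nonsing_inv D hDu
  have h1 : (X - (κ : ℂ) • D)ᴴ * D⁻¹ * (X - (κ : ℂ) • D) =
      X * D⁻¹ * X - ((2 * κ : ℝ) : ℂ) • X + ((κ ^ 2 : ℝ) : ℂ) • D := by
    rw [conjTranspose_sub, conjTranspose_smul, hXH, hDH]
    have hstar : star (κ : ℂ) = (κ : ℂ) := by simp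
    rw [hstar, sub_mul, sub_mul, mul_sub, mul_sub]
    simp only [smul_mul_assoc, mul_smul_comm, hDi', one_mul]
    rw [mul_assoc X D⁻¹ D, hDi, mul_one]
    push_cast
    module
  have h2 : 0 ≤ qf ((X - (κ : ℂ) • D)ᴴ * D⁻¹ * (X - (κ : ℂ) • D)) v :=
    qf_nonneg (hDp.inv.posSemidef.conjTranspose_mul_mul_same _) v
  rw [h1, qf_add, qf_sub, qf_smul, qf_smul] at h2
  have h3 : qf (resK A Q r) (A *ᵥ v) = qf (X * D⁻¹ * X) v := by
    rw [← qf_conj]
    congr 1
    unfold resK
    simp only [hX, hD, Matrix.mul_assoc]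
  have h4 : qf 1 (A *ᵥ v) = qf X v := (qf_gram A v).symm
  have h5 : qf D v = r * qf 1 v + qf Q v := by
    rw [hD, qf_add, qf_smul]
  rw [h3, h4]
  rw [← h5] at hv
  nlinarith

theorem count_one {k m : Type*} [Fintype k] [DecidableEq k] [Fintype m] [DecidableEq m]
    (A : Matrix k m ℂ) {Q : Matrix m m ℂ} (hQ : Q.PosSemidef) {r κ : ℝ} (hr : 0 < r)
    (hκ : 0 < κ) :
    ∑ j, (if κ * r < (gram_sub_isHermitian A hQ κ).eigenvalues j then (1 : ℝ) else 0) ≤
      ∑ i, (if κ < (resK_posSemidef A hQ hr).isHermitian.eigenvalues i then (1 : ℝ) else 0) := by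
  rw [card_ite, card_ite]
  refine Nat.cast_le.2 (count_general A _ _ _ _ ?_)
  intro v hv
  apply resK_form A hQ hr hκ
  rw [qf_sub, qf_smul] at hv
  linarith

theorem qf_le_trace {m : Type*} [Fintype m] [DecidableEq m] {M : Matrix m m ℂ}
    (hM : M.PosSemidef) (v : m → ℂ) : qf M v ≤ M.trace.re * qf 1 v := by
  obtain ⟨U, hU1, hU2, hU3⟩ := exists_diag' hM.isHermitian
  set z : m → ℂ := Uᴴ *ᵥ v with hz
  have h5 : qf 1 v = ∑ i, Complex.normSq (z i) := by
    have e : qf 1 z = qf (Uᴴᴴ * 1 * Uᴴ) v := by rw [qf_conj]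
    rw [← qf_one, e, mul_one, conjTranspose_conjTranspose, hU2]
  have h6 : qf M v = ∑ i, hM.isHermitian.eigenvalues i * Complex.normSq (z i) := by
    have e : qf (diagonal fun i => (hM.isHermitian.eigenvalues i : ℂ)) z =
        qf (Uᴴᴴ * (diagonal fun i => (hM.isHermitian.eigenvalues i : ℂ)) * Uᴴ) v := by
      rw [qf_conj]
    rw [← qf_diagonal, e, conjTranspose_conjTranspose, ← hU3]
  rw [h5, h6, trace_re_eq hM.isHermitian, Finset.mul_sum]
  apply Finset.sum_le_sum
  intro i _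
  apply mul_le_mul_of_nonneg_right _ (Complex.normSq_nonneg _)
  exact Finset.single_le_sum (fun j _ => hM.eigenvalues_nonneg j) (Finset.mem_univ i)

theorem count_two {k m : Type*} [Fintype k] [DecidableEq k] [Fintype m] [DecidableEq m]
    (A : Matrix k m ℂ) {Q : Matrix m m ℂ} (hQ : Q.PosSemidef) {r κ : ℝ} (hr : 0 < r)
    (hκ : 0 < κ) :
    ∑ j, (if κ * (r + Q.trace.re) <
        (posSemidef_conjTranspose_mul_self A).isHermitian.eigenvalues j then (1 : ℝ) else 0) ≤
      ∑ i, (if κ < (resK_posSemidef A hQ hr).isHermitian.eigenvalues i then (1 : ℝ) else 0) := by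
  rw [card_ite, card_ite]
  refine Nat.cast_le.2 (count_general A _ _ _ _ ?_)
  intro v hv
  apply resK_form A hQ hr hκ
  have h1 := qf_le_trace hQ v
  have h2 : κ * qf Q v ≤ κ * (Q.trace.re * qf 1 v) := mul_le_mul_of_nonneg_left h1 hκ.le
  linarith

theorem gram_sub_sum {k m : Type*} [Fintype k] [Fintype m] [DecidableEq m]
    (A : Matrix k m ℂ) {Q : Matrix m m ℂ} (hQ : Q.PosSemidef) (κ : ℝ) :
    ∑ j, (gram_sub_isHermitian A hQ κ).eigenvalues j =
      (Aᴴ * A).trace.re - κ * Q.trace.re := by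
  rw [← trace_re_eq (gram_sub_isHermitian A hQ κ), trace_sub, trace_smul, smul_eq_mul,
    Complex.sub_re, Complex.re_ofReal_mul]

theorem gram_sub_le {k m : Type*} [Fintype k] [Fintype m] [DecidableEq m]
    (A : Matrix k m ℂ) {Q : Matrix m m ℂ} (hQ : Q.PosSemidef) {κ : ℝ} (hκ : 0 < κ) (j : m) :
    (gram_sub_isHermitian A hQ κ).eigenvalues j ≤ (Aᴴ * A).trace.re := by
  classical
  set hY := gram_sub_isHermitian A hQ κ with hYdef
  obtain ⟨V, hV1, hV2, hV3⟩ := exists_diag' hY
  set v : m → ℂ := V *ᵥ Pi.single j 1 with hv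
  have hs : ∀ i, Complex.normSq ((Pi.single j 1 : m → ℂ) i) = if i = j then 1 else 0 := by
    intro i
    by_cases h : i = j
    · subst h; simp
    · simp [h]
  have h1 : qf 1 v = 1 := by
    have e : qf 1 v = qf (Vᴴ * 1 * V) (Pi.single j 1) := by rw [qf_conj]
    rw [e, mul_one, hV1, qf_one]
    simp only [hs]
    simp
  have h2 : qf (Aᴴ * A - (κ : ℂ) • Q) v = hY.eigenvalues j := by
    have e : qf (Aᴴ * A - (κ : ℂ) • Q) v =
        qf (Vᴴ * (Aᴴ * A - (κ : ℂ) • Q) * V) (Pi.single j 1) := by rw [qf_conj]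
    have e2 : Vᴴ * (Aᴴ * A - (κ : ℂ) • Q) * V = diagonal fun j => (hY.eigenvalues j : ℂ) := by
      conv_lhs => rw [hV3]
      rw [mul_assoc, mul_assoc, hV1, mul_one, ← mul_assoc, hV1, one_mul]
    rw [e, e2, qf_diagonal]
    simp only [hs]
    simp
  have h3 := qf_le_trace (posSemidef_conjTranspose_mul_self A) v
  have h4 := qf_nonneg hQ v
  rw [qf_sub, qf_smul] at h2
  rw [h1] at h3
  have h5 : 0 ≤ κ * qf Q v := mul_nonneg hκ.le h4
  linarith

end Vale.Agent.Lib.P358
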