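import Mathlib

/-!
# P358, module G4a: two auxiliary facts for the one-sided lemma
-/

namespace Vale.Agent.Lib.P358

open MeasureTheory intervalIntegral Set

theorem intervalIntegrable_ind (l a b : ℝ) :
    IntervalIntegrable (fun κ : ℝ => if κ < l then (1 : ℝ) else 0) volume a b := by
  have h : Antitone (fun κ : ℝ => if κ < l then (1 : ℝ) else 0) := by
    intro s t hst
    show (if t < l then (1 : ℝ) else 0) ≤ if s < l then (1 : ℝ) else 0
    split_ifs with h1 h2 h2
    · exact le_rfl
    · exact absurd (lt_of_le_of_lt hst h1) h2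
    · exact zero_le_one
    · exact le_rfl
  exact h.intervalIntegrable

theorem integral_ind {l d : ℝ} (hl : 0 ≤ l) (hd : 0 ≤ d) :
    ∫ κ in (0 : ℝ)..d, (if κ < l then (1 : ℝ) else 0) = min l d := by
  rcases le_total d l with h | h
  · rw [min_eq_right h]
    have e : ∫ κ in (0 : ℝ)..d, (if κ < l then (1 : ℝ) else 0) = ∫ κ in (0 : ℝ)..d, (1 : ℝ) := by
      apply intervalIntegral.integral_congr_ae
      have : ∀ᵐ κ : ℝ ∂volume, κ ≠ d := by
        simp [ae_iff, measure_singleton]
      filter_upwards [this] with κ hκ h2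
      rw [uIoc_of_le hd] at h2
      have : κ < l := lt_of_lt_of_le (lt_of_le_of_ne h2.2 hκ) h
      rw [if_pos this]
    rw [e]
    simp
  · rw [min_eq_left h]
    rw [← intervalIntegral.integral_add_adjacent_intervals (b := l)
      (intervalIntegrable_ind l 0 l) (intervalIntegrable_ind l l d)]
    have e1 : ∫ κ in (0 : ℝ)..l, (if κ < l then (1 : ℝ) else 0) = ∫ κ in (0 : ℝ)..l, (1 : ℝ) := by
      apply intervalIntegral.integral_congr_ae
      have : ∀ᵐ κ : ℝ ∂volume, κ ≠ l := by
        simp [ae_iff, measure_singleton]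
      filter_upwards [this] with κ hκ h2
      rw [uIoc_of_le hl] at h2
      rw [if_pos (lt_of_le_of_ne h2.2 hκ)]
    have e2 : ∫ κ in l..d, (if κ < l then (1 : ℝ) else 0) = ∫ κ in l..d, (0 : ℝ) := by
      apply intervalIntegral.integral_congr
      intro κ hκ
      rw [uIcc_of_le h] at hκ
      show (if κ < l then (1 : ℝ) else 0) = 0
      rw [if_neg (not_lt.2 hκ.1)]
    rw [e1, e2]
    simp

theorem sum_min_le {k m : Type*} [Fintype k] [Fintype m] (a : k → ℝ) (b : m → ℝ)
    (ha : ∀ i, 0 ≤ a i) (hb : ∀ j, 0 ≤ b j) {d : ℝ} (hd : 0 ≤ d)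
    (h : ∀ κ, 0 < κ → ∑ j, (if κ < b j then (1 : ℝ) else 0) ≤
      ∑ i, (if κ < a i then (1 : ℝ) else 0)) :
    ∑ j, min (b j) d ≤ ∑ i, min (a i) d := by
  have e1 : ∑ j, min (b j) d = ∫ κ in (0 : ℝ)..d, ∑ j, (if κ < b j then (1 : ℝ) else 0) := by
    rw [intervalIntegral.integral_finsetSum]
    · exact Finset.sum_congr rfl fun j _ => (integral_ind (hb j) hd).symm
    · intro j _
      exact intervalIntegrable_ind _ _ _
  have e2 : ∑ j, min (a j) d = ∫ κ in (0 : ℝ)..d, ∑ j, (if κ < a j then (1 : ℝ) else 0) := by
    rw [intervalIntegral.integral_finsetSum]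
    · exact Finset.sum_congr rfl fun j _ => (integral_ind (ha j) hd).symm
    · intro j _
      exact intervalIntegrable_ind _ _ _
  rw [e1, e2]
  apply intervalIntegral.integral_mono_on_of_le_Ioo hd
  · have := IntervalIntegrable.sum (μ := volume) (a := (0 : ℝ)) (b := d) Finset.univ
      (f := fun (j : m) κ => if κ < b j then (1 : ℝ) else 0)
      fun j _ => intervalIntegrable_ind (b j) 0 d
    refine this.congr ?_
    intro κ _
    simp
  · have := IntervalIntegrable.sum (μ := volume) (a := (0 : ℝ)) (b := d) Finset.univ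
      (f := fun (j : k) κ => if κ < a j then (1 : ℝ) else 0)
      fun j _ => intervalIntegrable_ind (a j) 0 d
    refine this.congr ?_
    intro κ _
    simp
  · intro κ hκ
    exact h κ hκ.1

theorem int_min {x ρ w R : ℝ} (hx : 0 < x) (hρ : 0 ≤ ρ) (hρx : ρ ≤ x) (hw : 0 ≤ w) (hR : 0 < R)
    (hRw : w * x / ρ ≤ R) :
    IntervalIntegrable (fun r => min (ρ / (r + w)) (x / R)) MeasureTheory.volume 0 R ∧
      ρ - w * (x / R) + ρ * Real.log x + Real.negMulLog ρ ≤
        ∫ r in (0 : ℝ)..R, min (ρ / (r + w)) (x / R) := by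
  have hint : IntervalIntegrable (fun r => min (ρ / (r + w)) (x / R)) volume 0 R := by
    have hb : ∀ r ∈ Set.Ioc 0 R, ‖min (ρ / (r + w)) (x / R)‖ ≤ x / R := by
      intro r hr
      have h1 : 0 ≤ ρ / (r + w) := div_nonneg hρ (by linarith [hr.1])
      rw [Real.norm_of_nonneg (le_min h1 (by positivity))]
      exact min_le_right _ _
    rw [intervalIntegrable_iff_integrableOn_Ioc_of_le hR.le]
    refine Measure.integrableOn_of_bounded (M := x / R) (by simp) ?_ ?_
    · apply Measurable.aestronglyMeasurable
      fun_prop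
    · exact (ae_restrict_iff' measurableSet_Ioc).2 (Filter.Eventually.of_forall hb)
  refine ⟨hint, ?_⟩
  rcases hρ.eq_or_lt with h0 | h0
  · rw [← h0]
    have h1 : 0 ≤ ∫ r in (0 : ℝ)..R, min (0 / (r + w)) (x / R) := by
      apply intervalIntegral.integral_nonneg hR.le
      intro r _
      rw [zero_div]
      exact le_min le_rfl (by positivity)
    have h2 : 0 ≤ w * (x / R) := by positivity
    have h3 : Real.negMulLog 0 = 0 := by simp [Real.negMulLog]
    rw [h3]
    linarith
  · -- break point
    set c : ℝ := R * ρ / x - w with hc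
    have hcx : R * ρ / x = c + w := by rw [hc]; ring
    have hc0 : 0 ≤ c := by
      rw [div_le_iff₀ h0] at hRw
      rw [hc, sub_nonneg, le_div_iff₀ hx]
      exact hRw
    have hcR : c ≤ R := by
      have : R * ρ / x ≤ R := by
        rw [div_le_iff₀ hx]
        exact mul_le_mul_of_nonneg_left hρx hR.le
      linarith
    have hcw : 0 < c + w := by
      rw [← hcx]
      positivity
    have hsub1 : IntervalIntegrable (fun r => min (ρ / (r + w)) (x / R)) volume 0 c :=
      hint.mono_set (by rw [uIcc_of_le hc0, uIcc_of_le hR.le]; exact Icc_subset_Icc le_rfl hcR)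
    have hsub2 : IntervalIntegrable (fun r => min (ρ / (r + w)) (x / R)) volume c R :=
      hint.mono_set (by rw [uIcc_of_le hcR, uIcc_of_le hR.le]; exact Icc_subset_Icc hc0 le_rfl)
    rw [← intervalIntegral.integral_add_adjacent_intervals hsub1 hsub2]
    have hkey : ρ / (c + w) = x / R := by
      rw [← hcx]
      field_simp
    have h1 : ∫ r in (0 : ℝ)..c, min (ρ / (r + w)) (x / R) = c * (x / R) := by
      have e : ∫ r in (0 : ℝ)..c, min (ρ / (r + w)) (x / R) = ∫ r in (0 : ℝ)..c, (x / R) := by
        apply intervalIntegral.integral_congr_ae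
        refine Filter.Eventually.of_forall fun r hr => ?_
        rw [uIoc_of_le hc0] at hr
        apply min_eq_right
        rw [← hkey]
        apply div_le_div_of_nonneg_left hρ (by linarith [hr.1]) (by linarith [hr.2])
      rw [e, intervalIntegral.integral_const, smul_eq_mul, sub_zero]
    have h2 : ∫ r in c..R, min (ρ / (r + w)) (x / R) = ρ * (Real.log (R + w) - Real.log (c + w)) := by
      have e : ∫ r in c..R, min (ρ / (r + w)) (x / R) = ∫ r in c..R, ρ * (1 / (r + w)) := by
        apply intervalIntegral.integral_congr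
        intro r hr
        rw [uIcc_of_le hcR] at hr
        show min (ρ / (r + w)) (x / R) = ρ * (1 / (r + w))
        rw [min_eq_left]
        · ring
        · rw [← hkey]
          exact div_le_div_of_nonneg_left hρ hcw (by linarith [hr.1])
      rw [e, intervalIntegral.integral_const_mul]
      congr 1
      rw [intervalIntegral.integral_comp_add_right (fun u => 1 / u) w, integral_one_div_of_pos hcw
        (by linarith), Real.log_div (by linarith) hcw.ne']
    rw [h1, h2]
    have h3 : c * (x / R) = ρ - w * (x / R) := by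
      have : (c + w) * (x / R) = ρ := by
        rw [← hcx]
        field_simp
      linarith
    have h4 : Real.log (c + w) = Real.log R + Real.log ρ - Real.log x := by
      rw [← hcx, Real.log_div (by positivity) hx.ne', Real.log_mul hR.ne' h0.ne']
    have h5 : Real.log R ≤ Real.log (R + w) := Real.log_le_log hR (by linarith)
    rw [h3, h4, Real.negMulLog]
    have h6 : ρ * Real.log R ≤ ρ * Real.log (R + w) := mul_le_mul_of_nonneg_left h5 hρ
    nlinarith

end Vale.Agent.Lib.P358
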