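import Vale.Agent.Lib.P358.GBasic
import Vale.Agent.Lib.P358.G4a

/-!
# P358, general parameters, module G4: the one-sided lemma
-/

namespace Vale.Agent.Lib.P358

open MeasureTheory intervalIntegral

/-! ### consequences of `Pot` -/

theorem Pot.mono {F : ℝ → ℝ} {x q : ℝ} (h : Pot F x q) {s t : ℝ} (hs : 0 ≤ s) (hst : s ≤ t) :
    F s ≤ F t := by
  obtain ⟨g, hg0, -, hg⟩ := h.supp t (hs.trans hst)
  have := hg s hs
  nlinarith

theorem Pot.lip {F : ℝ → ℝ} {x q : ℝ} (h : Pot F x q) {s t : ℝ} (hs : 0 ≤ s) (hst : s ≤ t) :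
    F t ≤ F s + (t - s) := by
  obtain ⟨g, -, hg1, hg⟩ := h.supp s hs
  have := hg t (hs.trans hst)
  nlinarith

theorem Pot.le_self {F : ℝ → ℝ} {x q : ℝ} (h : Pot F x q) {t : ℝ} (ht : 0 ≤ t) : F t ≤ t := by
  have := h.lip le_rfl ht
  rw [h.zero] at this
  linarith

/-! ### partitions -/

/-- lower bound by a step function -/
theorem step_lower {F : ℝ → ℝ} (hmono : ∀ s t, 0 ≤ s → s ≤ t → F s ≤ F t) {κ : ℕ → ℝ}
    (hκ0 : 0 ≤ κ 0) (hκ : Monotone κ) {a : ℝ} (ha : 0 ≤ a) (L : ℕ) :
    F (min a (κ 0)) + ∑ l ∈ Finset.range L,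
      (F (κ (l + 1)) - F (κ l)) * (if κ (l + 1) < a then (1 : ℝ) else 0) ≤
      F (min a (κ L)) := by
  induction L with
  | zero => simp
  | succ L ih =>
    rw [Finset.sum_range_succ, ← add_assoc]
    have hκL : 0 ≤ κ L := hκ0.trans (hκ (Nat.zero_le _))
    have hLL : κ L ≤ κ (L + 1) := hκ (Nat.le_succ _)
    split_ifs with h
    · rw [min_eq_right h.le]
      rw [min_eq_right (hLL.trans h.le)] at ih
      linarith
    · rw [mul_zero, add_zero]
      exact ih.trans (hmono _ _ (le_min ha hκL) (min_le_min_left a hLL))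

/-- upper bound by a step function -/
theorem step_upper {F : ℝ → ℝ} (hmono : ∀ s t, 0 ≤ s → s ≤ t → F s ≤ F t) {κ : ℕ → ℝ}
    (hκ0 : 0 ≤ κ 0) (hκ : Monotone κ) {a : ℝ} (ha : 0 ≤ a) (L : ℕ) :
    F (min a (κ L)) ≤ F (min a (κ 0)) + ∑ l ∈ Finset.range L,
      (F (κ (l + 1)) - F (κ l)) * (if κ l < a then (1 : ℝ) else 0) := by
  induction L with
  | zero => simp
  | succ L ih =>
    rw [Finset.sum_range_succ, ← add_assoc]
    have hκL : 0 ≤ κ L := hκ0.trans (hκ (Nat.zero_le _))
    have hLL : κ L ≤ κ (L + 1) := hκ (Nat.le_succ _)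
    split_ifs with h
    · rw [min_eq_right h.le] at ih
      have := hmono _ _ (le_min ha (hκL.trans hLL)) (min_le_right a (κ (L + 1)))
      linarith
    · push Not at h
      rw [mul_zero, add_zero]
      rw [min_eq_left h] at ih
      rwa [min_eq_left (h.trans hLL)]

/-! ### indicator integrals -/

theorem intervalIntegrable_ite {κ lam R : ℝ} :
    IntervalIntegrable (fun r => if κ * r < lam then (1 : ℝ) else 0) volume 0 R := by
  refine ⟨?_, ?_⟩ <;>
  · refine Measure.integrableOn_of_bounded (M := 1) (by simp) ?_ ?_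
    · refine Measurable.aestronglyMeasurable ?_
      exact Measurable.ite (measurableSet_lt (by fun_prop) (by fun_prop)) (by fun_prop)
        (by fun_prop)
    · refine Filter.Eventually.of_forall fun r => ?_
      split_ifs <;> simp

theorem intervalIntegrable_const_on {c a b : ℝ} :
    IntervalIntegrable (fun _ : ℝ => c) volume a b := intervalIntegrable_const

theorem integral_ite_ge {κ lam R : ℝ} (hκ : 0 < κ) (hR : 0 ≤ R) (h : lam ≤ κ * R) :
    lam / κ ≤ ∫ r in (0 : ℝ)..R, (if κ * r < lam then (1 : ℝ) else 0) := by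
  rcases le_or_gt lam 0 with h0 | h0
  · have h1 : lam / κ ≤ 0 := div_nonpos_of_nonpos_of_nonneg h0 hκ.le
    refine h1.trans (intervalIntegral.integral_nonneg hR fun r _ => ?_)
    split_ifs <;> norm_num
  · have hlR : lam / κ ≤ R := by rwa [div_le_iff₀ hκ, mul_comm]
    have hl0 : 0 ≤ lam / κ := by positivity
    have hI : ∀ a b : ℝ, IntervalIntegrable (fun r => if κ * r < lam then (1 : ℝ) else 0)
        volume a b := by
      intro a b
      have := (intervalIntegrable_ite (κ := κ) (lam := lam) (R := a)).symm.trans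
        (intervalIntegrable_ite (κ := κ) (lam := lam) (R := b))
      exact this
    rw [← integral_add_adjacent_intervals (hI 0 (lam / κ)) (hI (lam / κ) R)]
    have h1 : ∫ r in (0 : ℝ)..(lam / κ), (if κ * r < lam then (1 : ℝ) else 0) = lam / κ := by
      have e : ∫ r in (0 : ℝ)..(lam / κ), (if κ * r < lam then (1 : ℝ) else 0) =
          ∫ r in (0 : ℝ)..(lam / κ), (1 : ℝ) := by
        refine integral_congr_ae ?_
        have hne : ∀ᵐ r : ℝ, r ≠ lam / κ := by
          simp [ae_iff, measure_singleton]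
        filter_upwards [hne] with r hr hmem
        rw [Set.uIoc_of_le hl0] at hmem
        rw [if_pos]
        have h2 : r < lam / κ := lt_of_le_of_ne hmem.2 hr
        rwa [lt_div_iff₀ hκ, mul_comm] at h2
      rw [e, intervalIntegral.integral_const]
      simp
    have h2 : 0 ≤ ∫ r in (lam / κ)..R, (if κ * r < lam then (1 : ℝ) else 0) :=
      intervalIntegral.integral_nonneg hlR fun r _ => by split_ifs <;> norm_num
    linarith

theorem integral_ite_le {κ lam R : ℝ} (hκ : 0 < κ) (h0 : 0 ≤ lam)
    (h : lam ≤ κ * R) :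
    ∫ r in (0 : ℝ)..R, (if κ * r < lam then (1 : ℝ) else 0) ≤ lam / κ := by
  have hlR : lam / κ ≤ R := by rwa [div_le_iff₀ hκ, mul_comm]
  have hl0 : 0 ≤ lam / κ := by positivity
  have hI : ∀ a b : ℝ, IntervalIntegrable (fun r => if κ * r < lam then (1 : ℝ) else 0)
      volume a b := by
    intro a b
    have := (intervalIntegrable_ite (κ := κ) (lam := lam) (R := a)).symm.trans
      (intervalIntegrable_ite (κ := κ) (lam := lam) (R := b))
    exact this
  rw [← integral_add_adjacent_intervals (hI 0 (lam / κ)) (hI (lam / κ) R)]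
  have h1 : ∫ r in (0 : ℝ)..(lam / κ), (if κ * r < lam then (1 : ℝ) else 0) ≤
      ∫ r in (0 : ℝ)..(lam / κ), (1 : ℝ) := by
    refine integral_mono_on hl0 (hI _ _) intervalIntegrable_const fun r _ => ?_
    split_ifs <;> norm_num
  have h2 : ∫ r in (lam / κ)..R, (if κ * r < lam then (1 : ℝ) else 0) ≤
      ∫ r in (lam / κ)..R, (0 : ℝ) := by
    refine integral_mono_on hlR (hI _ _) intervalIntegrable_const fun r hr => ?_
    rw [if_neg]
    have h3 := hr.1
    rw [div_le_iff₀ hκ] at h3
    linarith
  rw [intervalIntegral.integral_const] at h1 h2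
  simp only [smul_eq_mul, mul_one, mul_zero, sub_zero] at h1 h2
  linarith

/-! ### the main lemma -/

theorem ii_sum {ι : Type*} (s : Finset ι) {f : ι → ℝ → ℝ} {a b : ℝ}
    (h : ∀ i ∈ s, IntervalIntegrable (f i) volume a b) :
    IntervalIntegrable (fun r => ∑ i ∈ s, f i r) volume a b := by
  have e : (fun r => ∑ i ∈ s, f i r) = ∑ i ∈ s, f i := by
    ext r
    simp
  rw [e]
  exact IntervalIntegrable.sum s h

theorem tele_le {κ : ℕ → ℝ} {h d : ℝ} (hκ : Monotone κ) (hd : 0 < d) (hκ0 : κ 0 = d)
    (hh : 0 ≤ h) (L : ℕ) (c : ℕ → ℝ) (hc : ∀ l, c l ≤ h) :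
    ∑ l ∈ Finset.range L, c l * (1 / κ l - 1 / κ (l + 1)) ≤ h / d := by
  have hpos : ∀ l, 0 < κ l := fun l => hd.trans_le (hκ0 ▸ hκ (Nat.zero_le l))
  have h1 : ∀ l, 0 ≤ 1 / κ l - 1 / κ (l + 1) := fun l => by
    have := one_div_le_one_div_of_le (hpos l) (hκ (Nat.le_succ l))
    linarith
  calc ∑ l ∈ Finset.range L, c l * (1 / κ l - 1 / κ (l + 1))
      ≤ ∑ l ∈ Finset.range L, h * (1 / κ l - 1 / κ (l + 1)) :=
        Finset.sum_le_sum fun l _ => mul_le_mul_of_nonneg_right (hc l) (h1 l)
    _ = h * (1 / κ 0 - 1 / κ L) := by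
        rw [← Finset.mul_sum, Finset.sum_range_sub']
    _ ≤ h / d := by
        rw [hκ0]
        have : 0 ≤ 1 / κ L := by have := hpos L; positivity
        have e : h / d = h * (1 / d) := by ring
        rw [e]
        exact mul_le_mul_of_nonneg_left (by linarith) hh

theorem one_sided {k m : Type*} [Fintype k] [Fintype m] {F : ℝ → ℝ} {x q w : ℝ}
    (hx : 0 < x) (hq : 0 < q) (hw : 0 ≤ w) (hF : Pot F x q)
    (ρ : m → ℝ) (hρ : ∀ j, 0 ≤ ρ j) (hρx : ∑ j, ρ j = x)
    (lam : ℝ → m → ℝ) (hlam : ∀ κ, 0 < κ → ∑ j, lam κ j = x - κ * q)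
    (hlamx : ∀ κ, 0 < κ → ∀ j, lam κ j ≤ x)
    (a : ℝ → k → ℝ) (ha : ∀ r, 0 < r → ∀ i, 0 ≤ a r i)
    (hc1 : ∀ r, 0 < r → ∀ κ, 0 < κ → ∑ j, (if κ * r < lam κ j then (1 : ℝ) else 0) ≤
      ∑ i, (if κ < a r i then (1 : ℝ) else 0))
    (hc2 : ∀ r, 0 < r → ∀ κ, 0 < κ → ∑ j, (if κ * (r + w) < ρ j then (1 : ℝ) else 0) ≤
      ∑ i, (if κ < a r i then (1 : ℝ) else 0)) {ε : ℝ} (hε : 0 < ε) :
    ∃ R₀ : ℝ, 0 < R₀ ∧ ∀ R, R₀ ≤ R → ∃ f : ℝ → ℝ, IntervalIntegrable f volume 0 R ∧
      (∀ r, 0 < r → r < R → f r ≤ ∑ i, F (a r i)) ∧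
      (∫ r in (0 : ℝ)..R, F (x / (r + q))) + ∑ j, Real.negMulLog (ρ j) - Real.negMulLog x - ε ≤
        ∫ r in (0 : ℝ)..R, f r := by
  obtain ⟨C, hC0, hC⟩ := hF.quad
  set S := ∑ j, Real.negMulLog (ρ j) with hS
  set n : ℝ := (Fintype.card m : ℝ) with hn
  set Bd := C * |x + x * Real.log x + S| + n * w with hBd
  have hBd0 : 0 ≤ Bd := by positivity
  have hρx' : ∀ j, ρ j ≤ x := fun j => by
    rw [← hρx]
    exact Finset.single_le_sum (f := ρ) (fun i _ => hρ i) (Finset.mem_univ j)
  refine ⟨1 + q + C * x + 2 * x * Bd / ε + ∑ j, w * x / ρ j, ?_, fun R hR => ?_⟩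
  · have h1 : 0 ≤ ∑ j, w * x / ρ j := Finset.sum_nonneg fun j _ => by
      have := hρ j
      positivity
    have h2 : 0 ≤ C * x := by positivity
    have h3 : 0 ≤ 2 * x * Bd / ε := by positivity
    linarith
  have hs0 : 0 ≤ ∑ j, w * x / ρ j := Finset.sum_nonneg fun j _ => by
    have := hρ j
    positivity
  have hCx0 : 0 ≤ C * x := by positivity
  have hB0 : 0 ≤ 2 * x * Bd / ε := by positivity
  have hR0 : 0 < R := by linarith
  have hRq : q < R := by linarith
  have hRC : C * x ≤ R := by linarith
  have hRB : 2 * x * Bd / ε ≤ R := by linarith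
  have hRw : ∀ j, w * x / ρ j ≤ R := fun j => by
    have h1 := Finset.single_le_sum (f := fun j => w * x / ρ j) (fun i _ => by
      have := hρ i
      positivity) (Finset.mem_univ j)
    linarith
  set d := x / R with hd
  have hd0 : 0 < d := by positivity
  set K := x / q with hK
  have hdK : d < K := by
    rw [hd, hK]
    exact div_lt_div_of_pos_left hx hq hRq
  have hCd : C * d ≤ 1 := by
    rw [hd, ← mul_div_assoc, div_le_one hR0]
    exact hRC
  have hdB : d * Bd ≤ ε / 2 := by
    rw [div_le_iff₀ hε] at hRB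
    rw [hd, div_mul_eq_mul_div, div_le_iff₀ hR0]
    linarith
  -- the number of steps
  obtain ⟨L, hL0, hL⟩ : ∃ L : ℕ, 0 < L ∧ x * ((K - d) / L) / d ≤ ε / 2 := by
    obtain ⟨L, hL⟩ := exists_nat_gt (2 * x * (K - d) / (d * ε))
    have hL0 : (0 : ℝ) < L := by
      refine lt_of_le_of_lt ?_ hL
      have : 0 < K - d := by linarith
      positivity
    refine ⟨L, by exact_mod_cast hL0, ?_⟩
    rw [div_lt_iff₀ (by positivity)] at hL
    rw [div_le_iff₀ hd0, ← mul_div_assoc, div_le_iff₀ hL0]
    nlinarith
  have hL0' : (0 : ℝ) < L := by exact_mod_cast hL0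
  set h := (K - d) / L with hh
  have hh0 : 0 < h := by
    have : 0 < K - d := by linarith
    positivity
  set κ : ℕ → ℝ := fun l => d + l * h with hκdef
  have hκ0 : κ 0 = d := by simp [hκdef]
  have hκL : κ L = K := by
    simp only [hκdef, hh]
    field_simp
    ring
  have hκm : Monotone κ := by
    intro l l' hl
    simp only [hκdef]
    have : (l : ℝ) ≤ l' := by exact_mod_cast hl
    nlinarith
  have hκpos : ∀ l, 0 < κ l := fun l => hd0.trans_le (hκ0 ▸ hκm (Nat.zero_le l))
  have hκd : ∀ l, d ≤ κ l := fun l => hκ0 ▸ hκm (Nat.zero_le l)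
  have hκs : ∀ l, κ (l + 1) - κ l = h := fun l => by
    simp only [hκdef]
    push_cast
    ring
  have hmono : ∀ s t, 0 ≤ s → s ≤ t → F s ≤ F t := fun s t => hF.mono
  set D : ℕ → ℝ := fun l => F (κ (l + 1)) - F (κ l) with hD
  have hD0 : ∀ l, 0 ≤ D l := fun l => by
    have := hmono _ _ (hκpos l).le (hκm (Nat.le_succ l))
    simp only [hD]
    linarith
  have hDh : ∀ l, D l ≤ h := fun l => by
    have := hF.lip (hκpos l).le (hκm (Nat.le_succ l))
    have h2 := hκs l
    simp only [hD]
    linarith
  have hIm : ∀ j, IntervalIntegrable (fun r => min (ρ j / (r + w)) d) volume 0 R := fun j =>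
    (int_min hx (hρ j) (hρx' j) hw hR0 (hRw j)).1
  have hI1 : IntervalIntegrable (fun r => (1 - C * d) * ∑ j, min (ρ j / (r + w)) d)
      volume 0 R :=
    (ii_sum _ fun j _ => hIm j).const_mul _
  have hIs : ∀ l, IntervalIntegrable
      (fun r => ∑ j, (if κ (l + 1) * r < lam (κ (l + 1)) j then (1 : ℝ) else 0)) volume 0 R :=
    fun l => ii_sum _ fun j _ => intervalIntegrable_ite
  have hI2 : IntervalIntegrable (fun r => ∑ l ∈ Finset.range L,
      D l * ∑ j, (if κ (l + 1) * r < lam (κ (l + 1)) j then (1 : ℝ) else 0)) volume 0 R :=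
    ii_sum _ fun l _ => (hIs l).const_mul _
  have hIf := hI1.add hI2
  -- the function f
  refine ⟨fun r => (1 - C * d) * ∑ j, min (ρ j / (r + w)) d +
    ∑ l ∈ Finset.range L, D l * ∑ j, (if κ (l + 1) * r < lam (κ (l + 1)) j then (1 : ℝ) else 0),
    ?_, ?_, ?_⟩
  · exact hIf
  · intro r hr0 hrR
    have hrw : 0 < r + w := by linarith
    have h1 : ∀ i, F (min (a r i) d) + ∑ l ∈ Finset.range L,
        D l * (if κ (l + 1) < a r i then (1 : ℝ) else 0) ≤ F (a r i) := by
      intro i
      have h2 := step_lower hmono (hκpos 0).le hκm (ha r hr0 i) L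
      rw [hκ0] at h2
      exact h2.trans (hmono _ _ (le_min (ha r hr0 i) (hκpos L).le) (min_le_left _ _))
    have h2 : ∑ j, min (ρ j / (r + w)) d ≤ ∑ i, min (a r i) d := by
      refine sum_min_le _ _ (ha r hr0) (fun j => div_nonneg (hρ j) hrw.le) hd0.le fun κ' hκ' => ?_
      simp only [lt_div_iff₀ hrw]
      exact hc2 r hr0 κ' hκ'
    have h3 : ∀ i, (1 - C * d) * min (a r i) d ≤ F (min (a r i) d) := by
      intro i
      have h0 : 0 ≤ min (a r i) d := le_min (ha r hr0 i) hd0.le
      have h4 := hC _ h0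
      have h5 : min (a r i) d ≤ d := min_le_right _ _
      nlinarith [mul_nonneg hC0 (mul_nonneg h0 (sub_nonneg.mpr h5))]
    calc (1 - C * d) * ∑ j, min (ρ j / (r + w)) d +
          ∑ l ∈ Finset.range L, D l *
            ∑ j, (if κ (l + 1) * r < lam (κ (l + 1)) j then (1 : ℝ) else 0)
        ≤ (1 - C * d) * ∑ i, min (a r i) d +
          ∑ l ∈ Finset.range L, D l * ∑ i, (if κ (l + 1) < a r i then (1 : ℝ) else 0) :=
          add_le_add (mul_le_mul_of_nonneg_left h2 (by linarith))
            (Finset.sum_le_sum fun l _ => mul_le_mul_of_nonneg_left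
              (hc1 r hr0 _ (hκpos _)) (hD0 l))
      _ = ∑ i, ((1 - C * d) * min (a r i) d + ∑ l ∈ Finset.range L,
            D l * (if κ (l + 1) < a r i then (1 : ℝ) else 0)) := by
          rw [Finset.sum_add_distrib, Finset.mul_sum, Finset.sum_comm]
          simp only [Finset.mul_sum]
      _ ≤ ∑ i, F (a r i) := Finset.sum_le_sum fun i _ => by
          have := h1 i
          have := h3 i
          linarith
  · -- lower bound of the integral of `f`
    have hlow : (1 - C * d) * (x + x * Real.log x + S - n * (w * d)) +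
        ∑ l ∈ Finset.range L, D l * (x / κ (l + 1) - q) ≤
        ∫ r in (0 : ℝ)..R, ((1 - C * d) * ∑ j, min (ρ j / (r + w)) d +
          ∑ l ∈ Finset.range L, D l *
            ∑ j, (if κ (l + 1) * r < lam (κ (l + 1)) j then (1 : ℝ) else 0)) := by
      rw [intervalIntegral.integral_add hI1 hI2, intervalIntegral.integral_const_mul,
        intervalIntegral.integral_finsetSum (fun j _ => hIm j),
        intervalIntegral.integral_finsetSum (fun l _ => (hIs l).const_mul _)]
      refine add_le_add (mul_le_mul_of_nonneg_left ?_ (by linarith))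
        (Finset.sum_le_sum fun l _ => ?_)
      · have e : x + x * Real.log x + S - n * (w * d) =
            ∑ j, (ρ j - w * d + ρ j * Real.log x + Real.negMulLog (ρ j)) := by
          have e1 : ∑ j, ρ j * Real.log x = x * Real.log x := by rw [← Finset.sum_mul, hρx]
          rw [Finset.sum_add_distrib, Finset.sum_add_distrib, Finset.sum_sub_distrib,
            e1, hρx, ← hS]
          simp only [Finset.sum_const, Finset.card_univ, nsmul_eq_mul, ← hn]
          ring
        rw [e]
        exact Finset.sum_le_sum fun j _ => (int_min hx (hρ j) (hρx' j) hw hR0 (hRw j)).2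
      · rw [intervalIntegral.integral_const_mul,
          intervalIntegral.integral_finsetSum (fun j _ => intervalIntegrable_ite)]
        refine mul_le_mul_of_nonneg_left ?_ (hD0 l)
        have e : x / κ (l + 1) - q = ∑ j, lam (κ (l + 1)) j / κ (l + 1) := by
          rw [← Finset.sum_div, hlam _ (hκpos _), sub_div]
          congr 1
          have := (hκpos (l + 1)).ne'
          field_simp
        rw [e]
        refine Finset.sum_le_sum fun j _ => integral_ite_ge (hκpos _) hR0.le ?_
        refine (hlamx _ (hκpos _) j).trans ?_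
        have h1 := mul_le_mul_of_nonneg_right (hκd (l + 1)) hR0.le
        have h2 : d * R = x := by
          rw [hd]
          field_simp
        linarith
    have hup : ∫ r in (0 : ℝ)..R, F (x / (r + q)) ≤
        x + ∑ l ∈ Finset.range L, D l * (x / κ l - q) := by
      have hFi : IntervalIntegrable (fun r => F (x / (r + q))) volume 0 R := by
        refine AntitoneOn.intervalIntegrable ?_
        intro r hr r' hr' hrr
        rw [Set.uIcc_of_le hR0.le] at hr hr'
        have h1 : 0 < r + q := by linarith [hr.1]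
        exact hmono _ _ (by have := hr'.1; positivity)
          (div_le_div_of_nonneg_left hx.le h1 (by linarith))
      have hUi : IntervalIntegrable (fun r => d + ∑ l ∈ Finset.range L,
          D l * (if κ l * r < x - κ l * q then (1 : ℝ) else 0)) volume 0 R := by
        refine intervalIntegrable_const.add (ii_sum _ fun l _ => ?_)
        exact intervalIntegrable_ite.const_mul _
      have h1 : ∫ r in (0 : ℝ)..R, F (x / (r + q)) ≤
          ∫ r in (0 : ℝ)..R, (d + ∑ l ∈ Finset.range L,
            D l * (if κ l * r < x - κ l * q then (1 : ℝ) else 0)) := by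
        refine intervalIntegral.integral_mono_on hR0.le hFi hUi fun r hr => ?_
        have hrq : 0 < r + q := by linarith [hr.1]
        have h2 : 0 ≤ x / (r + q) := by positivity
        have h3 : x / (r + q) ≤ K := by
          rw [hK]
          exact div_le_div_of_nonneg_left hx.le hq (by linarith [hr.1])
        have h4 := step_upper hmono (hκpos 0).le hκm h2 L
        rw [hκL, min_eq_left h3, hκ0] at h4
        refine h4.trans (add_le_add ?_ (Finset.sum_le_sum fun l _ => ?_))
        · exact (hF.le_self (le_min h2 hd0.le)).trans (min_le_right _ _)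
        · refine mul_le_mul_of_nonneg_left (le_of_eq ?_) (hD0 l)
          have h5 : κ l < x / (r + q) ↔ κ l * r < x - κ l * q := by
            rw [lt_div_iff₀ hrq, mul_add]
            constructor <;> intro h6 <;> linarith
          simp only [h5]
      refine h1.trans ?_
      rw [intervalIntegral.integral_add intervalIntegrable_const
        (ii_sum _ fun l _ => intervalIntegrable_ite.const_mul _),
        intervalIntegral.integral_finsetSum (fun l _ => intervalIntegrable_ite.const_mul _),
        intervalIntegral.integral_const]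
      refine add_le_add (le_of_eq ?_) (Finset.sum_le_sum fun l hl => ?_)
      · rw [hd, smul_eq_mul]
        field_simp
        ring
      · rw [intervalIntegral.integral_const_mul]
        refine mul_le_mul_of_nonneg_left ?_ (hD0 l)
        have hκK : κ l ≤ K := hκL ▸ hκm (Finset.mem_range.mp hl).le
        have h2 : κ l * q ≤ x := by
          rw [hK, le_div_iff₀ hq] at hκK
          exact hκK
        have h3 : d * R = x := by
          rw [hd]
          field_simp
        have h4 := mul_le_mul_of_nonneg_right (hκd l) hR0.le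
        refine (integral_ite_le (hκpos l) (by linarith) ?_).trans (le_of_eq ?_)
        · have : 0 ≤ κ l * q := by have := hκpos l; positivity
          linarith
        · rw [sub_div]
          congr 1
          have := (hκpos l).ne'
          field_simp
    have htele := tele_le hκm hd0 hκ0 hh0.le L D hDh
    have hsum : ∑ l ∈ Finset.range L, D l * (x / κ l - q) -
        ∑ l ∈ Finset.range L, D l * (x / κ (l + 1) - q) =
        x * ∑ l ∈ Finset.range L, D l * (1 / κ l - 1 / κ (l + 1)) := by
      rw [← Finset.sum_sub_distrib, Finset.mul_sum]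
      refine Finset.sum_congr rfl fun l _ => ?_
      ring
    have h1 : x * (h / d) ≤ ε / 2 := by
      rw [← mul_div_assoc]
      exact hL
    have h2 := mul_le_mul_of_nonneg_left htele hx.le
    have h3 : Real.negMulLog x = -(x * Real.log x) := by
      unfold Real.negMulLog
      ring
    have h4 : C * d * (x + x * Real.log x + S - n * (w * d)) + n * (w * d) ≤ ε / 2 := by
      refine le_trans ?_ hdB
      have h7 : 0 ≤ C * d * (n * (w * d)) := by positivity
      have h8 : C * d * (x + x * Real.log x + S) ≤ C * d * |x + x * Real.log x + S| :=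
        mul_le_mul_of_nonneg_left (le_abs_self _) (by positivity)
      rw [hBd]
      calc C * d * (x + x * Real.log x + S - n * (w * d)) + n * (w * d)
          = C * d * (x + x * Real.log x + S) - C * d * (n * (w * d)) + n * (w * d) := by ring
        _ ≤ C * d * |x + x * Real.log x + S| + n * (w * d) := by linarith
        _ = d * (C * |x + x * Real.log x + S| + n * w) := by ring
    rw [h3]
    have h9 : (1 - C * d) * (x + x * Real.log x + S - n * (w * d)) =
        x + x * Real.log x + S -
          (C * d * (x + x * Real.log x + S - n * (w * d)) + n * (w * d)) := by ring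
    rw [h9] at hlow
    linarith

end Vale.Agent.Lib.P358
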