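import Vale.Agent.Lib.P358.Balanced

/-!
# P358, general parameters, module G5, first part: integrated balanced sums
-/

namespace Vale.Agent.Lib.P358

open Filter Topology MeasureTheory

namespace G5

/-- the primitive of `∑ e i * log (1 + l i / r)` -/
noncomputable def prim {κ : Type*} [Fintype κ] (e l : κ → ℝ) (R : ℝ) : ℝ :=
  ∑ i, e i * ((R + l i) * Real.log (R + l i)) -
    (∑ i, e i) * (R * Real.log R) + ∑ i, e i * Real.negMulLog (l i)

theorem prim_zero {κ : Type*} [Fintype κ] (e l : κ → ℝ) : prim e l 0 = 0 := by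
  unfold prim
  simp only [zero_add, zero_mul, mul_zero, sub_zero]
  rw [← Finset.sum_add_distrib]
  apply Finset.sum_eq_zero
  intro i _
  rw [Real.negMulLog]
  ring

theorem continuous_prim {κ : Type*} [Fintype κ] (e l : κ → ℝ) : Continuous (prim e l) := by
  unfold prim
  have h1 : Continuous fun R : ℝ => R * Real.log R := Real.continuous_mul_log
  apply Continuous.add _ continuous_const
  apply Continuous.sub
  · apply continuous_finsetSum
    intro i _
    exact continuous_const.mul (h1.comp (continuous_id.add continuous_const))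
  · exact continuous_const.mul h1

theorem hasDerivAt_prim {κ : Type*} [Fintype κ] (e l : κ → ℝ) (hl : ∀ i, 0 ≤ l i) (R : ℝ)
    (hR : 0 < R) : HasDerivAt (prim e l) (∑ i, e i * Real.log (1 + l i / R)) R := by
  have h1 : ∀ i, HasDerivAt (fun R : ℝ => e i * ((R + l i) * Real.log (R + l i)))
      (e i * (Real.log (R + l i) + 1)) R := by
    intro i
    have h2 : R + l i ≠ 0 := by have := hl i; positivity
    have h3 := (Real.hasDerivAt_mul_log h2).comp_add_const R (l i)
    exact h3.const_mul _
  have h4 : HasDerivAt (fun R : ℝ => ∑ i, e i * ((R + l i) * Real.log (R + l i)))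
      (∑ i, e i * (Real.log (R + l i) + 1)) R := by
    apply HasDerivAt.fun_sum
    intro i _
    exact h1 i
  have h5 := (Real.hasDerivAt_mul_log hR.ne').const_mul (∑ i, e i)
  have h6 := (h4.sub h5).add_const (∑ i, e i * Real.negMulLog (l i))
  have h8 : ∑ i, e i * Real.log (1 + l i / R) =
      ∑ i, e i * (Real.log (R + l i) + 1) - (∑ i, e i) * (Real.log R + 1) := by
    rw [Finset.sum_mul, ← Finset.sum_sub_distrib]
    apply Finset.sum_congr rfl
    intro i _
    have h7 : 1 + l i / R = (R + l i) / R := by field_simp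
    rw [h7, Real.log_div (by have := hl i; positivity) hR.ne']
    ring
  rw [h8]
  exact h6

theorem intervalIntegrable_log_one_add_div {l : ℝ} (hl : 0 ≤ l) {R : ℝ} (hR : 0 ≤ R) :
    IntervalIntegrable (fun r => Real.log (1 + l / r)) volume 0 R := by
  have h1 : IntervalIntegrable (fun r : ℝ => Real.log (r + l) - Real.log r) volume 0 R := by
    apply IntervalIntegrable.sub
    · have h2 : IntervalIntegrable Real.log volume (0 + l) (R + l) :=
        intervalIntegral.intervalIntegrable_log'
      have h3 := h2.comp_add_right l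
      simpa using h3
    · exact intervalIntegral.intervalIntegrable_log'
  refine h1.congr ?_
  rw [Set.uIoc_of_le hR]
  intro r hr
  have hr0 : 0 < r := hr.1
  have h7 : 1 + l / r = (r + l) / r := by field_simp
  simp only
  rw [h7, Real.log_div (by positivity) hr0.ne']

theorem intervalIntegrable_sum {κ : Type*} [Fintype κ] (e l : κ → ℝ) (hl : ∀ i, 0 ≤ l i) {R : ℝ}
    (hR : 0 ≤ R) :
    IntervalIntegrable (fun r => ∑ i, e i * Real.log (1 + l i / r)) volume 0 R := by
  have h1 : (fun r => ∑ i, e i * Real.log (1 + l i / r)) =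
      ∑ i, fun r => e i * Real.log (1 + l i / r) := by
    funext r
    rw [Finset.sum_apply]
  rw [h1]
  apply IntervalIntegrable.sum
  intro i _
  exact (intervalIntegrable_log_one_add_div (hl i) hR).const_mul _

theorem integral_eq {κ : Type*} [Fintype κ] (e l : κ → ℝ) (hl : ∀ i, 0 ≤ l i) {R : ℝ}
    (hR : 0 ≤ R) : ∫ r in (0 : ℝ)..R, ∑ i, e i * Real.log (1 + l i / r) = prim e l R := by
  rw [intervalIntegral.integral_eq_sub_of_hasDerivAt_of_le hR (continuous_prim e l).continuousOn
    (fun r hr => hasDerivAt_prim e l hl r hr.1) (intervalIntegrable_sum e l hl hR), prim_zero,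
    sub_zero]

theorem tendsto_prim {κ : Type*} [Fintype κ] (e l : κ → ℝ) (hl : ∀ i, 0 ≤ l i)
    (h0 : ∑ i, e i * l i = 0) :
    Tendsto (prim e l) atTop (𝓝 (∑ i, e i * Real.negMulLog (l i))) := by
  have h1 : ∀ i, Tendsto (fun R : ℝ => e i * ((R + l i) * Real.log (1 + l i / R))) atTop
      (𝓝 (e i * l i)) := by
    intro i
    apply Tendsto.const_mul
    have h2 := Real.tendsto_mul_log_one_add_div_atTop (l i)
    have h3 : Tendsto (fun R : ℝ => l i * Real.log (1 + l i / R)) atTop (𝓝 (l i * 0)) := by
      apply Tendsto.const_mul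
      have h4 : Tendsto (fun R : ℝ => 1 + l i / R) atTop (𝓝 (1 + 0)) :=
        tendsto_const_nhds.add (tendsto_const_nhds.div_atTop tendsto_id)
      rw [add_zero] at h4
      have h5 := (Real.continuousAt_log one_ne_zero).tendsto.comp h4
      rwa [Real.log_one] at h5
    have h6 := h2.add h3
    rw [mul_zero, add_zero] at h6
    apply h6.congr
    intro R
    ring
  have h2 : Tendsto (fun R : ℝ => ∑ i, e i * ((R + l i) * Real.log (1 + l i / R)) +
      ∑ i, e i * Real.negMulLog (l i)) atTop
      (𝓝 (∑ i, e i * l i + ∑ i, e i * Real.negMulLog (l i))) := by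
    apply Tendsto.add_const
    apply tendsto_finsetSum
    intro i _
    exact h1 i
  rw [h0, zero_add] at h2
  apply h2.congr'
  filter_upwards [eventually_gt_atTop (0 : ℝ)] with R hR
  unfold prim
  congr 1
  have h3 : ∀ i, e i * ((R + l i) * Real.log (1 + l i / R)) =
      e i * ((R + l i) * Real.log (R + l i)) - e i * (R * Real.log R) -
        (e i * l i) * Real.log R := by
    intro i
    have h7 : 1 + l i / R = (R + l i) / R := by field_simp
    rw [h7, Real.log_div (by have := hl i; positivity) hR.ne']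
    ring
  simp only [h3]
  rw [Finset.sum_sub_distrib, Finset.sum_sub_distrib, ← Finset.sum_mul, ← Finset.sum_mul, h0]
  ring

end G5

/-- balanced sums, integrated version -/
theorem balanced_int {κ : Type*} [Fintype κ] (e l : κ → ℝ) (hl : ∀ i, 0 ≤ l i)
    (h0 : ∑ i, e i * l i = 0)
    (hr : ∀ ε : ℝ, 0 < ε → ∃ R₀ : ℝ, 0 < R₀ ∧ ∀ R, R₀ ≤ R →
      -ε ≤ ∫ r in (0 : ℝ)..R, ∑ i, e i * Real.log (1 + l i / r)) :
    0 ≤ ∑ i, e i * Real.negMulLog (l i) := by
  have hlim := G5.tendsto_prim e l hl h0
  apply le_of_forall_pos_le_add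
  intro ε hε
  obtain ⟨R₀, hR₀, h⟩ := hr ε hε
  have h1 : -ε ≤ ∑ i, e i * Real.negMulLog (l i) := by
    apply ge_of_tendsto hlim
    filter_upwards [eventually_ge_atTop R₀] with R hR
    rw [← G5.integral_eq e l hl (hR₀.le.trans hR)]
    exact h R hR
  linarith

end Vale.Agent.Lib.P358
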