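import Vale.Agent.Lib.P358.G1
import Vale.Agent.Lib.P358.G2
import Vale.Agent.Lib.P358.G3
import Vale.Agent.Lib.P358.G4
import Vale.Agent.Lib.P358.G5a
import Vale.Agent.Lib.P358.Scalar

/-!
# P358, general parameters, module G5: the block inequality
-/

namespace Vale.Agent.Lib.P358

open Matrix MeasureTheory Filter Topology
open scoped ComplexOrder

namespace G5

theorem integral_diff {κ : Type*} [Fintype κ] (ρ : κ → ℝ) (hρ : ∀ i, 0 ≤ ρ i) {x : ℝ}
    (hx : 0 ≤ x) (hs : ∑ i, ρ i = x) {ε : ℝ} (hε : 0 < ε) :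
    ∃ R₀ : ℝ, 0 < R₀ ∧ ∀ R, R₀ ≤ R →
      IntervalIntegrable (fun r => ∑ i, Real.log (1 + ρ i / r) - Real.log (1 + x / r))
        volume 0 R ∧
      ∫ r in (0 : ℝ)..R, (∑ i, Real.log (1 + ρ i / r) - Real.log (1 + x / r)) ≤
        ∑ i, Real.negMulLog (ρ i) - Real.negMulLog x + ε := by
  have hl : ∀ i : κ ⊕ Unit, 0 ≤ Sum.elim ρ (fun _ => x) i := by
    rintro (i | i)
    · exact hρ i
    · exact hx
  have hexp : ∀ φ : ℝ → ℝ, ∑ i : κ ⊕ Unit, Sum.elim (fun _ : κ => (1 : ℝ)) (fun _ : Unit => -1) i *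
      φ (Sum.elim ρ (fun _ => x) i) = ∑ i, φ (ρ i) - φ x := by
    intro φ
    simp only [Fintype.sum_sum_type, Sum.elim_inl, Sum.elim_inr, one_mul, Finset.univ_unique,
      Finset.sum_singleton]
    ring
  have h0 : ∑ i : κ ⊕ Unit, Sum.elim (fun _ : κ => (1 : ℝ)) (fun _ : Unit => -1) i *
      Sum.elim ρ (fun _ => x) i = 0 := by
    have := hexp id
    simp only [id] at this
    rw [this, hs, sub_self]
  have hlim := tendsto_prim _ _ hl h0
  rw [hexp Real.negMulLog] at hlim
  have hev := hlim.eventually (Iic_mem_nhds (show ∑ i, Real.negMulLog (ρ i) - Real.negMulLog x <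
    ∑ i, Real.negMulLog (ρ i) - Real.negMulLog x + ε by linarith))
  obtain ⟨R₁, hR₁⟩ := eventually_atTop.1 hev
  refine ⟨max R₁ 1, lt_of_lt_of_le one_pos (le_max_right _ _), fun R hR => ?_⟩
  have hR0 : 0 ≤ R := le_trans zero_le_one ((le_max_right _ _).trans hR)
  have hfun : (fun r => ∑ i, Real.log (1 + ρ i / r) - Real.log (1 + x / r)) =
      fun r => ∑ i : κ ⊕ Unit, Sum.elim (fun _ : κ => (1 : ℝ)) (fun _ : Unit => -1) i *
        Real.log (1 + Sum.elim ρ (fun _ => x) i / r) := by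
    funext r
    rw [hexp fun z => Real.log (1 + z / r)]
  rw [hfun]
  refine ⟨intervalIntegrable_sum _ _ hl hR0, ?_⟩
  rw [integral_eq _ _ hl hR0]
  exact hR₁ R ((le_max_left _ _).trans hR)

theorem Pot_monotoneOn {F : ℝ → ℝ} {x q : ℝ} (hF : Pot F x q) : MonotoneOn F (Set.Ici 0) := by
  intro a ha b hb hab
  obtain ⟨g, g0, _, h⟩ := hF.supp b hb
  have h1 := h a ha
  have h2 : 0 ≤ g * (b - a) := mul_nonneg g0 (by linarith)
  nlinarith

theorem Pot_integrable {F : ℝ → ℝ} {x q : ℝ} (hF : Pot F x q) (hx : 0 < x) (hq : 0 < q) {R : ℝ}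
    (hR : 0 ≤ R) : IntervalIntegrable (fun r => F (x / (r + q))) volume 0 R := by
  apply AntitoneOn.intervalIntegrable
  rw [Set.uIcc_of_le hR]
  intro a ha b hb hab
  have ha0 : 0 ≤ a := ha.1
  have hb0 : 0 ≤ b := hb.1
  apply Pot_monotoneOn hF
  · rw [Set.mem_Ici]
    positivity
  · rw [Set.mem_Ici]
    positivity
  · exact div_le_div_of_nonneg_left hx.le (by linarith) (by linarith)

theorem block_posSemidef {k m n : Type*} [Fintype k] [DecidableEq k] [Fintype m] [DecidableEq m]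
    [Fintype n] [DecidableEq n] (A : Matrix k m ℂ) (B : Matrix k n ℂ) {Q : Matrix m m ℂ}
    {R : Matrix n n ℂ} (hQ : Q.PosSemidef) (hR : R.PosSemidef) :
    (fromBlocks (Aᴴ * A + Q) (Aᴴ * B) (Bᴴ * A) (Bᴴ * B + R)).PosSemidef := by
  obtain ⟨W, hW⟩ : ∃ W : Matrix (k ⊕ k) (m ⊕ n) ℂ, W = fromBlocks A B 0 0 := ⟨_, rfl⟩
  have h1 : fromBlocks (Aᴴ * A + Q) (Aᴴ * B) (Bᴴ * A) (Bᴴ * B + R) =
      Wᴴ * W + fromBlocks Q 0 0 R := by
    rw [hW, fromBlocks_conjTranspose, fromBlocks_multiply, fromBlocks_add]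
    simp
  rw [h1]
  exact (posSemidef_conjTranspose_mul_self _).add (posSemidef_fromBlocks hQ hR)

theorem trace_block {m n : Type*} [Fintype m] [Fintype n] (A : Matrix m m ℂ) (B : Matrix m n ℂ)
    (C : Matrix n m ℂ) (D : Matrix n n ℂ) : (fromBlocks A B C D).trace = A.trace + D.trace := by
  simp [trace, Fintype.sum_sum_type]

end G5

open G5 in
theorem b4 {k m n : Type*} [Fintype k] [DecidableEq k] [Fintype m] [DecidableEq m] [Fintype n]
    [DecidableEq n] (A : Matrix k m ℂ) (B : Matrix k n ℂ) {Q : Matrix m m ℂ} {R : Matrix n n ℂ}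
    (hQ : Q.PosSemidef) (hR : R.PosSemidef) {x y q s : ℝ} (hx : 0 < x) (hy : 0 < y) (hq : 0 < q)
    (hs : 0 < s) (hxA : (Aᴴ * A).trace.re = x) (hyB : (Bᴴ * B).trace.re = y)
    (hqQ : Q.trace.re = q) (hsR : R.trace.re = s) :
    eta (Aᴴ * A) + eta (Bᴴ * B) + eta Q + eta R +
        (ent2 (x + q + y + s) ((x + q) * (y + s) - x * y) - Real.negMulLog x - Real.negMulLog y
          - Real.negMulLog q - Real.negMulLog s) ≤
      eta (fromBlocks (Aᴴ * A + Q) (Aᴴ * B) (Bᴴ * A) (Bᴴ * B + R)) := by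
  have hA : (Aᴴ * A).PosSemidef := posSemidef_conjTranspose_mul_self A
  have hB : (Bᴴ * B).PosSemidef := posSemidef_conjTranspose_mul_self B
  have hM := block_posSemidef A B hQ hR
  obtain ⟨μ₁, μ₂, hμ₁, hμ₂, hsum, hprod⟩ : ∃ μ₁ μ₂ : ℝ, 0 ≤ μ₁ ∧ 0 ≤ μ₂ ∧
      μ₁ + μ₂ = x + q + y + s ∧ μ₁ * μ₂ = (x + q) * (y + s) - x * y := by
    have ht : 0 ≤ x + q + y + s := by positivity
    have hD : 0 ≤ (x + q) * (y + s) - x * y := by
      have : (x + q) * (y + s) - x * y = x * s + q * y + q * s := by ring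
      rw [this]
      positivity
    have h4 : 4 * ((x + q) * (y + s) - x * y) ≤ (x + q + y + s) ^ 2 := by
      have : 0 ≤ x * y := by positivity
      nlinarith [sq_nonneg ((x + q) - (y + s))]
    exact ⟨_, _, Scalar.mup_nonneg ht, Scalar.mum_nonneg ht hD, Scalar.mu_sum _ _,
      Scalar.mu_prod h4⟩
  obtain ⟨e, he⟩ : ∃ e : (m ⊕ n) ⊕ (m ⊕ n ⊕ m ⊕ n) ⊕ Fin 2 ⊕ Fin 4 → ℝ,
    e = Sum.elim (fun _ => 1) (Sum.elim (fun _ => -1) (Sum.elim (fun _ => -1) (fun _ => 1))) :=
    ⟨_, rfl⟩
  obtain ⟨l, hl⟩ : ∃ l : (m ⊕ n) ⊕ (m ⊕ n ⊕ m ⊕ n) ⊕ Fin 2 ⊕ Fin 4 → ℝ,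
    l = Sum.elim hM.isHermitian.eigenvalues
      (Sum.elim (Sum.elim hA.isHermitian.eigenvalues (Sum.elim hB.isHermitian.eigenvalues
        (Sum.elim hQ.isHermitian.eigenvalues hR.isHermitian.eigenvalues)))
      (Sum.elim ![μ₁, μ₂] ![x, y, q, s])) := ⟨_, rfl⟩
  have hexp : ∀ φ : ℝ → ℝ, ∑ j, e j * φ (l j) =
      ∑ i, φ (hM.isHermitian.eigenvalues i) - ∑ i, φ (hA.isHermitian.eigenvalues i)
        - ∑ i, φ (hB.isHermitian.eigenvalues i) - ∑ i, φ (hQ.isHermitian.eigenvalues i)
        - ∑ i, φ (hR.isHermitian.eigenvalues i) - φ μ₁ - φ μ₂ + φ x + φ y + φ q + φ s := by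
    intro φ
    rw [he, hl]
    simp only [Fintype.sum_sum_type, Sum.elim_inl, Sum.elim_inr, Fin.sum_univ_two,
      Fin.sum_univ_four, one_mul, neg_mul, Finset.sum_neg_distrib, Matrix.cons_val_zero,
      Matrix.cons_val_one, Matrix.cons_val]
    ring
  have hl0 : ∀ j, 0 ≤ l j := by
    rw [hl]
    rintro ((j | j) | ((j | j | j | j) | j | j))
    · exact hM.eigenvalues_nonneg _
    · exact hM.eigenvalues_nonneg _
    · exact hA.eigenvalues_nonneg _
    · exact hB.eigenvalues_nonneg _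
    · exact hQ.eigenvalues_nonneg _
    · exact hR.eigenvalues_nonneg _
    · fin_cases j
      · exact hμ₁
      · exact hμ₂
    · fin_cases j
      · exact hx.le
      · exact hy.le
      · exact hq.le
      · exact hs.le
  have hρx : ∑ j, hA.isHermitian.eigenvalues j = x := by
    rw [← hxA, trace_re_eq hA.isHermitian]
  have hσy : ∑ j, hB.isHermitian.eigenvalues j = y := by
    rw [← hyB, trace_re_eq hB.isHermitian]
  have hQq : ∑ j, hQ.isHermitian.eigenvalues j = q := by
    rw [← hqQ, trace_re_eq hQ.isHermitian]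
  have hRs : ∑ j, hR.isHermitian.eigenvalues j = s := by
    rw [← hsR, trace_re_eq hR.isHermitian]
  have hMt : ∑ j, hM.isHermitian.eigenvalues j = x + q + y + s := by
    rw [← trace_re_eq hM.isHermitian, trace_block, trace_add, trace_add, Complex.add_re,
      Complex.add_re, Complex.add_re, hxA, hyB, hqQ, hsR]
    ring
  have h0 : ∑ j, e j * l j = 0 := by
    have h1 := hexp id
    simp only [id] at h1
    rw [h1, hρx, hσy, hQq, hRs, hMt]
    linarith
  have hmain := balanced_int e l hl0 h0 (by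
    intro ε hε
    obtain ⟨F, G, hF, hG, hFG, hcurve⟩ := exists_pot hx hy hq hs
    -- one-sided lemma for `F`
    obtain ⟨R₁, hR₁, H₁⟩ := one_sided (k := k) (m := m) hx hq hq.le hF
      hA.isHermitian.eigenvalues hA.eigenvalues_nonneg hρx
      (fun κ => (gram_sub_isHermitian A hQ κ).eigenvalues)
      (fun κ _ => by rw [gram_sub_sum A hQ κ, hxA, hqQ])
      (fun κ hκ j => by
        have := gram_sub_le A hQ hκ j
        rwa [hxA] at this)
      (fun r i => if h : 0 < r then (resK_posSemidef A hQ h).isHermitian.eigenvalues i else 0)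
      (fun r hr i => by
        simp only [hr, dif_pos]
        exact (resK_posSemidef A hQ hr).eigenvalues_nonneg i)
      (fun r hr κ hκ => by
        simp only [hr, dif_pos]
        exact count_one A hQ hr hκ)
      (fun r hr κ hκ => by
        simp only [hr, dif_pos]
        have := count_two A hQ hr hκ
        rwa [hqQ] at this)
      (show 0 < ε / 4 by linarith)
    obtain ⟨R₂, hR₂, H₂⟩ := one_sided (k := k) (m := n) hy hs hs.le hG
      hB.isHermitian.eigenvalues hB.eigenvalues_nonneg hσy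
      (fun κ => (gram_sub_isHermitian B hR κ).eigenvalues)
      (fun κ _ => by rw [gram_sub_sum B hR κ, hyB, hsR])
      (fun κ hκ j => by
        have := gram_sub_le B hR hκ j
        rwa [hyB] at this)
      (fun r i => if h : 0 < r then (resK_posSemidef B hR h).isHermitian.eigenvalues i else 0)
      (fun r hr i => by
        simp only [hr, dif_pos]
        exact (resK_posSemidef B hR hr).eigenvalues_nonneg i)
      (fun r hr κ hκ => by
        simp only [hr, dif_pos]
        exact count_one B hR hr hκ)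
      (fun r hr κ hκ => by
        simp only [hr, dif_pos]
        have := count_two B hR hr hκ
        rwa [hsR] at this)
      (show 0 < ε / 4 by linarith)
    obtain ⟨R₃, hR₃, H₃⟩ := integral_diff hA.isHermitian.eigenvalues hA.eigenvalues_nonneg hx.le
      hρx (show 0 < ε / 4 by linarith)
    obtain ⟨R₄, hR₄, H₄⟩ := integral_diff hB.isHermitian.eigenvalues hB.eigenvalues_nonneg hy.le
      hσy (show 0 < ε / 4 by linarith)
    refine ⟨max (max R₁ R₂) (max R₃ R₄), lt_of_lt_of_le hR₁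
      ((le_max_left _ _).trans (le_max_left _ _)), fun T hT => ?_⟩
    have hT1 : R₁ ≤ T := ((le_max_left _ _).trans (le_max_left _ _)).trans hT
    have hT2 : R₂ ≤ T := ((le_max_right _ _).trans (le_max_left _ _)).trans hT
    have hT3 : R₃ ≤ T := ((le_max_left _ _).trans (le_max_right _ _)).trans hT
    have hT4 : R₄ ≤ T := ((le_max_right _ _).trans (le_max_right _ _)).trans hT
    have hT0 : 0 ≤ T := hR₁.le.trans hT1
    obtain ⟨f, hf1, hf2, hf3⟩ := H₁ T hT1
    obtain ⟨g, hg1, hg2, hg3⟩ := H₂ T hT2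
    obtain ⟨hd1, hd2⟩ := H₃ T hT3
    obtain ⟨hd3, hd4⟩ := H₄ T hT4
    have hFi := Pot_integrable hF hx hq hT0
    have hGi := Pot_integrable hG hy hs hT0
    have hle : ∫ r in (0 : ℝ)..T, ((f r - F (x / (r + q))
        - (∑ i, Real.log (1 + hA.isHermitian.eigenvalues i / r) - Real.log (1 + x / r)))
        + (g r - G (y / (r + s))
        - (∑ i, Real.log (1 + hB.isHermitian.eigenvalues i / r) - Real.log (1 + y / r)))) ≤
        ∫ r in (0 : ℝ)..T, ∑ i, e i * Real.log (1 + l i / r) := by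
      apply intervalIntegral.integral_mono_on_of_le_Ioo hT0
        (((hf1.sub hFi).sub hd1).add ((hg1.sub hGi).sub hd3)) (intervalIntegrable_sum e l hl0 hT0)
      intro r hr
      have hr0 : 0 < r := hr.1
      have h1 := hf2 r hr.1 hr.2
      have h2 := hg2 r hr.1 hr.2
      simp only [hr0, dif_pos] at h1 h2
      have h3 := ld_lower A B hQ hR
        (fun k hk => by
          obtain ⟨g, _, _, h⟩ := hF.supp k hk
          exact ⟨g, h⟩)
        (fun k hk => by
          obtain ⟨g, _, _, h⟩ := hG.supp k hk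
          exact ⟨g, h⟩) hFG hr0
      rw [ld_eq hM hr0, ld_eq hQ hr0, ld_eq hR hr0] at h3
      have h4 := hcurve r hr0
      have h5 : Real.log (1 + x / (r + q) + y / (r + s)) = Real.log (1 + μ₁ / r)
          + Real.log (1 + μ₂ / r) - Real.log (1 + q / r) - Real.log (1 + s / r) := by
        have e1 : 0 < 1 + μ₁ / r := by positivity
        have e2 : 0 < 1 + μ₂ / r := by positivity
        have e3 : 0 < 1 + q / r := by positivity
        have e4 : 0 < 1 + s / r := by positivity
        rw [← Real.log_mul e1.ne' e2.ne', ← Real.log_div (by positivity) e3.ne',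
          ← Real.log_div (by positivity) e4.ne']
        congr 1
        have e5 : (1 + μ₁ / r) * (1 + μ₂ / r) =
            1 + (x + q + y + s) / r + ((x + q) * (y + s) - x * y) / r ^ 2 := by
          rw [← hsum, ← hprod]
          field_simp
          ring
        rw [e5]
        field_simp
        ring
      rw [hexp fun z => Real.log (1 + z / r)]
      linarith
    rw [intervalIntegral.integral_add ((hf1.sub hFi).sub hd1) ((hg1.sub hGi).sub hd3),
      intervalIntegral.integral_sub (hf1.sub hFi) hd1, intervalIntegral.integral_sub hf1 hFi,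
      intervalIntegral.integral_sub (hg1.sub hGi) hd3, intervalIntegral.integral_sub hg1 hGi]
      at hle
    linarith)
  rw [hexp Real.negMulLog] at hmain
  rw [eta_eq hA.isHermitian, eta_eq hB.isHermitian, eta_eq hQ.isHermitian, eta_eq hR.isHermitian,
    eta_eq hM.isHermitian, ← hsum, ← hprod, ent2_eq]
  linarith

end Vale.Agent.Lib.P358
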