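import Vale.Agent.Lib.P358.G5
import Vale.Agent.Lib.P358.Tensor

/-!
# P358, general parameters, module G6: the key inequality for all parameters
-/

namespace Vale.Agent.Lib.P358

open Matrix Vale.Agent.AmplitudeDamping
open scoped ComplexOrder

namespace G6

theorem eta_superadd {m : Type} [Fintype m] [DecidableEq m] {X Z : Matrix m m ℂ}
    (hX : X.PosSemidef) (hZ : Z.PosSemidef) :
    eta X + eta Z + (Real.negMulLog (X.trace.re + Z.trace.re) - Real.negMulLog X.trace.re
      - Real.negMulLog Z.trace.re) ≤ eta (X + Z) := by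
  have h1 : (fromBlocks X 0 0ᴴ Z).PosSemidef := by
    rw [conjTranspose_zero]
    exact posSemidef_fromBlocks hX hZ
  have k := keyIneq_zero (γ := 1) ⟨zero_le_one, le_rfl⟩ m X 0 Z h1
  have e1 : gadBlock 1 0 X 0 0ᴴ Z = fromBlocks (X + Z) 0 0 0 := by
    rw [gadBlock_zero]
    simp
  have heta0 : eta (0 : Matrix m m ℂ) = 0 := by
    have := eta_smul (PosSemidef.zero : (0 : Matrix m m ℂ).PosSemidef) (le_refl (0 : ℝ))
    simpa using this
  rw [e1, eta_fromBlocks (hX.add hZ) PosSemidef.zero, heta0, add_zero] at k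
  have e2 : dd 1 0 X.trace.re Z.trace.re = 0 := by unfold dd; ring
  have e3 : 0 ≤ X.trace.re + Z.trace.re := by
    have h2 := (Complex.le_def.1 hX.trace_nonneg).1
    have h3 := (Complex.le_def.1 hZ.trace_nonneg).1
    simp only [Complex.zero_re] at h2 h3
    linarith
  have e4 : ent2 (X.trace.re + Z.trace.re) 0 = Real.negMulLog (X.trace.re + Z.trace.re) := by
    have := ent2_eq (X.trace.re + Z.trace.re) 0
    rw [add_zero, mul_zero, Real.negMulLog_zero, add_zero] at this
    exact this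
  rw [e2, e4] at k
  linarith

/-- `eta (c X) - η (c x) = c (eta X - η x)` -/
theorem eta_smul' {m : Type*} [Fintype m] [DecidableEq m] {X : Matrix m m ℂ}
    (hX : X.PosSemidef) {c : ℝ} (hc : 0 ≤ c) :
    eta ((c : ℂ) • X) - Real.negMulLog (c * X.trace.re) =
      c * (eta X - Real.negMulLog X.trace.re) := by
  rw [eta_smul hX hc, Real.negMulLog_mul]
  ring

theorem psd_smul {m : Type*} [Fintype m] {X : Matrix m m ℂ} (hX : X.PosSemidef) {c : ℝ}
    (hc : 0 ≤ c) : ((c : ℂ) • X).PosSemidef := by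
  have := hX.smul hc
  rwa [Complex.coe_smul]

theorem trace_smul' {m : Type*} [Fintype m] (X : Matrix m m ℂ) (c : ℝ) :
    ((c : ℂ) • X).trace.re = c * X.trace.re := by
  rw [trace_smul, smul_eq_mul, Complex.re_ofReal_mul]

theorem trace_re_nonneg {m : Type*} [Fintype m] {X : Matrix m m ℂ} (hX : X.PosSemidef) :
    0 ≤ X.trace.re := by
  have h2 := (Complex.le_def.1 hX.trace_nonneg).1
  simpa using h2

/-- block diagonal case: `fromBlocks (c X) 0 0 ((1 - c) X)` -/
theorem eta_split {m : Type*} [Fintype m] [DecidableEq m] {X : Matrix m m ℂ}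
    (hX : X.PosSemidef) {c : ℝ} (hc : 0 ≤ c) (hc1 : c ≤ 1) :
    eta (fromBlocks ((c : ℂ) • X) 0 0 (((1 - c : ℝ) : ℂ) • X)) =
      eta X + ent2 X.trace.re (c * (1 - c) * X.trace.re ^ 2) - Real.negMulLog X.trace.re := by
  have h1 : 0 ≤ 1 - c := by linarith
  rw [eta_fromBlocks (psd_smul hX hc) (psd_smul hX h1), eta_smul hX hc, eta_smul hX h1]
  have e : ent2 X.trace.re (c * (1 - c) * X.trace.re ^ 2) =
      Real.negMulLog (c * X.trace.re) + Real.negMulLog ((1 - c) * X.trace.re) := by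
    have := ent2_eq (c * X.trace.re) ((1 - c) * X.trace.re)
    rw [← this]
    congr 1 <;> ring
  rw [e, Real.negMulLog_mul, Real.negMulLog_mul]
  ring

theorem keyIneq_gen {γ ν : ℝ} (hγ0 : 0 < γ) (hγ1 : γ < 1) (hν0 : 0 < ν) (hν1 : ν < 1) :
    KeyIneq γ ν := by
  intro m _ _ X Y Z h
  have hX : X.PosSemidef := h.submatrix (Sum.inl : m → m ⊕ m)
  have hZ : Z.PosSemidef := h.submatrix (Sum.inr : m → m ⊕ m)
  have hx0 := trace_re_nonneg hX
  have hz0 := trace_re_nonneg hZ
  obtain ⟨W, hW⟩ := exists_factor h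
  set V0 : Matrix (m ⊕ m) m ℂ := W.submatrix id Sum.inl with hV0
  set V1 : Matrix (m ⊕ m) m ℂ := W.submatrix id Sum.inr with hV1
  have e00 : V0ᴴ * V0 = X := by
    ext i j
    have := congrFun (congrFun hW (Sum.inl i)) (Sum.inl j)
    rw [fromBlocks_apply₁₁] at this
    rw [this]
    rfl
  have e01 : V0ᴴ * V1 = Y := by
    ext i j
    have := congrFun (congrFun hW (Sum.inl i)) (Sum.inr j)
    rw [fromBlocks_apply₁₂] at this
    rw [this]
    rfl
  have e10 : V1ᴴ * V0 = Yᴴ := by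
    rw [← e01, conjTranspose_mul, conjTranspose_conjTranspose]
  have e11 : V1ᴴ * V1 = Z := by
    ext i j
    have := congrFun (congrFun hW (Sum.inr i)) (Sum.inr j)
    rw [fromBlocks_apply₂₂] at this
    rw [this]
    rfl
  have heta0 : eta (0 : Matrix m m ℂ) = 0 := by
    have := eta_smul (PosSemidef.zero : (0 : Matrix m m ℂ).PosSemidef) (le_refl (0 : ℝ))
    simpa using this
  have hβ0 : 0 < γ * (1 - ν) := mul_pos hγ0 (by linarith)
  have hβ1 : γ * (1 - ν) < 1 := by nlinarith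
  have hα0 : 0 < 1 - γ * ν := by nlinarith
  rcases eq_or_lt_of_le hx0 with hx | hx
  · -- `X = 0`
    have hX0 : X = 0 := by
      have h1 : X.trace = 0 := by
        apply Complex.ext
        · simpa using hx.symm
        · have := (Complex.le_def.1 hX.trace_nonneg).2
          simpa using this.symm
      exact hX.trace_eq_zero_iff.1 h1
    have hV00 : V0 = 0 := by
      rw [← e00] at hX0
      exact conjTranspose_mul_self_eq_zero.1 hX0
    have hY0 : Y = 0 := by rw [← e01, hV00]; simp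
    have e : gadBlock γ ν X Y Yᴴ Z = fromBlocks (((γ * (1 - ν) : ℝ) : ℂ) • Z) 0 0
        (((1 - γ * (1 - ν) : ℝ) : ℂ) • Z) := by
      unfold gadBlock
      rw [hX0, hY0]
      simp
    have hdd : dd γ ν 0 Z.trace.re =
        γ * (1 - ν) * (1 - γ * (1 - ν)) * Z.trace.re ^ 2 := by unfold dd; ring
    rw [e, eta_split hZ hβ0.le hβ1.le, hX0, heta0, trace_zero, Complex.zero_re, zero_add, zero_add,
      hdd, Real.negMulLog_zero]
    linarith
  rcases eq_or_lt_of_le hz0 with hz | hz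
  · -- `Z = 0`
    have hZ0 : Z = 0 := by
      have h1 : Z.trace = 0 := by
        apply Complex.ext
        · simpa using hz.symm
        · have := (Complex.le_def.1 hZ.trace_nonneg).2
          simpa using this.symm
      exact hZ.trace_eq_zero_iff.1 h1
    have hV10 : V1 = 0 := by
      rw [← e11] at hZ0
      exact conjTranspose_mul_self_eq_zero.1 hZ0
    have hY0 : Y = 0 := by rw [← e01, hV10]; simp
    have e : gadBlock γ ν X Y Yᴴ Z = fromBlocks (((1 - γ * ν : ℝ) : ℂ) • X) 0 0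
        (((1 - (1 - γ * ν) : ℝ) : ℂ) • X) := by
      unfold gadBlock
      rw [hZ0, hY0]
      simp
    have hdd : dd γ ν X.trace.re 0 =
        (1 - γ * ν) * (1 - (1 - γ * ν)) * X.trace.re ^ 2 := by unfold dd; ring
    rw [e, eta_split hX hα0.le (by nlinarith), hZ0, heta0, trace_zero, Complex.zero_re, add_zero,
      add_zero, hdd, Real.negMulLog_zero]
    linarith
  -- main case
  set α : ℝ := 1 - γ * ν with hα
  set β : ℝ := γ * (1 - ν) with hβ
  set c : ℝ := Real.sqrt (1 - γ) with hc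
  have hcc : c * c = 1 - γ := Real.mul_self_sqrt (by linarith)
  have hc0 : 0 < c := Real.sqrt_pos.2 (by linarith)
  set a : ℝ := Real.sqrt α with ha
  have haa : a * a = α := Real.mul_self_sqrt hα0.le
  have ha0 : 0 < a := Real.sqrt_pos.2 hα0
  set b : ℝ := c / a with hb
  have hbb : b * b = (1 - γ) / α := by
    rw [hb, div_mul_div_comm, hcc, haa]
  have hab : a * b = c := by rw [hb]; field_simp
  have hb2 : 0 < (1 - γ) / α := div_pos (by linarith) hα0
  set d : ℝ := 1 - β - (1 - γ) / α with hd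
  have hd0 : 0 ≤ d := by
    have e : d = γ ^ 2 * (ν * (1 - ν)) / α := by
      have e1 : (1 - β) * α - (1 - γ) = γ ^ 2 * (ν * (1 - ν)) := by rw [hβ, hα]; ring
      rw [← e1, hd]
      field_simp
    rw [e]
    have : 0 < 1 - ν := by linarith
    positivity
  have hγν : 0 < γ * ν := mul_pos hγ0 hν0
  have hQ := psd_smul hZ hβ0.le
  have hR1 := psd_smul hX hγν.le
  have hR2 := psd_smul hZ hd0
  have smul_mul' : ∀ {p q r : Type _} [Fintype q] (u v : ℝ) (P : Matrix q p ℂ)
      (S : Matrix q r ℂ), ((u : ℂ) • P)ᴴ * ((v : ℂ) • S) = ((u * v : ℝ) : ℂ) • (Pᴴ * S) := by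
    intro p q r _ u v P S
    rw [conjTranspose_smul, Matrix.smul_mul, Matrix.mul_smul, smul_smul, Complex.star_def,
      Complex.conj_ofReal, Complex.ofReal_mul]
  have hAA : ((a : ℂ) • V0)ᴴ * ((a : ℂ) • V0) = (α : ℂ) • X := by rw [smul_mul', haa, e00]
  have hAB : ((a : ℂ) • V0)ᴴ * ((b : ℂ) • V1) = (c : ℂ) • Y := by rw [smul_mul', hab, e01]
  have hBA : ((b : ℂ) • V1)ᴴ * ((a : ℂ) • V0) = (c : ℂ) • Yᴴ := by
    rw [smul_mul', mul_comm b a, hab, e10]
  have hBB : ((b : ℂ) • V1)ᴴ * ((b : ℂ) • V1) = (((1 - γ) / α : ℝ) : ℂ) • Z := by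
    rw [smul_mul', hbb, e11]
  have key := b4 ((a : ℂ) • V0) ((b : ℂ) • V1) hQ (hR1.add hR2)
    (x := α * X.trace.re) (y := (1 - γ) / α * Z.trace.re) (q := β * Z.trace.re)
    (s := γ * ν * X.trace.re + d * Z.trace.re) (mul_pos hα0 hx) (mul_pos hb2 hz)
    (mul_pos hβ0 hz) (by positivity) (by rw [hAA, trace_smul']) (by rw [hBB, trace_smul'])
    (trace_smul' _ _) (by rw [trace_add, Complex.add_re, trace_smul', trace_smul'])
  rw [hAA, hAB, hBA, hBB] at key
  have eM : fromBlocks ((α : ℂ) • X + (β : ℂ) • Z) ((c : ℂ) • Y) ((c : ℂ) • Yᴴ)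
      ((((1 - γ) / α : ℝ) : ℂ) • Z + (((γ * ν : ℝ) : ℂ) • X + (d : ℂ) • Z)) =
      gadBlock γ ν X Y Yᴴ Z := by
    unfold gadBlock
    have e1 : (((1 - γ) / α : ℝ) : ℂ) • Z + (((γ * ν : ℝ) : ℂ) • X + (d : ℂ) • Z) =
        ((γ * ν : ℝ) : ℂ) • X + ((1 - γ * (1 - ν) : ℝ) : ℂ) • Z := by
      have e2 : ((1 - γ * (1 - ν) : ℝ) : ℂ) = (((1 - γ) / α : ℝ) : ℂ) + (d : ℂ) := by
        rw [← Complex.ofReal_add]
        congr 1
        rw [hd, hβ]
        ring
      rw [e2, add_smul]
      abel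
    rw [e1]
  rw [eM] at key
  have t1 : α * X.trace.re + β * Z.trace.re + (1 - γ) / α * Z.trace.re +
      (γ * ν * X.trace.re + d * Z.trace.re) = X.trace.re + Z.trace.re := by
    rw [hd, hα, hβ]; ring
  have t2 : (α * X.trace.re + β * Z.trace.re) * ((1 - γ) / α * Z.trace.re +
      (γ * ν * X.trace.re + d * Z.trace.re)) - α * X.trace.re * ((1 - γ) / α * Z.trace.re) =
      dd γ ν X.trace.re Z.trace.re := by
    have e1 : (1 - γ) / α * Z.trace.re + (γ * ν * X.trace.re + d * Z.trace.re) =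
        γ * ν * X.trace.re + (1 - β) * Z.trace.re := by rw [hd]; ring
    have e2 : α * X.trace.re * ((1 - γ) / α * Z.trace.re) = (1 - γ) * X.trace.re * Z.trace.re := by
      field_simp
    rw [e1, e2, hα, hβ]
    unfold dd
    ring
  rw [t1, t2] at key
  have s1 := eta_smul' hX hα0.le
  have s2 := eta_smul' hZ hb2.le
  have s3 := eta_smul' hZ hβ0.le
  have s4 := eta_smul' hX hγν.le
  have s5 := eta_smul' hZ hd0
  have s6 := eta_superadd hR1 hR2
  rw [trace_smul', trace_smul'] at s6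
  have hsum : α * (eta X - Real.negMulLog X.trace.re)
      + γ * ν * (eta X - Real.negMulLog X.trace.re)
      + ((1 - γ) / α * (eta Z - Real.negMulLog Z.trace.re)
      + β * (eta Z - Real.negMulLog Z.trace.re) + d * (eta Z - Real.negMulLog Z.trace.re)) =
      (eta X - Real.negMulLog X.trace.re) + (eta Z - Real.negMulLog Z.trace.re) := by
    rw [hd, hα]; ring
  linarith

end G6

theorem eta_superadd {m : Type} [Fintype m] [DecidableEq m] {X Z : Matrix m m ℂ}
    (hX : X.PosSemidef) (hZ : Z.PosSemidef) :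
    eta X + eta Z + (Real.negMulLog (X.trace.re + Z.trace.re) - Real.negMulLog X.trace.re
      - Real.negMulLog Z.trace.re) ≤ eta (X + Z) :=
  G6.eta_superadd hX hZ

theorem keyIneq_all {γ ν : ℝ} (hγ : γ ∈ Set.Icc (0 : ℝ) 1) (hν : ν ∈ Set.Icc (0 : ℝ) 1) :
    KeyIneq γ ν := by
  rcases eq_or_lt_of_le hν.1 with h | hν0
  · rw [← h]; exact keyIneq_zero hγ
  rcases eq_or_lt_of_le hν.2 with h | hν1
  · rw [h]; exact keyIneq_one hγ
  rcases eq_or_lt_of_le hγ.1 with h | hγ0
  · -- `γ = 0`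
    intro m _ _ X Y Z hT
    have k := keyIneq_zero (γ := 0) ⟨le_rfl, zero_le_one⟩ m X Y Z hT
    have e1 : gadBlock γ ν X Y Yᴴ Z = gadBlock 0 0 X Y Yᴴ Z := by
      rw [← h]
      unfold gadBlock
      simp
    have e2 : dd γ ν X.trace.re Z.trace.re = dd 0 0 X.trace.re Z.trace.re := by
      rw [← h]; unfold dd; ring
    rw [e1, e2]
    exact k
  rcases eq_or_lt_of_le hγ.2 with h | hγ1
  · -- `γ = 1`
    intro m _ _ X Y Z hT
    have hX : X.PosSemidef := hT.submatrix (Sum.inl : m → m ⊕ m)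
    have hZ : Z.PosSemidef := hT.submatrix (Sum.inr : m → m ⊕ m)
    have e1 : gadBlock γ ν X Y Yᴴ Z = fromBlocks (((1 - ν : ℝ) : ℂ) • (X + Z)) 0 0
        (((1 - (1 - ν) : ℝ) : ℂ) • (X + Z)) := by
      rw [h]
      unfold gadBlock
      simp [smul_add]
    have e2 : dd γ ν X.trace.re Z.trace.re =
        (1 - ν) * (1 - (1 - ν)) * (X + Z).trace.re ^ 2 := by
      rw [h, trace_add, Complex.add_re]; unfold dd; ring
    rw [e1, e2, G6.eta_split (hX.add hZ) (by linarith [hν1]) (by linarith [hν0]), trace_add,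
      Complex.add_re]
    have k := G6.eta_superadd hX hZ
    linarith
  exact G6.keyIneq_gen hγ0 hγ1 hν0 hν1

end Vale.Agent.Lib.P358
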