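import Vale.Agent.Lib.P358.KeyAD

/-!
# P358, general parameters: definitions for the proof of the key inequality for all `γ, ν`
-/

namespace Vale.Agent.Lib.P358

open Matrix
open scoped ComplexOrder

/-- properties of the dual potentials: `F 0 = 0`, at each `k ≥ 0` there is a supporting line with
slope in `[0, 1]` (so `F` is concave, nondecreasing and 1-Lipschitz on `[0, ∞)`), `F` is constant
beyond `x / q`, and `F t ≥ t - C t²`. -/
structure Pot (F : ℝ → ℝ) (x q : ℝ) : Prop where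
  zero : F 0 = 0
  supp : ∀ k, 0 ≤ k → ∃ g, 0 ≤ g ∧ g ≤ 1 ∧ ∀ t, 0 ≤ t → F t ≤ F k + g * (t - k)
  const : ∀ t, x / q ≤ t → F t = F (x / q)
  quad : ∃ C, 0 ≤ C ∧ ∀ t, 0 ≤ t → t - C * t ^ 2 ≤ F t

/-- `A (r + Q)⁻¹ Aᴴ` -/
noncomputable def resK {k m : Type*} [Fintype m] [DecidableEq m] (A : Matrix k m ℂ)
    (Q : Matrix m m ℂ) (r : ℝ) : Matrix k k ℂ :=
  A * ((r : ℂ) • (1 : Matrix m m ℂ) + Q)⁻¹ * Aᴴ

theorem posDef_smul_one_add {m : Type*} [Fintype m] [DecidableEq m] {Q : Matrix m m ℂ}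
    (hQ : Q.PosSemidef) {r : ℝ} (hr : 0 < r) : ((r : ℂ) • (1 : Matrix m m ℂ) + Q).PosDef := by
  have h : ((r : ℂ) • (1 : Matrix m m ℂ)).PosDef := by
    have := (PosDef.one (n := m) (R := ℂ)).smul hr
    rwa [Complex.coe_smul]
  exact h.add_posSemidef hQ

theorem resK_posSemidef {k m : Type*} [Fintype k] [Fintype m] [DecidableEq m] (A : Matrix k m ℂ)
    {Q : Matrix m m ℂ} (hQ : Q.PosSemidef) {r : ℝ} (hr : 0 < r) : (resK A Q r).PosSemidef := by
  have h := (posDef_smul_one_add hQ hr).inv.posSemidef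
  exact h.mul_mul_conjTranspose_same A

theorem gram_sub_isHermitian {k m : Type*} [Fintype k] [Fintype m] (A : Matrix k m ℂ)
    {Q : Matrix m m ℂ} (hQ : Q.PosSemidef) (κ : ℝ) : (Aᴴ * A - (κ : ℂ) • Q).IsHermitian := by
  refine (isHermitian_conjTranspose_mul_self A).sub ?_
  unfold Matrix.IsHermitian
  rw [conjTranspose_smul, hQ.isHermitian.eq]
  simp

end Vale.Agent.Lib.P358
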