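import Vale.Agent.Lib.P358.Basic

/-!
# P358: Hua's determinant inequality and the pinching lemma
-/

namespace Vale.Agent.Lib.P358

open Matrix
open scoped ComplexOrder

section factor

open scoped MatrixOrder Matrix.Norms.L2Operator

theorem exists_factor {n : Type*} [Fintype n] [DecidableEq n] {M : Matrix n n ℂ}
    (hM : M.PosSemidef) : ∃ B : Matrix n n ℂ, M = Bᴴ * B := by
  obtain ⟨B, hB⟩ := CStarAlgebra.nonneg_iff_eq_star_mul_self.mp hM.nonneg
  exact ⟨B, hB⟩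

end factor

/-- `det (1 + c M) = ∏ (1 + c λ_i)` for Hermitian `M` -/
theorem det_one_add_smul {n : Type*} [Fintype n] [DecidableEq n] {R : Matrix n n ℂ}
    (hR : R.IsHermitian) (c : ℂ) :
    (1 + c • R).det = ∏ i, (1 + c * (hR.eigenvalues i : ℂ)) := by
  have h2 : (1 + c • R) = (hR.eigenvectorUnitary : Matrix n n ℂ) *
      (diagonal fun i => (1 + c * (hR.eigenvalues i : ℂ))) *
      (star (hR.eigenvectorUnitary : Matrix n n ℂ)) := by
    have e := hR.spectral_theorem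
    rw [Unitary.conjStarAlgAut_apply] at e
    have e2 : (diagonal fun i => (1 + c * (hR.eigenvalues i : ℂ))) =
        1 + c • diagonal (RCLike.ofReal ∘ hR.eigenvalues) := by
      rw [← diagonal_one, ← diagonal_smul, diagonal_add]
      rfl
    rw [e2, mul_add, add_mul, mul_one]
    nth_rewrite 1 [e]
    rw [Unitary.mul_star_self_of_mem hR.eigenvectorUnitary.2]
    simp only [mul_smul_comm, smul_mul_assoc]
  rw [h2, det_mul_right_comm, det_mul, det_diagonal,
    Unitary.mul_star_self_of_mem hR.eigenvectorUnitary.2, det_one, one_mul]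

theorem one_le_norm_det {n : Type*} [Fintype n] [DecidableEq n] {R : Matrix n n ℂ}
    (hR : R.PosSemidef) : 1 ≤ ‖(1 + R).det‖ := by
  have h3 := det_one_add_smul hR.isHermitian 1
  rw [one_smul] at h3
  rw [h3, norm_prod]
  have : ∀ i, 1 ≤ ‖(1 + 1 * (hR.isHermitian.eigenvalues i : ℂ))‖ := by
    intro i
    have h := hR.eigenvalues_nonneg i
    have e : (1 + 1 * (hR.isHermitian.eigenvalues i : ℂ)) =
        ((1 + hR.isHermitian.eigenvalues i : ℝ) : ℂ) := by push_cast; ring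
    rw [e, Complex.norm_real, Real.norm_of_nonneg (by linarith)]
    linarith
  calc (1 : ℝ) = ∏ _i : n, (1 : ℝ) := by simp
    _ ≤ ∏ i, ‖(1 + 1 * (hR.isHermitian.eigenvalues i : ℂ))‖ :=
      Finset.prod_le_prod (fun _ _ => zero_le_one) fun i _ => this i

theorem norm_det_pos {n : Type*} [Fintype n] [DecidableEq n] {M : Matrix n n ℂ}
    (hM : M.PosDef) : 0 < ‖M.det‖ := by
  have := hM.det_pos
  exact norm_pos_iff.2 this.ne'

/-- monotonicity of the determinant -/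
theorem norm_det_le {n : Type*} [Fintype n] [DecidableEq n] {P Q : Matrix n n ℂ}
    (hP : P.PosDef) (hQ : Q.PosSemidef) : ‖P.det‖ ≤ ‖(P + Q).det‖ := by
  obtain ⟨B, hB⟩ := exists_factor hP.posSemidef
  have hd : IsUnit B.det := by
    have h := norm_det_pos hP
    rw [hB, det_mul] at h
    have : B.det ≠ 0 := by
      intro h0
      rw [h0, mul_zero, norm_zero] at h
      exact lt_irrefl _ h
    exact this.isUnit
  have e : P + Q = Bᴴ * (1 + (B⁻¹)ᴴ * Q * B⁻¹) * B := by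
    rw [mul_add, add_mul, mul_one, ← hB]
    congr 1
    have h1 : B⁻¹ * B = 1 := nonsing_inv_mul B hd
    have h2 : Bᴴ * (B⁻¹)ᴴ = 1 := by rw [← conjTranspose_mul, h1, conjTranspose_one]
    calc Q = 1 * Q * 1 := by rw [one_mul, mul_one]
      _ = (Bᴴ * (B⁻¹)ᴴ) * Q * (B⁻¹ * B) := by rw [h1, h2]
      _ = Bᴴ * ((B⁻¹)ᴴ * Q * B⁻¹) * B := by simp only [mul_assoc]
  have e1 : ‖P.det‖ = ‖B.det‖ * ‖B.det‖ := by
    rw [hB, det_mul, det_conjTranspose, norm_mul, norm_star]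
  have e2 : ‖(P + Q).det‖ = ‖B.det‖ * ‖(1 + (B⁻¹)ᴴ * Q * B⁻¹).det‖ * ‖B.det‖ := by
    rw [e, det_mul, det_mul, det_conjTranspose, norm_mul, norm_mul, norm_star]
  rw [e1, e2]
  have h3 : 1 ≤ ‖(1 + (B⁻¹)ᴴ * Q * B⁻¹).det‖ := one_le_norm_det (hQ.conjTranspose_mul_mul_same _)
  have h4 : 0 ≤ ‖B.det‖ := norm_nonneg _
  nlinarith [mul_nonneg h4 h4]

/-- Hua's inequality -/
theorem hua {n : Type*} [Fintype n] [DecidableEq n] (W : Matrix n n ℂ)
    (hW : (1 - Wᴴ * W).PosDef) : ‖(1 - Wᴴ * W).det‖ ≤ ‖(1 - W * W).det‖ := by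
  have hdet : (1 - W * Wᴴ).det = (1 - Wᴴ * W).det := by
    have := det_one_sub_mul_comm W Wᴴ
    exact this
  have hE : IsUnit (1 - Wᴴ * W).det := hW.det_pos.ne'.isUnit
  have hF : IsUnit (1 - W * Wᴴ).det := by rw [hdet]; exact hE
  set E := (1 - Wᴴ * W)⁻¹ with hEd
  set F := (1 - W * Wᴴ)⁻¹ with hFd
  have hE1 : (1 - Wᴴ * W) * E = 1 := mul_nonsing_inv _ hE
  have hE2 : E * (1 - Wᴴ * W) = 1 := nonsing_inv_mul _ hE
  have hF1 : (1 - W * Wᴴ) * F = 1 := mul_nonsing_inv _ hF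
  have hF2 : F * (1 - W * Wᴴ) = 1 := nonsing_inv_mul _ hF
  have hFW : F * W = W * E := by
    have h : (1 - W * Wᴴ) * W = W * (1 - Wᴴ * W) := by noncomm_ring
    calc F * W = F * W * ((1 - Wᴴ * W) * E) := by rw [hE1, mul_one]
      _ = F * (W * (1 - Wᴴ * W)) * E := by simp only [mul_assoc]
      _ = F * ((1 - W * Wᴴ) * W) * E := by rw [h]
      _ = (F * (1 - W * Wᴴ)) * W * E := by simp only [mul_assoc]
      _ = W * E := by rw [hF2, one_mul]
  have hWF : Wᴴ * F = E * Wᴴ := by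
    have h : Wᴴ * (1 - W * Wᴴ) = (1 - Wᴴ * W) * Wᴴ := by noncomm_ring
    calc Wᴴ * F = (E * (1 - Wᴴ * W)) * Wᴴ * F := by rw [hE2, one_mul]
      _ = E * ((1 - Wᴴ * W) * Wᴴ) * F := by simp only [mul_assoc]
      _ = E * (Wᴴ * (1 - W * Wᴴ)) * F := by rw [h]
      _ = E * Wᴴ * ((1 - W * Wᴴ) * F) := by simp only [mul_assoc]
      _ = E * Wᴴ := by rw [hF1, mul_one]
  have hFe : F = 1 + W * E * Wᴴ := by
    have : F - F * (W * Wᴴ) = 1 := by rw [← hF2]; noncomm_ring
    calc F = 1 + F * (W * Wᴴ) := by rw [← this]; abel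
      _ = 1 + (F * W) * Wᴴ := by simp only [mul_assoc]
      _ = _ := by rw [hFW]
  have hEe : E = 1 + Wᴴ * F * W := by
    have : E - (Wᴴ * W) * E = 1 := by rw [← hE1]; noncomm_ring
    calc E = 1 + (Wᴴ * W) * E := by rw [← this]; abel
      _ = 1 + Wᴴ * (W * E) := by simp only [mul_assoc]
      _ = 1 + Wᴴ * (F * W) := by rw [hFW]
      _ = _ := by simp only [mul_assoc]
  have key : (1 - Wᴴ * Wᴴ) * F * (1 - W * W) =
      (1 - Wᴴ * W) + (W - Wᴴ) * E * (Wᴴ - W) := by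
    have a1 : Wᴴ * Wᴴ * F = Wᴴ * E * Wᴴ := by rw [mul_assoc, hWF, mul_assoc]
    have a2 : F * (W * W) = W * E * W := by rw [← mul_assoc, hFW]
    have a3 : Wᴴ * Wᴴ * F * (W * W) = Wᴴ * E * W - Wᴴ * W := by
      calc Wᴴ * Wᴴ * F * (W * W) = Wᴴ * (Wᴴ * F * W) * W := by simp only [mul_assoc]
        _ = Wᴴ * (E - 1) * W := by rw [hEe]; noncomm_ring
        _ = _ := by noncomm_ring
    calc (1 - Wᴴ * Wᴴ) * F * (1 - W * W)
        = F - F * (W * W) - Wᴴ * Wᴴ * F + Wᴴ * Wᴴ * F * (W * W) := by noncomm_ring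
      _ = (1 + W * E * Wᴴ) - W * E * W - Wᴴ * E * Wᴴ + (Wᴴ * E * W - Wᴴ * W) := by
          rw [a3, a1, a2, ← hFe]
      _ = _ := by noncomm_ring
  have hEpd : E.PosDef := hW.inv
  have hps : ((W - Wᴴ) * E * (Wᴴ - W)).PosSemidef := by
    have h := hEpd.posSemidef.mul_mul_conjTranspose_same (W - Wᴴ)
    rwa [conjTranspose_sub, conjTranspose_conjTranspose] at h
  have h1 := norm_det_le hW hps
  rw [← key, det_mul, det_mul] at h1
  have h2 : (1 - Wᴴ * Wᴴ) = (1 - W * W)ᴴ := by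
    rw [conjTranspose_sub, conjTranspose_one, conjTranspose_mul]
  rw [h2, det_conjTranspose, norm_mul, norm_mul, norm_star] at h1
  have hFn : ‖F.det‖ * ‖(1 - Wᴴ * W).det‖ = 1 := by
    rw [← norm_mul, ← hdet, ← det_mul, hF2, det_one, norm_one]
  have hp := norm_det_pos hW
  have hF0 : 0 < ‖F.det‖ := by
    by_contra hcon
    have h0 : ‖F.det‖ = 0 := le_antisymm (not_lt.1 hcon) (norm_nonneg _)
    rw [h0, zero_mul] at hFn
    exact zero_ne_one hFn
  have hq : 0 ≤ ‖(1 - W * W).det‖ := norm_nonneg _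
  -- d ≤ q * f * q, f * d = 1, so d² ≤ q²
  have h5 : ‖(1 - Wᴴ * W).det‖ ^ 2 ≤ ‖(1 - W * W).det‖ ^ 2 := by
    calc ‖(1 - Wᴴ * W).det‖ ^ 2 = ‖(1 - Wᴴ * W).det‖ * ‖(1 - Wᴴ * W).det‖ := by ring
      _ ≤ (‖(1 - W * W).det‖ * ‖F.det‖ * ‖(1 - W * W).det‖) * ‖(1 - Wᴴ * W).det‖ :=
          mul_le_mul_of_nonneg_right h1 hp.le
      _ = ‖(1 - W * W).det‖ ^ 2 * (‖F.det‖ * ‖(1 - Wᴴ * W).det‖) := by ring
      _ = _ := by rw [hFn, mul_one]
  exact (pow_le_pow_iff_left₀ hp.le hq (by norm_num)).1 h5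

theorem posDef_of_unit {n : Type*} [Fintype n] [DecidableEq n] {P B : Matrix n n ℂ}
    (hP : P.PosDef) (hB : IsUnit B.det) : (Bᴴ * P * B).PosDef := by
  have hu : IsUnit B := (isUnit_iff_isUnit_det B).2 hB
  exact (IsUnit.posDef_star_left_conjugate_iff hu).2 hP

theorem midpoint_one {n : Type*} [Fintype n] [DecidableEq n] (H K : Matrix n n ℂ)
    (hH : Hᴴ = H) (hM1 : (1 + H).PosDef) (hM2 : (1 - H).PosDef) (hK : Kᴴ = -K) :
    ‖(1 + K).det‖ ^ 2 * (‖(1 + H).det‖ * ‖(1 - H).det‖) ≤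
      ‖(1 + H + K).det‖ * ‖(1 - H + K).det‖ := by
  have hKd : IsUnit (1 + K).det := by
    have h1 : ((1 + K)ᴴ * (1 + K)) = 1 + Kᴴ * K := by
      rw [conjTranspose_add, conjTranspose_one, hK]; noncomm_ring
    have h2 : (1 + Kᴴ * K).PosDef :=
      PosDef.one.add_posSemidef (posSemidef_conjTranspose_mul_self K)
    have h3 := h2.det_pos.ne'
    rw [← h1, det_mul] at h3
    exact (right_ne_zero_of_mul h3).isUnit
  set U := (1 + K)⁻¹ with hU
  have hU1 : (1 + K) * U = 1 := mul_nonsing_inv _ hKd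
  have hU2 : U * (1 + K) = 1 := nonsing_inv_mul _ hKd
  set W := U * H with hWd
  have e1 : 1 + H + K = (1 + K) * (1 + W) := by
    have : (1 + K) * W = H := by rw [hWd, ← mul_assoc, hU1, one_mul]
    rw [mul_add, this, mul_one]; abel
  have e2 : 1 - H + K = (1 + K) * (1 - W) := by
    have : (1 + K) * W = H := by rw [hWd, ← mul_assoc, hU1, one_mul]
    rw [mul_sub, this, mul_one]; abel
  have e3 : (1 + W) * (1 - W) = 1 - W * W := by noncomm_ring
  have e4 : (1 + H) * (1 - H) = 1 - H * H := by noncomm_ring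
  have hWW : 1 - Wᴴ * W = (1 - H * H) + (K * W)ᴴ * (K * W) := by
    have h1 : Uᴴ * (1 + K)ᴴ = 1 := by rw [← conjTranspose_mul, hU1, conjTranspose_one]
    have h2 : (1 + K)ᴴ * (1 + K) = 1 + Kᴴ * K := by
      rw [conjTranspose_add, conjTranspose_one, hK]; noncomm_ring
    have h3 : Uᴴ * U + Uᴴ * (Kᴴ * K) * U = 1 := by
      calc Uᴴ * U + Uᴴ * (Kᴴ * K) * U = Uᴴ * (1 + Kᴴ * K) * U := by noncomm_ring
        _ = (Uᴴ * (1 + K)ᴴ) * ((1 + K) * U) := by rw [← h2]; simp only [mul_assoc]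
        _ = 1 := by rw [h1, hU1, one_mul]
    have h4 : H * H = H * (Uᴴ * U + Uᴴ * (Kᴴ * K) * U) * H := by rw [h3, mul_one]
    have h5 : Wᴴ = H * Uᴴ := by rw [hWd, conjTranspose_mul, hH]
    have h6 : (K * W)ᴴ = H * Uᴴ * Kᴴ := by rw [conjTranspose_mul, h5]
    rw [h6, h5, h4, hWd]
    noncomm_ring
  have hHH : (1 - H * H).PosDef := by
    have h1 : ((1 - H)ᴴ * (1 + H) * (1 - H)).PosDef :=
      posDef_of_unit hM1 hM2.det_pos.ne'.isUnit
    have h2 : ((1 + H)ᴴ * (1 - H) * (1 + H)).PosDef :=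
      posDef_of_unit hM2 hM1.det_pos.ne'.isUnit
    have h3 := h1.add h2
    have h4 : (1 - H)ᴴ * (1 + H) * (1 - H) + (1 + H)ᴴ * (1 - H) * (1 + H) =
        (2 : ℝ) • (1 - H * H) := by
      rw [conjTranspose_sub, conjTranspose_add, conjTranspose_one, hH, two_smul]
      noncomm_ring
    rw [h4] at h3
    have h5 := h3.smul (show (0 : ℝ) < 1 / 2 by norm_num)
    rw [smul_smul] at h5
    norm_num at h5
    exact h5
  have hWp : (1 - Wᴴ * W).PosDef := by
    rw [hWW]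
    exact hHH.add_posSemidef (posSemidef_conjTranspose_mul_self _)
  have h6 := hua W hWp
  have h7 : ‖(1 - H * H).det‖ ≤ ‖(1 - Wᴴ * W).det‖ := by
    rw [hWW]
    exact norm_det_le hHH (posSemidef_conjTranspose_mul_self _)
  rw [e1, e2, det_mul, det_mul, norm_mul, norm_mul]
  calc ‖(1 + K).det‖ ^ 2 * (‖(1 + H).det‖ * ‖(1 - H).det‖)
      = ‖(1 + K).det‖ ^ 2 * ‖(1 - H * H).det‖ := by rw [← norm_mul, ← det_mul, e4]
    _ ≤ ‖(1 + K).det‖ ^ 2 * ‖(1 - W * W).det‖ :=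
        mul_le_mul_of_nonneg_left (h7.trans h6) (by positivity)
    _ = _ := by rw [← e3, det_mul, norm_mul]; ring

theorem midpoint {n : Type*} [Fintype n] [DecidableEq n] (M H K : Matrix n n ℂ)
    (hM1 : (M + H).PosDef) (hM2 : (M - H).PosDef) (hK : Kᴴ = -K) :
    ‖(M + K).det‖ ^ 2 * (‖(M + H).det‖ * ‖(M - H).det‖) ≤
      ‖(M + H + K).det‖ * ‖(M - H + K).det‖ * ‖M.det‖ ^ 2 := by
  have hMp : M.PosDef := by
    have h := (hM1.add hM2).smul (show (0 : ℝ) < 1 / 2 by norm_num)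
    have e : (1 / 2 : ℝ) • (M + H + (M - H)) = M := by
      have : M + H + (M - H) = (2 : ℝ) • M := by rw [two_smul]; abel
      rw [this, smul_smul]; norm_num
    rwa [e] at h
  have hHh : Hᴴ = H := by
    have h1 := hM1.isHermitian.eq
    have h2 := hMp.isHermitian.eq
    rw [conjTranspose_add, h2] at h1
    exact add_left_cancel h1
  obtain ⟨B, hB⟩ := exists_factor hMp.posSemidef
  have hd : IsUnit B.det := by
    have h := norm_det_pos hMp
    rw [hB, det_mul] at h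
    have : B.det ≠ 0 := by
      intro h0
      rw [h0, mul_zero, norm_zero] at h
      exact lt_irrefl _ h
    exact this.isUnit
  have h1 : B⁻¹ * B = 1 := nonsing_inv_mul B hd
  have h2 : Bᴴ * (B⁻¹)ᴴ = 1 := by rw [← conjTranspose_mul, h1, conjTranspose_one]
  have h1' : B * B⁻¹ = 1 := mul_nonsing_inv B hd
  have h2' : (B⁻¹)ᴴ * Bᴴ = 1 := by rw [← conjTranspose_mul, h1', conjTranspose_one]
  set H' := (B⁻¹)ᴴ * H * B⁻¹ with hH'
  set K' := (B⁻¹)ᴴ * K * B⁻¹ with hK'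
  have cg : ∀ Q : Matrix n n ℂ, Q = Bᴴ * ((B⁻¹)ᴴ * Q * B⁻¹) * B := by
    intro Q
    calc Q = (Bᴴ * (B⁻¹)ᴴ) * Q * (B⁻¹ * B) := by rw [h1, h2, one_mul, mul_one]
      _ = _ := by simp only [mul_assoc]
  have eH : H = Bᴴ * H' * B := cg H
  have eK : K = Bᴴ * K' * B := cg K
  have f1 : M + K = Bᴴ * (1 + K') * B := by
    rw [mul_add, add_mul, mul_one, ← hB, ← eK]
  have f2 : M + H = Bᴴ * (1 + H') * B := by
    rw [mul_add, add_mul, mul_one, ← hB, ← eH]
  have f3 : M - H = Bᴴ * (1 - H') * B := by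
    rw [mul_sub, sub_mul, mul_one, ← hB, ← eH]
  have f4 : M + H + K = Bᴴ * (1 + H' + K') * B := by
    rw [mul_add, add_mul, mul_add, add_mul, mul_one, ← hB, ← eH, ← eK]
  have f5 : M - H + K = Bᴴ * (1 - H' + K') * B := by
    rw [mul_add, add_mul, mul_sub, sub_mul, mul_one, ← hB, ← eH, ← eK]
  have nd : ∀ Q : Matrix n n ℂ, ‖(Bᴴ * Q * B).det‖ = ‖B.det‖ ^ 2 * ‖Q.det‖ := by
    intro Q
    rw [det_mul, det_mul, det_conjTranspose, norm_mul, norm_mul, norm_star]; ring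
  have hBinv : IsUnit (B⁻¹).det := by
    have : (B⁻¹).det * B.det = 1 := by rw [← det_mul, h1, det_one]
    exact IsUnit.of_mul_eq_one _ this
  have g1 : (1 + H').PosDef := by
    have h := posDef_of_unit hM1 hBinv
    have e : (B⁻¹)ᴴ * (M + H) * B⁻¹ = 1 + H' := by
      rw [f2]
      calc (B⁻¹)ᴴ * (Bᴴ * (1 + H') * B) * B⁻¹ = ((B⁻¹)ᴴ * Bᴴ) * (1 + H') * (B * B⁻¹) := by
            simp only [mul_assoc]
        _ = _ := by rw [h1', h2', one_mul, mul_one]
    rwa [e] at h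
  have g2 : (1 - H').PosDef := by
    have h := posDef_of_unit hM2 hBinv
    have e : (B⁻¹)ᴴ * (M - H) * B⁻¹ = 1 - H' := by
      rw [f3]
      calc (B⁻¹)ᴴ * (Bᴴ * (1 - H') * B) * B⁻¹ = ((B⁻¹)ᴴ * Bᴴ) * (1 - H') * (B * B⁻¹) := by
            simp only [mul_assoc]
        _ = _ := by rw [h1', h2', one_mul, mul_one]
    rwa [e] at h
  have g3 : H'ᴴ = H' := by
    rw [hH', conjTranspose_mul, conjTranspose_mul, conjTranspose_conjTranspose, hHh, mul_assoc]
  have g4 : K'ᴴ = -K' := by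
    rw [hK', conjTranspose_mul, conjTranspose_mul, conjTranspose_conjTranspose, hK]
    noncomm_ring
  have main := midpoint_one H' K' g3 g1 g2 g4
  have nM : ‖M.det‖ = ‖B.det‖ ^ 2 := by
    rw [hB, det_mul, det_conjTranspose, norm_mul, norm_star]; ring
  rw [f4, f5, f1, f2, f3, nd, nd, nd, nd, nd, nM]
  have hp : 0 ≤ ‖B.det‖ ^ 8 := by positivity
  calc _ = ‖B.det‖ ^ 8 * (‖(1 + K').det‖ ^ 2 * (‖(1 + H').det‖ * ‖(1 - H').det‖)) := by ring
    _ ≤ ‖B.det‖ ^ 8 * (‖(1 + H' + K').det‖ * ‖(1 - H' + K').det‖) :=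
        mul_le_mul_of_nonneg_left main hp
    _ = _ := by ring

/-- one step of pinching -/
theorem pinch_step {n : Type*} [Fintype n] [DecidableEq n] (M K : Matrix n n ℂ)
    (hM : M.PosDef) (hK : Kᴴ = -K) (d : n → ℂ) (hd : ∀ i, d i = 1 ∨ d i = -1)
    (hKd : ∀ i j, d i ≠ d j → K i j = 0) (M' : Matrix n n ℂ)
    (hM' : ∀ i j, M' i j = if d i = d j then M i j else 0) :
    M'.PosDef ∧ ‖(M' + K).det‖ * ‖M.det‖ ≤ ‖(M + K).det‖ * ‖M'.det‖ := by
  set D : Matrix n n ℂ := diagonal d with hD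
  have hDD : D * D = 1 := by
    rw [hD, diagonal_mul_diagonal, ← diagonal_one]
    congr 1
    funext i
    rcases hd i with h | h <;> rw [h] <;> norm_num
  have hDh : Dᴴ = D := by
    rw [hD, diagonal_conjTranspose]
    congr 1
    funext i
    simp only [Pi.star_apply]
    rcases hd i with h | h <;> rw [h] <;> simp
  have hDet : ‖D.det‖ * ‖D.det‖ = 1 := by rw [← norm_mul, ← det_mul, hDD, det_one, norm_one]
  have entry : ∀ (Q : Matrix n n ℂ) i j, (D * Q * D) i j = d i * Q i j * d j := by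
    intro Q i j
    rw [hD, mul_diagonal, diagonal_mul]
  have hDMD : (D * M * D).PosDef := by
    have h := posDef_of_unit (B := D) hM ?_
    · rwa [hDh] at h
    · have : D.det * D.det = 1 := by rw [← det_mul, hDD, det_one]
      exact IsUnit.of_mul_eq_one _ this
  have e1 : M' + (1 / 2 : ℂ) • (M - D * M * D) = M := by
    ext i j
    rw [Matrix.add_apply, Matrix.smul_apply, Matrix.sub_apply, entry, hM', smul_eq_mul]
    rcases hd i with h1 | h1 <;> rcases hd j with h2 | h2 <;> rw [h1, h2] <;> norm_num <;> ring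
  have e2 : M' - (1 / 2 : ℂ) • (M - D * M * D) = D * M * D := by
    ext i j
    rw [Matrix.sub_apply, Matrix.smul_apply, Matrix.sub_apply, entry, hM', smul_eq_mul]
    rcases hd i with h1 | h1 <;> rcases hd j with h2 | h2 <;> rw [h1, h2] <;> norm_num <;> ring
  have e3 : D * M * D + K = D * (M + K) * D := by
    ext i j
    rw [Matrix.add_apply, entry, entry, Matrix.add_apply]
    by_cases h : d i = d j
    · rw [h]
      rcases hd j with h2 | h2 <;> rw [h2] <;> ring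
    · rw [hKd i j h]; ring
  have hpos : M'.PosDef := by
    have h := (hM.add hDMD).smul (show (0 : ℝ) < 1 / 2 by norm_num)
    have e : (1 / 2 : ℝ) • (M + D * M * D) = M' := by
      ext i j
      rw [Matrix.smul_apply, Matrix.add_apply, entry, hM', Complex.real_smul]
      rcases hd i with h1 | h1 <;> rcases hd j with h2 | h2 <;> rw [h1, h2] <;> norm_num <;> ring
    rwa [e] at h
  refine ⟨hpos, ?_⟩
  have main := midpoint M' ((1 / 2 : ℂ) • (M - D * M * D)) K (by rw [e1]; exact hM)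
    (by rw [e2]; exact hDMD) hK
  rw [e1, e2, e3] at main
  have n1 : ‖(D * M * D).det‖ = ‖M.det‖ := by
    rw [det_mul, det_mul, norm_mul, norm_mul]
    calc _ = ‖M.det‖ * (‖D.det‖ * ‖D.det‖) := by ring
      _ = _ := by rw [hDet, mul_one]
  have n2 : ‖(D * (M + K) * D).det‖ = ‖(M + K).det‖ := by
    rw [det_mul, det_mul, norm_mul, norm_mul]
    calc _ = ‖(M + K).det‖ * (‖D.det‖ * ‖D.det‖) := by ring
      _ = _ := by rw [hDet, mul_one]
  rw [n1, n2] at main
  have h1 : 0 ≤ ‖(M' + K).det‖ * ‖M.det‖ := by positivity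
  have h2 : 0 ≤ ‖(M + K).det‖ * ‖M'.det‖ := by positivity
  refine (pow_le_pow_iff_left₀ h1 h2 (two_ne_zero)).1 ?_
  calc _ = ‖(M' + K).det‖ ^ 2 * (‖M.det‖ * ‖M.det‖) := by ring
    _ ≤ _ := main
    _ = _ := by ring

theorem pinch_label {n L : Type*} [Fintype n] [DecidableEq n] [DecidableEq L] (c : n → L)
    (M K : Matrix n n ℂ) (hM : M.PosDef) (hK : Kᴴ = -K)
    (hKc : ∀ i j, c i ≠ c j → K i j = 0) :
    ‖((Matrix.of fun i j => if c i = c j then M i j else 0) + K).det‖ * ‖M.det‖ ≤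
      ‖(M + K).det‖ * ‖(Matrix.of fun i j => if c i = c j then M i j else 0).det‖ := by
  have key : ∀ s : Finset L, ∀ Q : Matrix n n ℂ,
      (∀ i j, Q i j = if c i = c j ∨ (c i ∉ s ∧ c j ∉ s) then M i j else 0) →
      Q.PosDef ∧ ‖(Q + K).det‖ * ‖M.det‖ ≤ ‖(M + K).det‖ * ‖Q.det‖ := by
    intro s
    induction s using Finset.induction_on with
    | empty =>
      intro Q hQ
      have : Q = M := by
        ext i j
        rw [hQ]; simp
      rw [this]
      exact ⟨hM, le_rfl⟩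
    | insert l s hl ih =>
      intro Q hQ
      obtain ⟨h1, h2⟩ := ih (Matrix.of fun i j => if c i = c j ∨ (c i ∉ s ∧ c j ∉ s) then M i j
        else 0) (fun i j => rfl)
      set P : Matrix n n ℂ := Matrix.of fun i j =>
        if c i = c j ∨ (c i ∉ s ∧ c j ∉ s) then M i j else 0 with hP
      have hd : ∀ i, (fun i => if c i = l then (-1 : ℂ) else 1) i = 1 ∨
          (fun i => if c i = l then (-1 : ℂ) else 1) i = -1 := by
        intro i
        by_cases h : c i = l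
        · right; simp [h]
        · left; simp [h]
      have hneg : (1 : ℂ) ≠ -1 := by norm_num
      have hneg' : (-1 : ℂ) ≠ 1 := by norm_num
      obtain ⟨h3, h4⟩ := pinch_step P K h1 hK (fun i => if c i = l then (-1 : ℂ) else 1) hd
        (fun i j hij => hKc i j (fun hc => hij (by simp only [hc]))) Q
        (by
          intro i j
          rw [hQ]
          simp only [hP, Matrix.of_apply, Finset.mem_insert, not_or]
          by_cases h1 : c i = l <;> by_cases h2 : c j = l <;> by_cases h3 : c i = c j <;>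
            simp_all)
      refine ⟨h3, ?_⟩
      have hp := norm_det_pos h1
      have hq : 0 ≤ ‖(Q + K).det‖ := norm_nonneg _
      -- chain of ratios
      have h5 : ‖(Q + K).det‖ * ‖M.det‖ * ‖P.det‖ ≤ ‖(M + K).det‖ * ‖Q.det‖ * ‖P.det‖ := by
        calc ‖(Q + K).det‖ * ‖M.det‖ * ‖P.det‖ = (‖(Q + K).det‖ * ‖P.det‖) * ‖M.det‖ := by ring
          _ ≤ (‖(P + K).det‖ * ‖Q.det‖) * ‖M.det‖ :=
              mul_le_mul_of_nonneg_right h4 (norm_nonneg _)
          _ = (‖(P + K).det‖ * ‖M.det‖) * ‖Q.det‖ := by ring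
          _ ≤ (‖(M + K).det‖ * ‖P.det‖) * ‖Q.det‖ :=
              mul_le_mul_of_nonneg_right h2 (norm_nonneg _)
          _ = _ := by ring
      exact le_of_mul_le_mul_right h5 hp
  refine (key (Finset.univ.image c) _ ?_).2
  intro i j
  have h1 : c i ∈ Finset.univ.image c := Finset.mem_image_of_mem c (Finset.mem_univ i)
  simp [h1]

end Vale.Agent.Lib.P358
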