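import Vale.Agent.Lib.P358.Hua

/-!
# P358: the pointwise determinant inequality
-/

namespace Vale.Agent.Lib.P358

open Matrix
open scoped ComplexOrder

/-- Schur complement: the determinant of `1 + V Vᴴ` for `V = fromBlocks A B C 0` -/
theorem det_one_add_tree {m : Type*} [Fintype m] [DecidableEq m] (A B C : Matrix m m ℂ) :
    (1 + fromBlocks A B C 0 * (fromBlocks A B C 0)ᴴ).det =
      (fromBlocks (1 + B * Bᴴ) A (-Aᴴ) (1 + Cᴴ * C)).det := by
  have h1 : (fromBlocks (1 : Matrix (m ⊕ m) (m ⊕ m) ℂ) (fromBlocks A B C 0)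
      (-(fromBlocks A B C 0)ᴴ) 1).det = (1 + fromBlocks A B C 0 * (fromBlocks A B C 0)ᴴ).det := by
    rw [det_fromBlocks_one₂₂, mul_neg, sub_neg_eq_add]
  have h2 : (fromBlocks (1 : Matrix (m ⊕ m) (m ⊕ m) ℂ) (fromBlocks A B C 0)
      (-(fromBlocks A B C 0)ᴴ) 1).submatrix (Equiv.sumSumSumComm m m m m)
        (Equiv.sumSumSumComm m m m m) =
      fromBlocks (fromBlocks 1 A (-Aᴴ) 1) (fromBlocks 0 B (-Cᴴ) 0) (fromBlocks 0 C (-Bᴴ) 0)
        (1 : Matrix (m ⊕ m) (m ⊕ m) ℂ) := by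
    ext i j
    rcases i with (i | i) | (i | i) <;> rcases j with (j | j) | (j | j) <;>
      simp [Matrix.one_apply, fromBlocks]
  rw [← h1, ← det_submatrix_equiv_self (Equiv.sumSumSumComm m m m m), h2, det_fromBlocks_one₂₂]
  congr 1
  rw [fromBlocks_multiply]
  ext i j
  rcases i with i | i <;> rcases j with j | j <;> simp [sub_eq_add_neg]

theorem det_fromBlocks_diagonal {m : Type*} [Fintype m] [DecidableEq m] (u v w : m → ℝ)
    (hw : ∀ i, 0 < w i) (hu : ∀ i, 0 < u i) :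
    ‖(fromBlocks (diagonal fun i => (u i : ℂ)) (diagonal fun i => (v i : ℂ))
      (-(diagonal fun i => (v i : ℂ))ᴴ) (diagonal fun i => (w i : ℂ))).det‖ =
      ∏ i, (u i * w i + v i ^ 2) := by
  have hinv : (diagonal fun i => ((w i)⁻¹ : ℂ)) * (diagonal fun i => (w i : ℂ)) = 1 := by
    rw [diagonal_mul_diagonal, ← diagonal_one]
    congr 1
    funext i
    exact inv_mul_cancel₀ (by exact_mod_cast (hw i).ne')
  let _inst : Invertible (diagonal fun i => (w i : ℂ)) := invertibleOfLeftInverse _ _ hinv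
  rw [det_fromBlocks₂₂]
  have hi : ⅟ (diagonal fun i => (w i : ℂ)) = (diagonal fun i => ((w i)⁻¹ : ℂ)) := rfl
  rw [hi, diagonal_conjTranspose, det_diagonal, mul_neg, sub_neg_eq_add, diagonal_mul_diagonal,
    diagonal_mul_diagonal, diagonal_add, det_diagonal, ← Finset.prod_mul_distrib, norm_prod]
  refine Finset.prod_congr rfl fun i _ => ?_
  have hw0 : (w i : ℂ) ≠ 0 := by exact_mod_cast (hw i).ne'
  have e : (w i : ℂ) * ((u i : ℂ) + (v i : ℂ) * ((w i)⁻¹ : ℂ) * (star fun i => (v i : ℂ)) i) =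
      ((u i * w i + v i ^ 2 : ℝ) : ℂ) := by
    simp only [Pi.star_apply, Complex.star_def, Complex.conj_ofReal]
    push_cast
    field_simp
  rw [e, Complex.norm_real, Real.norm_of_nonneg]
  have := mul_pos (hu i) (hw i)
  positivity

theorem key_pointwise {m : Type*} [Fintype m] [DecidableEq m] (a : m → ℝ) (B C : Matrix m m ℂ)
    (r : ℝ) (hr : 0 < r) :
    ∑ i, (Real.log (1 + (a i ^ 2 + ((B * Bᴴ) i i).re + ((Cᴴ * C) i i).re) / r
            + ((B * Bᴴ) i i).re * ((Cᴴ * C) i i).re / r ^ 2)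
          - Real.log (1 + ((B * Bᴴ) i i).re / r) - Real.log (1 + ((Cᴴ * C) i i).re / r)) ≤
      ld (fromBlocks (diagonal fun i => (a i : ℂ)) B C 0 *
          (fromBlocks (diagonal fun i => (a i : ℂ)) B C 0)ᴴ) r
        - ld (B * Bᴴ) r - ld (Cᴴ * C) r := by
  set A : Matrix m m ℂ := diagonal fun i => (a i : ℂ) with hA
  obtain ⟨s, hs0, hs⟩ : ∃ s : ℝ, 0 < s ∧ s ^ 2 = r⁻¹ :=
    ⟨Real.sqrt r⁻¹, Real.sqrt_pos.2 (inv_pos.2 hr), Real.sq_sqrt (inv_pos.2 hr).le⟩
  have hss : ((s : ℂ)) * (s : ℂ) = ((r⁻¹ : ℝ) : ℂ) := by rw [← hs]; push_cast; ring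
  have hsc : ∀ {p q : Type _} (X : Matrix p q ℂ), ((s : ℂ) • X)ᴴ = (s : ℂ) • Xᴴ := by
    intro p q X
    rw [conjTranspose_smul]
    simp
  have hsq : ∀ {p q : Type _} [Fintype q] (X : Matrix p q ℂ),
      ((s : ℂ) • X) * ((s : ℂ) • X)ᴴ = ((r⁻¹ : ℝ) : ℂ) • (X * Xᴴ) := by
    intro p q _ X
    rw [hsc, Matrix.smul_mul, Matrix.mul_smul, smul_smul, hss]
  have hsq' : ∀ {p q : Type _} [Fintype p] (X : Matrix p q ℂ),
      ((s : ℂ) • X)ᴴ * ((s : ℂ) • X) = ((r⁻¹ : ℝ) : ℂ) • (Xᴴ * X) := by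
    intro p q _ X
    rw [hsc, Matrix.smul_mul, Matrix.mul_smul, smul_smul, hss]
  have hV : ((s : ℂ) • fromBlocks A B C 0) = fromBlocks ((s : ℂ) • A) ((s : ℂ) • B)
      ((s : ℂ) • C) 0 := by
    rw [fromBlocks_smul, smul_zero]
  -- the matrices
  set M : Matrix (m ⊕ m) (m ⊕ m) ℂ := fromBlocks (1 + ((r⁻¹ : ℝ) : ℂ) • (B * Bᴴ)) 0 0
    (1 + ((r⁻¹ : ℝ) : ℂ) • (Cᴴ * C)) with hM
  set K : Matrix (m ⊕ m) (m ⊕ m) ℂ := fromBlocks 0 ((s : ℂ) • A) (-((s : ℂ) • A)ᴴ) 0 with hK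
  have hdet : (1 + ((r⁻¹ : ℝ) : ℂ) • (fromBlocks A B C 0 * (fromBlocks A B C 0)ᴴ)).det =
      (M + K).det := by
    rw [← hsq, hV, det_one_add_tree, hsq, hsq', hM, hK, fromBlocks_add, add_zero, add_zero,
      zero_add, zero_add]
  have hBp : (1 + ((r⁻¹ : ℝ) : ℂ) • (B * Bᴴ)).PosDef := by
    rw [← hsq]
    exact PosDef.one.add_posSemidef (posSemidef_self_mul_conjTranspose _)
  have hCp : (1 + ((r⁻¹ : ℝ) : ℂ) • (Cᴴ * C)).PosDef := by
    rw [← hsq']
    exact PosDef.one.add_posSemidef (posSemidef_conjTranspose_mul_self _)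
  have hMp : M.PosDef := by
    have h1 : M = 1 + fromBlocks (((r⁻¹ : ℝ) : ℂ) • (B * Bᴴ)) 0 0
        (((r⁻¹ : ℝ) : ℂ) • (Cᴴ * C)) := by
      rw [hM, ← fromBlocks_one, fromBlocks_add, add_zero]
    have h2 : fromBlocks (((r⁻¹ : ℝ) : ℂ) • (B * Bᴴ)) 0 0 (((r⁻¹ : ℝ) : ℂ) • (Cᴴ * C)) =
        fromBlocks ((s : ℂ) • B) 0 0 ((s : ℂ) • C)ᴴ *
          (fromBlocks ((s : ℂ) • B) 0 0 ((s : ℂ) • C)ᴴ)ᴴ := by
      rw [fromBlocks_conjTranspose, fromBlocks_multiply, conjTranspose_conjTranspose, hsq, hsq']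
      simp
    rw [h1, h2]
    exact PosDef.one.add_posSemidef (posSemidef_self_mul_conjTranspose _)
  have hKs : Kᴴ = -K := by
    rw [hK, fromBlocks_conjTranspose, fromBlocks_neg]
    simp
  have hMd : ‖M.det‖ = ‖(1 + ((r⁻¹ : ℝ) : ℂ) • (B * Bᴴ)).det‖ *
      ‖(1 + ((r⁻¹ : ℝ) : ℂ) • (Cᴴ * C)).det‖ := by
    rw [hM, det_fromBlocks_zero₂₁, norm_mul]
  have hsA : (s : ℂ) • A = diagonal fun i => ((s * a i : ℝ) : ℂ) := by
    rw [hA, ← diagonal_smul]
    congr 1
    funext i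
    simp
  -- the labels
  have hKc : ∀ i j, (Sum.elim id id : m ⊕ m → m) i ≠ (Sum.elim id id : m ⊕ m → m) j →
      K i j = 0 := by
    intro i j hij
    rw [hK, hsA, diagonal_conjTranspose]
    rcases i with i | i <;> rcases j with j | j <;>
      simp only [Sum.elim_inl, Sum.elim_inr, id_eq, ne_eq] at hij <;>
      simp [hij]
  have main := pinch_label (Sum.elim id id : m ⊕ m → m) M K hMp hKs hKc
  set p : m → ℝ := fun i => ((B * Bᴴ) i i).re with hp
  set q : m → ℝ := fun i => ((Cᴴ * C) i i).re with hq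
  have hBr : ∀ i, (B * Bᴴ) i i = (p i : ℂ) := fun i =>
    ((posSemidef_self_mul_conjTranspose B).isHermitian.coe_re_apply_self i).symm
  have hCr : ∀ i, (Cᴴ * C) i i = (q i : ℂ) := fun i =>
    ((posSemidef_conjTranspose_mul_self C).isHermitian.coe_re_apply_self i).symm
  have hp0 : ∀ i, 0 ≤ p i := fun i => by
    have := (posSemidef_self_mul_conjTranspose B).diag_nonneg (i := i)
    rw [hBr] at this
    exact_mod_cast this
  have hq0 : ∀ i, 0 ≤ q i := fun i => by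
    have := (posSemidef_conjTranspose_mul_self C).diag_nonneg (i := i)
    rw [hCr] at this
    exact_mod_cast this
  have hMc : (Matrix.of fun i j : m ⊕ m => if (Sum.elim id id : m ⊕ m → m) i =
      (Sum.elim id id : m ⊕ m → m) j then M i j else 0) =
      fromBlocks (diagonal fun i => ((1 + r⁻¹ * p i : ℝ) : ℂ)) 0 0
        (diagonal fun i => ((1 + r⁻¹ * q i : ℝ) : ℂ)) := by
    ext i j
    rcases i with i | i <;> rcases j with j | j
    · by_cases h : i = j
      · subst h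
        simp [hM, hBr]
      · simp [h]
    · by_cases h : i = j <;> simp [hM, h]
    · by_cases h : i = j <;> simp [hM, h]
    · by_cases h : i = j
      · subst h
        simp [hM, hCr]
      · simp [h]
  rw [hMc] at main
  have hMcd : ‖(fromBlocks (diagonal fun i => ((1 + r⁻¹ * p i : ℝ) : ℂ)) 0 0
        (diagonal fun i => ((1 + r⁻¹ * q i : ℝ) : ℂ)) : Matrix (m ⊕ m) (m ⊕ m) ℂ).det‖ =
      ∏ i, ((1 + r⁻¹ * p i) * (1 + r⁻¹ * q i)) := by
    rw [det_fromBlocks_zero₂₁, det_diagonal, det_diagonal, ← Finset.prod_mul_distrib, norm_prod]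
    refine Finset.prod_congr rfl fun i _ => ?_
    rw [← Complex.ofReal_mul, Complex.norm_real, Real.norm_of_nonneg]
    have := hp0 i
    have := hq0 i
    have := inv_pos.2 hr
    positivity
  have hMcK : ‖(fromBlocks (diagonal fun i => ((1 + r⁻¹ * p i : ℝ) : ℂ)) 0 0
        (diagonal fun i => ((1 + r⁻¹ * q i : ℝ) : ℂ)) + K).det‖ =
      ∏ i, ((1 + r⁻¹ * p i) * (1 + r⁻¹ * q i) + (s * a i) ^ 2) := by
    rw [hK, hsA, fromBlocks_add, add_zero, add_zero, zero_add, zero_add]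
    refine det_fromBlocks_diagonal _ _ _ (fun i => ?_) (fun i => ?_)
    · have := hq0 i
      have := inv_pos.2 hr
      positivity
    · have := hp0 i
      have := inv_pos.2 hr
      positivity
  rw [hMcd, hMcK, hMd, ← hdet] at main
  have pos1 : 0 < ∏ i, ((1 + r⁻¹ * p i) * (1 + r⁻¹ * q i)) := by
    refine Finset.prod_pos fun i _ => ?_
    have := hp0 i
    have := hq0 i
    have := inv_pos.2 hr
    positivity
  have pos2 : 0 < ∏ i, ((1 + r⁻¹ * p i) * (1 + r⁻¹ * q i) + (s * a i) ^ 2) := by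
    refine Finset.prod_pos fun i _ => ?_
    have := hp0 i
    have := hq0 i
    have := inv_pos.2 hr
    positivity
  have pos3 := norm_det_pos hBp
  have pos4 := norm_det_pos hCp
  have pos5 : 0 < ‖(1 + ((r⁻¹ : ℝ) : ℂ) • (fromBlocks A B C 0 * (fromBlocks A B C 0)ᴴ)).det‖ := by
    rw [← hsq]
    exact norm_det_pos (PosDef.one.add_posSemidef (posSemidef_self_mul_conjTranspose _))
  have hlog := Real.log_le_log (by positivity) main
  rw [Real.log_mul pos2.ne' (by positivity), Real.log_mul pos3.ne' pos4.ne',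
    Real.log_mul pos5.ne' pos1.ne', Real.log_prod (fun i _ => ?_), Real.log_prod (fun i _ => ?_)]
    at hlog
  · have e1 : ∀ i, Real.log ((1 + r⁻¹ * p i) * (1 + r⁻¹ * q i)) =
        Real.log (1 + p i / r) + Real.log (1 + q i / r) := by
      intro i
      have := hp0 i
      have := hq0 i
      have := inv_pos.2 hr
      rw [Real.log_mul (by positivity) (by positivity)]
      congr 2 <;> ring
    have e2 : ∀ i, Real.log ((1 + r⁻¹ * p i) * (1 + r⁻¹ * q i) + (s * a i) ^ 2) =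
        Real.log (1 + (a i ^ 2 + p i + q i) / r + p i * q i / r ^ 2) := by
      intro i
      congr 1
      rw [mul_pow, hs]
      field_simp
      ring
    simp only [e1, e2, Finset.sum_add_distrib] at hlog
    simp only [Finset.sum_sub_distrib]
    unfold ld
    linarith
  · have := hp0 i
    have := hq0 i
    have := inv_pos.2 hr
    positivity
  · have := hp0 i
    have := hq0 i
    have := inv_pos.2 hr
    positivity

end Vale.Agent.Lib.P358
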