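import Vale.Agent.Lib.P358.Ent
import Vale.Agent.Lib.P358.KeyDet
import Vale.Agent.Lib.P358.Scalar

/-!
# P358, module KEYAD: the key inequality for amplitude damping
-/

namespace Vale.Agent.Lib.P358

open Matrix Vale.Agent.AmplitudeDamping
open scoped ComplexOrder

namespace KeyAD

theorem sub_posSemidef {m : Type*} [Fintype m] [DecidableEq m] (x y : m → ℝ)
    (hy : ∀ i, 0 < y i) (hxy : ∀ i, x i ≤ y i)
    (Y Z : Matrix m m ℂ) (h : (fromBlocks (diagonal fun i => (x i : ℂ)) Y Yᴴ Z).PosSemidef) :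
    (Z - Yᴴ * (diagonal fun i => ((y i)⁻¹ : ℂ)) * Y).PosSemidef := by
  have h1 : (fromBlocks (diagonal fun i => (y i : ℂ)) Y Yᴴ Z).PosSemidef := by
    have h2 : (fromBlocks (diagonal fun i => ((y i - x i : ℝ) : ℂ)) 0 0
        (0 : Matrix m m ℂ)).PosSemidef :=
      posSemidef_fromBlocks (posSemidef_diagonal _ fun i => by linarith [hxy i]) PosSemidef.zero
    have h3 := h.add h2
    rw [fromBlocks_add, diagonal_add] at h3
    simp only [add_zero] at h3
    have e : (fun i => ((x i : ℂ)) + ((y i - x i : ℝ) : ℂ)) = fun i => (y i : ℂ) := by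
      funext i; push_cast; ring
    rw [e] at h3
    exact h3
  have hpd : (diagonal fun i => (y i : ℂ)).PosDef := by
    refine PosDef.diagonal ?_
    intro i
    exact_mod_cast hy i
  have hinv : (diagonal fun i => ((y i)⁻¹ : ℂ)) * (diagonal fun i => (y i : ℂ)) = 1 := by
    rw [diagonal_mul_diagonal, ← diagonal_one]
    congr 1
    funext i
    exact inv_mul_cancel₀ (by exact_mod_cast (hy i).ne')
  let _inst : Invertible (diagonal fun i => (y i : ℂ)) := invertibleOfLeftInverse _ _ hinv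
  have h4 := (PosDef.fromBlocks₁₁ Y Z hpd).1 h1
  have h5 : (diagonal fun i => (y i : ℂ))⁻¹ = diagonal fun i => ((y i)⁻¹ : ℂ) :=
    inv_eq_left_inv hinv
  rwa [h5] at h4

theorem row_eq_zero {m : Type*} [Fintype m] [DecidableEq m] (x : m → ℝ) (hx : ∀ i, 0 ≤ x i)
    (Y Z : Matrix m m ℂ) (h : (fromBlocks (diagonal fun i => (x i : ℂ)) Y Yᴴ Z).PosSemidef)
    (i : m) (hi : x i = 0) (j : m) : Y i j = 0 := by
  have hZ : Z.PosSemidef := by
    have := h.submatrix (Sum.inr : m → m ⊕ m)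
    exact this
  have hb : ∀ t : ℝ, 0 < t → ‖Y i j‖ ^ 2 ≤ t * (Z j j).re := by
    intro t ht
    have h1 := sub_posSemidef x (fun k => x k + t) (fun k => by linarith [hx k])
      (fun k => by linarith) Y Z h
    have h2 := h1.diag_nonneg (i := j)
    have h3 : (Yᴴ * (diagonal fun k => (((x k + t : ℝ))⁻¹ : ℂ)) * Y) j j =
        ((∑ k, ‖Y k j‖ ^ 2 / (x k + t) : ℝ) : ℂ) := by
      rw [Matrix.mul_apply]
      push_cast
      refine Finset.sum_congr rfl fun k _ => ?_
      rw [mul_diagonal, conjTranspose_apply]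
      have e : ((‖Y k j‖ ^ 2 : ℝ) : ℂ) = star (Y k j) * Y k j := by
        rw [Complex.star_def, ← Complex.normSq_eq_conj_mul_self, Complex.normSq_eq_norm_sq]
      push_cast at e
      rw [e, div_eq_mul_inv]
      ring
    rw [Matrix.sub_apply, h3, Complex.le_def] at h2
    have h4 := h2.1
    simp only [Complex.zero_re, Complex.sub_re, Complex.ofReal_re] at h4
    have h5 : ‖Y i j‖ ^ 2 / (x i + t) ≤ ∑ k, ‖Y k j‖ ^ 2 / (x k + t) :=
      Finset.single_le_sum (f := fun k => ‖Y k j‖ ^ 2 / (x k + t))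
        (fun k _ => div_nonneg (by positivity) (by linarith [hx k])) (Finset.mem_univ i)
    have h6 : ‖Y i j‖ ^ 2 / (x i + t) ≤ (Z j j).re := by linarith
    rw [hi, zero_add, div_le_iff₀ ht] at h6
    linarith
  have hz0 : 0 ≤ (Z j j).re := by
    have := hZ.diag_nonneg (i := j)
    exact (Complex.le_def.1 this).1
  have h0 : ‖Y i j‖ ^ 2 ≤ 0 := by
    refine le_of_forall_pos_le_add fun ε hε => ?_
    have h1 := hb (ε / ((Z j j).re + 1)) (by positivity)
    have h2 : ε / ((Z j j).re + 1) * (Z j j).re ≤ ε := by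
      rw [div_mul_eq_mul_div, div_le_iff₀ (by positivity)]
      nlinarith
    linarith
  have h1 : ‖Y i j‖ = 0 := by
    have := norm_nonneg (Y i j)
    nlinarith
  exact norm_eq_zero.1 h1

end KeyAD

open KeyAD

theorem factor_diag {m : Type*} [Fintype m] [DecidableEq m] (x : m → ℝ) (hx : ∀ i, 0 ≤ x i)
    (Y Z : Matrix m m ℂ) (h : (fromBlocks (diagonal fun i => (x i : ℂ)) Y Yᴴ Z).PosSemidef) :
    ∃ K R : Matrix m m ℂ, Y = (diagonal fun i => ((Real.sqrt (x i) : ℝ) : ℂ)) * K ∧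
      Z = Kᴴ * K + R * Rᴴ := by
  set y : m → ℝ := fun i => if x i = 0 then 1 else x i with hy
  have hy0 : ∀ i, 0 < y i := by
    intro i
    simp only [hy]
    split_ifs with h1
    · exact one_pos
    · exact lt_of_le_of_ne (hx i) (Ne.symm h1)
  have hxy : ∀ i, x i ≤ y i := by
    intro i
    simp only [hy]
    split_ifs with h1
    · rw [h1]; exact zero_le_one
    · exact le_rfl
  have h1 := sub_posSemidef x y hy0 hxy Y Z h
  set K : Matrix m m ℂ := (diagonal fun i => ((Real.sqrt (y i))⁻¹ : ℂ)) * Y with hK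
  have hKK : Kᴴ * K = Yᴴ * (diagonal fun i => ((y i)⁻¹ : ℂ)) * Y := by
    rw [hK, conjTranspose_mul, diagonal_conjTranspose, mul_assoc, ← mul_assoc _ _ Y,
      diagonal_mul_diagonal, ← mul_assoc]
    congr 3
    funext i
    simp only [Pi.star_apply, Complex.star_def, map_inv₀, Complex.conj_ofReal]
    rw [← mul_inv, ← Complex.ofReal_mul, Real.mul_self_sqrt (hy0 i).le]
  rw [← hKK] at h1
  obtain ⟨S, hS⟩ := exists_factor h1
  refine ⟨K, Sᴴ, ?_, ?_⟩
  · ext i j
    rw [hK, diagonal_mul, diagonal_mul]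
    by_cases h2 : x i = 0
    · rw [row_eq_zero x hx Y Z h i h2 j]; simp
    · have h3 : y i = x i := by simp only [hy]; rw [if_neg h2]
      have h4 : Real.sqrt (x i) ≠ 0 := by
        rw [Real.sqrt_ne_zero']
        exact lt_of_le_of_ne (hx i) (Ne.symm h2)
      rw [h3, ← mul_assoc, mul_inv_cancel₀ (by exact_mod_cast h4), one_mul]
  · rw [conjTranspose_conjTranspose, ← hS]; abel

/-- integrated form of `key_pointwise` -/
theorem key_entropy {m : Type*} [Fintype m] [DecidableEq m] (a : m → ℝ) (B C : Matrix m m ℂ) :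
    ∑ i, (ent2 (a i ^ 2 + ((B * Bᴴ) i i).re + ((Cᴴ * C) i i).re)
            (((B * Bᴴ) i i).re * ((Cᴴ * C) i i).re)
          - Real.negMulLog ((B * Bᴴ) i i).re - Real.negMulLog ((Cᴴ * C) i i).re) ≤
      eta (fromBlocks (diagonal fun i => (a i : ℂ)) B C 0 *
          (fromBlocks (diagonal fun i => (a i : ℂ)) B C 0)ᴴ)
        - eta (B * Bᴴ) - eta (Cᴴ * C) := by
  set V : Matrix (m ⊕ m) (m ⊕ m) ℂ := fromBlocks (diagonal fun i => (a i : ℂ)) B C 0 with hV
  set p : m → ℝ := fun i => ((B * Bᴴ) i i).re with hp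
  set q : m → ℝ := fun i => ((Cᴴ * C) i i).re with hq
  have hVp : (V * Vᴴ).PosSemidef := posSemidef_self_mul_conjTranspose V
  have hBp : (B * Bᴴ).PosSemidef := posSemidef_self_mul_conjTranspose B
  have hCp : (Cᴴ * C).PosSemidef := posSemidef_conjTranspose_mul_self C
  have hp0 : ∀ i, 0 ≤ p i := fun i => (Complex.le_def.1 (hBp.diag_nonneg (i := i))).1
  have hq0 : ∀ i, 0 ≤ q i := fun i => (Complex.le_def.1 (hCp.diag_nonneg (i := i))).1
  have htr : ∑ i, hVp.isHermitian.eigenvalues i = ∑ i, a i ^ 2 +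
      ∑ i, hBp.isHermitian.eigenvalues i + ∑ i, hCp.isHermitian.eigenvalues i := by
    rw [← trace_re_eq hVp.isHermitian, ← trace_re_eq hBp.isHermitian,
      ← trace_re_eq hCp.isHermitian, hV, fromBlocks_conjTranspose, fromBlocks_multiply,
      trace_mul_comm Cᴴ C]
    simp only [trace, Fintype.sum_sum_type, diag_apply, fromBlocks_apply₁₁, fromBlocks_apply₂₂,
      Matrix.add_apply, diagonal_conjTranspose, diagonal_mul_diagonal, diagonal_apply_eq,
      conjTranspose_zero, mul_zero, Pi.star_apply, Complex.star_def, Complex.conj_ofReal,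
      Finset.sum_add_distrib, Complex.add_re, Complex.re_sum, add_zero]
    congr 2
    refine Finset.sum_congr rfl fun i _ => ?_
    rw [← Complex.ofReal_mul, Complex.ofReal_re]
    ring
  have hp1 : ∑ i, p i = ∑ i, hBp.isHermitian.eigenvalues i := by
    rw [← trace_re_eq hBp.isHermitian]
    simp only [trace, diag_apply, Complex.re_sum, hp]
  have hq1 : ∑ i, q i = ∑ i, hCp.isHermitian.eigenvalues i := by
    rw [← trace_re_eq hCp.isHermitian]
    simp only [trace, diag_apply, Complex.re_sum, hq]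
  have h4 : ∀ i, 4 * (p i * q i) ≤ (a i ^ 2 + p i + q i) ^ 2 := by
    intro i
    have e1 := hp0 i
    have e2 := hq0 i
    have e3 := sq_nonneg (a i)
    have e4 : 0 ≤ a i ^ 2 * (a i ^ 2 + 2 * (p i + q i)) := by positivity
    nlinarith [sq_nonneg (p i - q i)]
  have main := Scalar.ent_bal (κ₁ := m) (κ₂ := (m ⊕ m) ⊕ ((m ⊕ m) ⊕ (m ⊕ m)))
    (fun _ => -1) (fun i => a i ^ 2 + p i + q i) (fun i => p i * q i)
    (Sum.elim (fun _ => 1) (Sum.elim (fun _ => -1) (fun _ => 1)))
    (Sum.elim hVp.isHermitian.eigenvalues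
      (Sum.elim (Sum.elim hBp.isHermitian.eigenvalues hCp.isHermitian.eigenvalues)
        (Sum.elim p q)))
    (fun i => by have := hp0 i; have := hq0 i; positivity)
    (fun i => mul_nonneg (hp0 i) (hq0 i))
    h4
    (by
      rintro (i | ((i | i) | (i | i)))
      · exact hVp.eigenvalues_nonneg i
      · exact hBp.eigenvalues_nonneg i
      · exact hCp.eigenvalues_nonneg i
      · exact hp0 i
      · exact hq0 i)
    (by
      simp only [Fintype.sum_sum_type, Sum.elim_inl, Sum.elim_inr, neg_mul, one_mul,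
        Finset.sum_neg_distrib, Finset.sum_add_distrib]
      rw [Fintype.sum_sum_type] at htr
      linarith)
    (by
      intro r hr
      have h := key_pointwise a B C r hr
      rw [← hV, ld_eq hVp hr, ld_eq hBp hr, ld_eq hCp hr, Fintype.sum_sum_type] at h
      simp only [Fintype.sum_sum_type, Sum.elim_inl, Sum.elim_inr, neg_mul, one_mul,
        Finset.sum_neg_distrib, Finset.sum_sub_distrib] at h ⊢
      linarith)
  simp only [Fintype.sum_sum_type, Sum.elim_inl, Sum.elim_inr, neg_mul, one_mul,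
    Finset.sum_neg_distrib] at main
  rw [eta_eq hVp.isHermitian, eta_eq hBp.isHermitian, eta_eq hCp.isHermitian,
    Fintype.sum_sum_type, Finset.sum_sub_distrib, Finset.sum_sub_distrib]
  linarith

theorem gadBlock_zero (γ : ℝ) {m : Type*} (X Y Y' Z : Matrix m m ℂ) :
    gadBlock γ 0 X Y Y' Z = fromBlocks (X + (γ : ℂ) • Z) (((Real.sqrt (1 - γ) : ℝ) : ℂ) • Y)
      (((Real.sqrt (1 - γ) : ℝ) : ℂ) • Y') (((1 - γ : ℝ) : ℂ) • Z) := by
  unfold gadBlock
  simp

theorem key_diag {γ : ℝ} (hγ : γ ∈ Set.Icc (0 : ℝ) 1) {m : Type*} [Fintype m] [DecidableEq m]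
    (x : m → ℝ) (hx : ∀ i, 0 ≤ x i) (Y Z : Matrix m m ℂ)
    (h : (fromBlocks (diagonal fun i => (x i : ℂ)) Y Yᴴ Z).PosSemidef) :
    eta (diagonal fun i => (x i : ℂ)) + eta Z +
      (ent2 ((∑ i, x i) + Z.trace.re) (dd γ 0 (∑ i, x i) Z.trace.re)
        - Real.negMulLog (∑ i, x i) - Real.negMulLog Z.trace.re) ≤
      eta (gadBlock γ 0 (diagonal fun i => (x i : ℂ)) Y Yᴴ Z) := by
  obtain ⟨K, R, hY, hZ⟩ := factor_diag x hx Y Z h
  have hZp : Z.PosSemidef := h.submatrix (Sum.inr : m → m ⊕ m)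
  set s : ℝ := Real.sqrt γ with hs
  set c : ℝ := Real.sqrt (1 - γ) with hc
  have hss : (s : ℂ) * (s : ℂ) = (γ : ℂ) := by
    rw [← Complex.ofReal_mul, hs, Real.mul_self_sqrt hγ.1]
  have hcc : (c : ℂ) * (c : ℂ) = ((1 - γ : ℝ) : ℂ) := by
    rw [← Complex.ofReal_mul, hc, Real.mul_self_sqrt (by linarith [hγ.2])]
  set X : Matrix m m ℂ := diagonal fun i => (x i : ℂ) with hX
  set Dx : Matrix m m ℂ := diagonal fun i => ((Real.sqrt (x i) : ℝ) : ℂ) with hDx
  set V1 : Matrix (m ⊕ m) (m ⊕ m) ℂ := fromBlocks Kᴴ R 0 0 with hV1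
  set a : m ⊕ m → ℝ := Sum.elim (fun i => Real.sqrt (x i)) (fun _ => 0) with ha
  set B : Matrix (m ⊕ m) (m ⊕ m) ℂ := (s : ℂ) • V1 with hB
  set C : Matrix (m ⊕ m) (m ⊕ m) ℂ := (c : ℂ) • V1 with hC
  set A : Matrix (m ⊕ m) (m ⊕ m) ℂ := diagonal fun i => (a i : ℂ) with hA
  have hA' : A = fromBlocks Dx 0 0 0 := by
    rw [hA, hDx]
    ext i j
    rcases i with i | i <;> rcases j with j | j
    · by_cases hij : i = j
      · subst hij; simp [ha]
      · simp [hij]
    · simp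
    · simp
    · by_cases hij : i = j
      · subst hij; simp [ha]
      · simp [hij]
  have hDD : Dx * Dxᴴ = X := by
    rw [hDx, diagonal_conjTranspose, diagonal_mul_diagonal, hX]
    congr 1
    funext i
    simp only [Pi.star_apply, Complex.star_def, Complex.conj_ofReal]
    rw [← Complex.ofReal_mul, Real.mul_self_sqrt (hx i)]
  have hVV : V1 * V1ᴴ = fromBlocks Z 0 0 0 := by
    rw [hV1, fromBlocks_conjTranspose, fromBlocks_multiply, hZ]
    simp
  have hBB : B * Bᴴ = (γ : ℂ) • fromBlocks Z 0 0 0 := by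
    rw [hB, conjTranspose_smul, Matrix.smul_mul, Matrix.mul_smul, smul_smul, hVV,
      Complex.star_def, Complex.conj_ofReal, hss]
  have hCC : C * Cᴴ = ((1 - γ : ℝ) : ℂ) • fromBlocks Z 0 0 0 := by
    rw [hC, conjTranspose_smul, Matrix.smul_mul, Matrix.mul_smul, smul_smul, hVV,
      Complex.star_def, Complex.conj_ofReal, hcc]
  have hAA : A * Aᴴ = fromBlocks X 0 0 0 := by
    rw [hA', fromBlocks_conjTranspose, fromBlocks_multiply]
    simp [hDD]
  have hAC : A * Cᴴ = fromBlocks ((c : ℂ) • Y) 0 0 0 := by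
    rw [hA', hC, conjTranspose_smul, Complex.star_def, Complex.conj_ofReal, Matrix.mul_smul,
      hV1, fromBlocks_conjTranspose, fromBlocks_multiply]
    simp [fromBlocks_smul, ← hY]
  have hCA : C * Aᴴ = fromBlocks ((c : ℂ) • Yᴴ) 0 0 0 := by
    have := congrArg conjTranspose hAC
    rw [conjTranspose_mul, conjTranspose_conjTranspose, fromBlocks_conjTranspose,
      conjTranspose_smul, Complex.star_def, Complex.conj_ofReal] at this
    simpa using this
  have hWp : (fromBlocks Z 0 0 0 : Matrix (m ⊕ m) (m ⊕ m) ℂ).PosSemidef :=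
    posSemidef_fromBlocks hZp PosSemidef.zero
  have heta0 : eta (0 : Matrix m m ℂ) = 0 := by
    have := eta_smul (PosSemidef.zero : (0 : Matrix m m ℂ).PosSemidef) (le_refl (0 : ℝ))
    simpa using this
  have hWeta : eta (fromBlocks Z 0 0 0 : Matrix (m ⊕ m) (m ⊕ m) ℂ) = eta Z := by
    rw [eta_fromBlocks hZp PosSemidef.zero, heta0, add_zero]
  have hWtr : (fromBlocks Z 0 0 0 : Matrix (m ⊕ m) (m ⊕ m) ℂ).trace.re = Z.trace.re := by
    simp [trace, Fintype.sum_sum_type]
  have eB : eta (B * Bᴴ) = γ * eta Z + Real.negMulLog γ * Z.trace.re := by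
    rw [hBB, eta_smul hWp hγ.1, hWeta, hWtr]
  have eC : eta (Cᴴ * C) = (1 - γ) * eta Z + Real.negMulLog (1 - γ) * Z.trace.re := by
    rw [← eta_mul_conjTranspose, hCC, eta_smul hWp (by linarith [hγ.2]), hWeta, hWtr]
  have k1 := key_entropy a B C
  have hBp : (B * Bᴴ).PosSemidef := posSemidef_self_mul_conjTranspose B
  have hCp : (Cᴴ * C).PosSemidef := posSemidef_conjTranspose_mul_self C
  have k2 := phi_superadd Finset.univ (fun i => a i ^ 2) (fun i => ((B * Bᴴ) i i).re)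
    (fun i => ((Cᴴ * C) i i).re) (fun i _ => sq_nonneg _)
    (fun i _ => (Complex.le_def.1 (hBp.diag_nonneg (i := i))).1)
    (fun i _ => (Complex.le_def.1 (hCp.diag_nonneg (i := i))).1)
  have s1 : ∑ i, a i ^ 2 = ∑ i, x i := by
    rw [Fintype.sum_sum_type]
    simp only [ha, Sum.elim_inl, Sum.elim_inr]
    simp [Real.sq_sqrt (hx _)]
  have s2 : ∑ i, ((B * Bᴴ) i i).re = γ * Z.trace.re := by
    rw [← Complex.re_sum]
    change (B * Bᴴ).trace.re = _
    rw [hBB, trace_smul, smul_eq_mul, Complex.re_ofReal_mul, hWtr]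
  have s3 : ∑ i, ((Cᴴ * C) i i).re = (1 - γ) * Z.trace.re := by
    rw [← Complex.re_sum]
    change (Cᴴ * C).trace.re = _
    rw [trace_mul_comm, hCC, trace_smul, smul_eq_mul, Complex.re_ofReal_mul, hWtr]
  have s4 : ∑ i, Real.negMulLog (a i ^ 2) = eta X := by
    rw [hX, eta_diagonal x hx, Fintype.sum_sum_type]
    simp only [ha, Sum.elim_inl, Sum.elim_inr]
    simp [Real.sq_sqrt (hx _)]
  -- the left-hand matrix
  have eV : eta (fromBlocks A B C 0 * (fromBlocks A B C 0)ᴴ) = eta (gadBlock γ 0 X Y Yᴴ Z) := by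
    have e1 : fromBlocks A B C 0 * (fromBlocks A B C 0)ᴴ =
        fromBlocks (fromBlocks (X + (γ : ℂ) • Z) 0 0 0) (fromBlocks ((c : ℂ) • Y) 0 0 0)
          (fromBlocks ((c : ℂ) • Yᴴ) 0 0 0) (fromBlocks (((1 - γ : ℝ) : ℂ) • Z) 0 0 0) := by
      rw [fromBlocks_conjTranspose, fromBlocks_multiply, hAA, hBB, hCC, hAC, hCA]
      simp [fromBlocks_smul, fromBlocks_add]
    have e2 : (fromBlocks A B C 0 * (fromBlocks A B C 0)ᴴ).submatrix (Equiv.sumSumSumComm m m m m)
        (Equiv.sumSumSumComm m m m m) = fromBlocks (gadBlock γ 0 X Y Yᴴ Z) 0 0 0 := by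
      rw [e1, gadBlock_zero]
      ext i j
      rcases i with (i | i) | (i | i) <;> rcases j with (j | j) | (j | j) <;>
        simp [fromBlocks, hc]
    have hp := posSemidef_self_mul_conjTranspose (fromBlocks A B C (0 : Matrix (m ⊕ m) (m ⊕ m) ℂ))
    have hgp : (gadBlock γ 0 X Y Yᴴ Z).PosSemidef := by
      have h1 := hp.submatrix (Equiv.sumSumSumComm m m m m)
      rw [e2] at h1
      exact h1.submatrix (Sum.inl : m ⊕ m → (m ⊕ m) ⊕ (m ⊕ m))
    have heta0' : eta (0 : Matrix (m ⊕ m) (m ⊕ m) ℂ) = 0 := by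
      have := eta_smul (PosSemidef.zero : (0 : Matrix (m ⊕ m) (m ⊕ m) ℂ).PosSemidef)
        (le_refl (0 : ℝ))
      simpa using this
    rw [← eta_submatrix hp (Equiv.sumSumSumComm m m m m), e2,
      eta_fromBlocks hgp PosSemidef.zero, heta0', add_zero]
  rw [← hA, eV, eB, eC] at k1
  have hdd : dd γ 0 (∑ i, x i) Z.trace.re = (γ * Z.trace.re) * ((1 - γ) * Z.trace.re) := by
    unfold dd; ring
  have l1 : Real.negMulLog (γ * Z.trace.re) =
      Z.trace.re * Real.negMulLog γ + γ * Real.negMulLog Z.trace.re := Real.negMulLog_mul _ _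
  have l2 : Real.negMulLog ((1 - γ) * Z.trace.re) =
      Z.trace.re * Real.negMulLog (1 - γ) + (1 - γ) * Real.negMulLog Z.trace.re :=
    Real.negMulLog_mul _ _
  have l3 : (∑ i, x i) + γ * Z.trace.re + (1 - γ) * Z.trace.re = (∑ i, x i) + Z.trace.re := by
    ring
  rw [s1, s2, s3, l1, l2, l3] at k2
  rw [hdd]
  have k3 : ∑ i, (ent2 (a i ^ 2 + ((B * Bᴴ) i i).re + ((Cᴴ * C) i i).re)
      (((B * Bᴴ) i i).re * ((Cᴴ * C) i i).re) - Real.negMulLog (a i ^ 2)
      - Real.negMulLog ((B * Bᴴ) i i).re - Real.negMulLog ((Cᴴ * C) i i).re) =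
      ∑ i, (ent2 (a i ^ 2 + ((B * Bᴴ) i i).re + ((Cᴴ * C) i i).re)
        (((B * Bᴴ) i i).re * ((Cᴴ * C) i i).re)
        - Real.negMulLog ((B * Bᴴ) i i).re - Real.negMulLog ((Cᴴ * C) i i).re) - eta X := by
    rw [← s4, ← Finset.sum_sub_distrib]
    refine Finset.sum_congr rfl fun i _ => ?_
    ring
  rw [k3] at k2
  linarith

theorem keyIneq_zero {γ : ℝ} (hγ : γ ∈ Set.Icc (0 : ℝ) 1) : KeyIneq γ 0 := by
  intro m _ _ X Y Z h
  have hX : X.PosSemidef := h.submatrix (Sum.inl : m → m ⊕ m)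
  have hZ : Z.PosSemidef := h.submatrix (Sum.inr : m → m ⊕ m)
  set U : Matrix m m ℂ := (hX.isHermitian.eigenvectorUnitary : Matrix m m ℂ) with hU
  set x : m → ℝ := hX.isHermitian.eigenvalues with hx
  have hUU : Uᴴ * U = 1 := Unitary.star_mul_self_of_mem hX.isHermitian.eigenvectorUnitary.2
  have hUU' : U * Uᴴ = 1 := Unitary.mul_star_self_of_mem hX.isHermitian.eigenvectorUnitary.2
  have hspec : X = U * (diagonal fun i => (x i : ℂ)) * Uᴴ := by
    have e := hX.isHermitian.spectral_theorem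
    rw [Unitary.conjStarAlgAut_apply] at e
    exact e
  have hX' : Uᴴ * X * U = diagonal fun i => (x i : ℂ) := by
    calc Uᴴ * X * U = Uᴴ * (U * (diagonal fun i => (x i : ℂ)) * Uᴴ) * U := by rw [← hspec]
      _ = (Uᴴ * U) * (diagonal fun i => (x i : ℂ)) * (Uᴴ * U) := by simp only [mul_assoc]
      _ = _ := by rw [hUU, one_mul, mul_one]
  set W : Matrix (m ⊕ m) (m ⊕ m) ℂ := fromBlocks U 0 0 U with hW
  have hWW : W * Wᴴ = 1 := by
    rw [hW, fromBlocks_conjTranspose, fromBlocks_multiply]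
    simp [hUU']
  have conj : ∀ P Q R S : Matrix m m ℂ, Wᴴ * fromBlocks P Q R S * W =
      fromBlocks (Uᴴ * P * U) (Uᴴ * Q * U) (Uᴴ * R * U) (Uᴴ * S * U) := by
    intro P Q R S
    rw [hW, fromBlocks_conjTranspose, fromBlocks_multiply, fromBlocks_multiply]
    simp
  have h1 : (fromBlocks (diagonal fun i => (x i : ℂ)) (Uᴴ * Y * U) (Uᴴ * Y * U)ᴴ
      (Uᴴ * Z * U)).PosSemidef := by
    have h2 := h.conjTranspose_mul_mul_same W
    rw [conj, hX'] at h2
    have e : (Uᴴ * Y * U)ᴴ = Uᴴ * Yᴴ * U := by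
      rw [conjTranspose_mul, conjTranspose_mul, conjTranspose_conjTranspose, mul_assoc]
    rw [e]
    exact h2
  have k := key_diag hγ x hX.eigenvalues_nonneg _ _ h1
  have e1 : eta (diagonal fun i => (x i : ℂ)) = eta X := by
    rw [eta_diagonal x hX.eigenvalues_nonneg, eta_eq hX.isHermitian]
  have e2 : eta (Uᴴ * Z * U) = eta Z := by
    have := eta_unitary (U := Uᴴ) hZ (by rw [conjTranspose_conjTranspose]; exact hUU')
    rwa [conjTranspose_conjTranspose] at this
  have e3 : (Uᴴ * Z * U).trace = Z.trace := by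
    rw [trace_mul_cycle, hUU', one_mul]
  have e4 : ∑ i, x i = X.trace.re := (trace_re_eq hX.isHermitian).symm
  have e5 : gadBlock γ 0 (diagonal fun i => (x i : ℂ)) (Uᴴ * Y * U) (Uᴴ * Y * U)ᴴ (Uᴴ * Z * U) =
      Wᴴ * gadBlock γ 0 X Y Yᴴ Z * W := by
    have e : (Uᴴ * Y * U)ᴴ = Uᴴ * Yᴴ * U := by
      rw [conjTranspose_mul, conjTranspose_mul, conjTranspose_conjTranspose, mul_assoc]
    rw [gadBlock_zero, gadBlock_zero, conj, e, ← hX']
    simp only [mul_add, add_mul, Matrix.mul_smul, Matrix.smul_mul]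
  have hgp : (gadBlock γ 0 X Y Yᴴ Z).PosSemidef := by
    -- Kraus form
    have e6 : gadBlock γ 0 X Y Yᴴ Z =
        fromBlocks 1 0 0 (((Real.sqrt (1 - γ) : ℝ) : ℂ) • (1 : Matrix m m ℂ)) *
          fromBlocks X Y Yᴴ Z *
          (fromBlocks 1 0 0 (((Real.sqrt (1 - γ) : ℝ) : ℂ) • (1 : Matrix m m ℂ)))ᴴ +
        fromBlocks ((γ : ℂ) • Z) 0 0 0 := by
      have hcc : ((Real.sqrt (1 - γ) : ℝ) : ℂ) * ((Real.sqrt (1 - γ) : ℝ) : ℂ) =
          ((1 - γ : ℝ) : ℂ) := by
        rw [← Complex.ofReal_mul, Real.mul_self_sqrt (by linarith [hγ.2])]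
      rw [gadBlock_zero, fromBlocks_conjTranspose, fromBlocks_multiply, fromBlocks_multiply,
        fromBlocks_add]
      simp only [conjTranspose_smul, conjTranspose_one, conjTranspose_zero, Complex.star_def,
        Complex.conj_ofReal, one_mul, zero_mul, mul_zero, mul_one, add_zero, zero_add,
        Matrix.smul_mul, Matrix.mul_smul, smul_smul, hcc]
    rw [e6]
    refine (h.mul_mul_conjTranspose_same _).add (posSemidef_fromBlocks ?_ PosSemidef.zero)
    have := hZ.smul hγ.1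
    rwa [Complex.coe_smul]
  have e7 : eta (Wᴴ * gadBlock γ 0 X Y Yᴴ Z * W) = eta (gadBlock γ 0 X Y Yᴴ Z) := by
    have := eta_unitary (U := Wᴴ) hgp (by rw [conjTranspose_conjTranspose]; exact hWW)
    rwa [conjTranspose_conjTranspose] at this
  rw [e1, e2, e3, e4, e5, e7] at k
  exact k

theorem keyIneq_one {γ : ℝ} (hγ : γ ∈ Set.Icc (0 : ℝ) 1) : KeyIneq γ 1 := by
  intro m _ _ X Y Z h
  have h1 : (fromBlocks Z Yᴴ Yᴴᴴ X).PosSemidef := by
    have h2 := h.submatrix (Equiv.sumComm m m)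
    have e : (fromBlocks X Y Yᴴ Z).submatrix (Equiv.sumComm m m) (Equiv.sumComm m m) =
        fromBlocks Z Yᴴ Yᴴᴴ X := by
      ext i j
      rcases i with i | i <;> rcases j with j | j <;> simp
    rwa [e] at h2
  have k := keyIneq_zero hγ m Z Yᴴ X h1
  have e1 : (gadBlock γ 0 Z Yᴴ Yᴴᴴ X) =
      (gadBlock γ 1 X Y Yᴴ Z).submatrix (Equiv.sumComm m m) (Equiv.sumComm m m) := by
    rw [gadBlock_zero]
    unfold gadBlock
    ext i j
    rcases i with i | i <;> rcases j with j | j <;> simp [add_comm]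
  have hgp : (gadBlock γ 1 X Y Yᴴ Z).PosSemidef := by
    have hX : X.PosSemidef := h.submatrix (Sum.inl : m → m ⊕ m)
    have e6 : gadBlock γ 1 X Y Yᴴ Z =
        fromBlocks (((Real.sqrt (1 - γ) : ℝ) : ℂ) • (1 : Matrix m m ℂ)) 0 0 1 *
          fromBlocks X Y Yᴴ Z *
          (fromBlocks (((Real.sqrt (1 - γ) : ℝ) : ℂ) • (1 : Matrix m m ℂ)) 0 0 1)ᴴ +
        fromBlocks 0 0 0 ((γ : ℂ) • X) := by
      have hcc : ((Real.sqrt (1 - γ) : ℝ) : ℂ) * ((Real.sqrt (1 - γ) : ℝ) : ℂ) =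
          ((1 - γ : ℝ) : ℂ) := by
        rw [← Complex.ofReal_mul, Real.mul_self_sqrt (by linarith [hγ.2])]
      unfold gadBlock
      rw [fromBlocks_conjTranspose, fromBlocks_multiply, fromBlocks_multiply,
        fromBlocks_add]
      simp only [conjTranspose_smul, conjTranspose_one, conjTranspose_zero, Complex.star_def,
        Complex.conj_ofReal, one_mul, zero_mul, mul_zero, mul_one, add_zero, zero_add,
        Matrix.smul_mul, Matrix.mul_smul, smul_smul, hcc, sub_self, Complex.ofReal_zero,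
        zero_smul, sub_zero, Complex.ofReal_one, one_smul]
      rw [add_comm Z]
    rw [e6]
    refine (h.mul_mul_conjTranspose_same _).add (posSemidef_fromBlocks PosSemidef.zero ?_)
    have := hX.smul hγ.1
    rwa [Complex.coe_smul]
  rw [e1, eta_submatrix hgp] at k
  have hdd : dd γ 0 Z.trace.re X.trace.re = dd γ 1 X.trace.re Z.trace.re := by
    unfold dd; ring
  rw [hdd, add_comm Z.trace.re] at k
  linarith

end Vale.Agent.Lib.P358
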