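import Vale.Agent.Lib.P358.Basic

/-!
# P358: skeleton (exact statements of the modules)

Each module is its own file `Vale/Agent/Lib/P358/<Module>.lean`, importing `Basic` and the modules it
needs; the statements below (and their names) must be kept.
-/

namespace Vale.Agent.Lib.P358

open Matrix Vale.Agent.AmplitudeDamping
open scoped ComplexOrder

section ENT
/-! ## Module ENT (Ent.lean) -/

/-- Balanced sums. Proof: for `R ≥ 0` put
`J_R(l) = (R + l) log (R + l) - R log R + negMulLog l` (so `J_0 = 0`, `d/dR J_R(l) = log (1 + l/R)`).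
`F(R) = ∑ e i * J_R(l i)` is continuous on `[0,∞)`, monotone, `F 0 = 0`, and
`F(R) → ∑ e i * (l i + negMulLog (l i)) + (∑ e i * l i) * log R` as `R → ∞`. -/
theorem balanced {κ : Type*} [Fintype κ] (e l : κ → ℝ) (hl : ∀ i, 0 ≤ l i)
    (h0 : ∑ i, e i * l i = 0)
    (hr : ∀ r : ℝ, 0 < r → 0 ≤ ∑ i, e i * Real.log (1 + l i / r)) :
    0 ≤ ∑ i, e i * Real.negMulLog (l i) := by
  sorry

theorem ld_eq {ι : Type*} [Fintype ι] [DecidableEq ι] {M : Matrix ι ι ℂ} (hM : M.PosSemidef)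
    {r : ℝ} (hr : 0 < r) :
    ld M r = ∑ i, Real.log (1 + hM.isHermitian.eigenvalues i / r) := by
  sorry

/-- comparison of unnormalised entropies of six matrices -/
theorem eta_le6 {a b c a' b' c' : Type*} [Fintype a] [DecidableEq a] [Fintype b] [DecidableEq b]
    [Fintype c] [DecidableEq c] [Fintype a'] [DecidableEq a'] [Fintype b'] [DecidableEq b']
    [Fintype c'] [DecidableEq c'] {A : Matrix a a ℂ} {B : Matrix b b ℂ} {C : Matrix c c ℂ}
    {A' : Matrix a' a' ℂ} {B' : Matrix b' b' ℂ} {C' : Matrix c' c' ℂ}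
    (hA : A.PosSemidef) (hB : B.PosSemidef) (hC : C.PosSemidef) (hA' : A'.PosSemidef)
    (hB' : B'.PosSemidef) (hC' : C'.PosSemidef)
    (h0 : A.trace.re + B.trace.re + C.trace.re = A'.trace.re + B'.trace.re + C'.trace.re)
    (hr : ∀ r : ℝ, 0 < r → ld A r + ld B r + ld C r ≤ ld A' r + ld B' r + ld C' r) :
    eta A + eta B + eta C ≤ eta A' + eta B' + eta C' := by
  sorry

/-- `eta` is determined by the trace and the determinants `det (1 + M / r)` -/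
theorem eta_congr {a b : Type*} [Fintype a] [DecidableEq a] [Fintype b] [DecidableEq b]
    {A : Matrix a a ℂ} {B : Matrix b b ℂ} (hA : A.PosSemidef) (hB : B.PosSemidef)
    (h0 : A.trace.re = B.trace.re) (hr : ∀ r : ℝ, 0 < r → ld A r = ld B r) : eta A = eta B := by
  sorry

theorem eta_diagonal {a : Type*} [Fintype a] [DecidableEq a] (d : a → ℝ) (hd : ∀ i, 0 ≤ d i) :
    eta (diagonal fun i => (d i : ℂ)) = ∑ i, Real.negMulLog (d i) := by
  sorry

theorem eta_fromBlocks {a b : Type*} [Fintype a] [DecidableEq a] [Fintype b] [DecidableEq b]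
    {A : Matrix a a ℂ} {B : Matrix b b ℂ} (hA : A.PosSemidef) (hB : B.PosSemidef) :
    eta (fromBlocks A 0 0 B) = eta A + eta B := by
  sorry

theorem eta_mul_conjTranspose {a b : Type*} [Fintype a] [DecidableEq a] [Fintype b]
    [DecidableEq b] (V : Matrix a b ℂ) : eta (V * Vᴴ) = eta (Vᴴ * V) := by
  sorry

theorem eta_unitary {a : Type*} [Fintype a] [DecidableEq a] {M U : Matrix a a ℂ}
    (hM : M.PosSemidef) (hU : Uᴴ * U = 1) : eta (U * M * Uᴴ) = eta M := by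
  sorry

theorem eta_submatrix {a b : Type*} [Fintype a] [DecidableEq a] [Fintype b] [DecidableEq b]
    {M : Matrix a a ℂ} (hM : M.PosSemidef) (e : b ≃ a) : eta (M.submatrix e e) = eta M := by
  sorry

theorem eta_smul {a : Type*} [Fintype a] [DecidableEq a] {M : Matrix a a ℂ}
    (hM : M.PosSemidef) {c : ℝ} (hc : 0 ≤ c) :
    eta ((c : ℂ) • M) = c * eta M + Real.negMulLog c * M.trace.re := by
  sorry

theorem entropy_eq {a : Type*} [Fintype a] [DecidableEq a] (M : Matrix a a ℂ) :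
    entropy M = eta M / Real.log 2 := by
  sorry

/-- 2 × 2 positive semidefinite matrices -/
theorem eta_two {M : Matrix (Fin 2) (Fin 2) ℂ} (hM : M.PosSemidef) :
    eta M = ent2 M.trace.re M.det.re := by
  sorry

end ENT

section HUA
/-! ## Module HUA (Hua.lean) -/

/-- Hua's inequality for `W`: `|det (1 - W²)| ≥ det (1 - Wᴴ W)` for strict contractions.
Hua's identity: with `E = (1 - Wᴴ W)⁻¹`, `F = (1 - W Wᴴ)⁻¹`:
`(1 - Wᴴ²) F (1 - W²) = (1 - Wᴴ W) + (W - Wᴴ) E (Wᴴ - W)`. -/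
theorem hua {n : Type*} [Fintype n] [DecidableEq n] (W : Matrix n n ℂ)
    (hW : (1 - Wᴴ * W).PosDef) : ‖(1 - Wᴴ * W).det‖ ≤ ‖(1 - W * W).det‖ := by
  sorry

/-- Midpoint convexity of `M ↦ log |det (M + K)| - log |det M|` for skew-Hermitian `K`. -/
theorem midpoint {n : Type*} [Fintype n] [DecidableEq n] (M H K : Matrix n n ℂ)
    (hM1 : (M + H).PosDef) (hM2 : (M - H).PosDef) (hK : Kᴴ = -K) :
    ‖(M + K).det‖ ^ 2 * (‖(M + H).det‖ * ‖(M - H).det‖) ≤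
      ‖(M + H + K).det‖ * ‖(M - H + K).det‖ * ‖M.det‖ ^ 2 := by
  sorry

/-- Pinching: `Mc` keeps the entries of `M` with equal labels; `K` is skew-Hermitian and has only
entries with equal labels. -/
theorem pinch_label {n L : Type*} [Fintype n] [DecidableEq n] [DecidableEq L] (c : n → L)
    (M K : Matrix n n ℂ) (hM : M.PosDef) (hK : Kᴴ = -K)
    (hKc : ∀ i j, c i ≠ c j → K i j = 0) :
    ‖((Matrix.of fun i j => if c i = c j then M i j else 0) + K).det‖ * ‖M.det‖ ≤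
      ‖(M + K).det‖ * ‖(Matrix.of fun i j => if c i = c j then M i j else 0).det‖ := by
  sorry

end HUA

section KEYDET
/-! ## Module KEYDET (KeyDet.lean), uses `pinch_label` -/

/-- Proof: `det (1 + V Vᴴ / r)` is the determinant of `fromBlocks 1 V' (-V'ᴴ) 1`, `V' = V / √r`
(`Matrix.det_fromBlocks_one₂₂`), reorder the index set to `(row block 0, column block 0)` and
`(row block 1, column block 1)` and take the Schur complement of the second part (again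
`Matrix.det_fromBlocks_one₂₂`): it equals
`det (fromBlocks (1 + B Bᴴ/r) (A/√r) (-A/√r) (1 + Cᴴ C/r))`, `A = diagonal a`.  This is
`det (M + K)`, `M = fromBlocks (1 + B Bᴴ/r) 0 0 (1 + Cᴴ C/r)`, and the pinched matrix consists of
the `2 × 2` blocks `!![1 + p/r, a/√r; -a/√r, 1 + q/r]`. -/
theorem key_pointwise {m : Type*} [Fintype m] [DecidableEq m] (a : m → ℝ) (B C : Matrix m m ℂ)
    (r : ℝ) (hr : 0 < r) :
    ∑ i, (Real.log (1 + (a i ^ 2 + ((B * Bᴴ) i i).re + ((Cᴴ * C) i i).re) / r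
            + ((B * Bᴴ) i i).re * ((Cᴴ * C) i i).re / r ^ 2)
          - Real.log (1 + ((B * Bᴴ) i i).re / r) - Real.log (1 + ((Cᴴ * C) i i).re / r)) ≤
      ld (fromBlocks (diagonal fun i => (a i : ℂ)) B C 0 *
          (fromBlocks (diagonal fun i => (a i : ℂ)) B C 0)ᴴ) r
        - ld (B * Bᴴ) r - ld (Cᴴ * C) r := by
  sorry

end KEYDET

section SCALAR
/-! ## Module SCALAR (Scalar.lean), uses `balanced` -/

/-- `ent2` through `balanced`: for `0 ≤ D`, `4 D ≤ t²`, `0 ≤ t` the two numbers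
`μ± = (t ± √(t² - 4D))/2` are nonnegative, have sum `t` and
`(1 + μ₊/r)(1 + μ₋/r) = 1 + t/r + D/r²`.

Superadditivity of `phi(x,y,z) = ent2 (x+y+z) (y z) - η x - η y - η z`.  For fixed `x` it is convex
in `(y,z)` and decreasing in `y`, `z`, pointwise in the resolvent parameter:
`log (1 + (x+y+z)/r + y z/r²) - log (1 + y/r) - log (1 + z/r) = log (1 + r x / ((r+y)(r+z)))`;
and `phi` is homogeneous of degree one (the logs cancel), so
`∑ phi(x_i,y_i,z_i) = ∑ x_i phi(1, y_i/x_i, z_i/x_i) ≥ X phi(1, Y/X, Z/X)`. -/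
theorem phi_superadd {κ : Type*} (s : Finset κ) (x y z : κ → ℝ) (hx : ∀ i ∈ s, 0 ≤ x i)
    (hy : ∀ i ∈ s, 0 ≤ y i) (hz : ∀ i ∈ s, 0 ≤ z i) :
    ent2 (∑ i ∈ s, x i + ∑ i ∈ s, y i + ∑ i ∈ s, z i) ((∑ i ∈ s, y i) * ∑ i ∈ s, z i)
        - Real.negMulLog (∑ i ∈ s, x i) - Real.negMulLog (∑ i ∈ s, y i)
        - Real.negMulLog (∑ i ∈ s, z i) ≤
      ∑ i ∈ s, (ent2 (x i + y i + z i) (y i * z i) - Real.negMulLog (x i)
        - Real.negMulLog (y i) - Real.negMulLog (z i)) := by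
  sorry

theorem ent2_mono {t c c' : ℝ} (hc : 0 ≤ c) (h : c ≤ c') (ht : 2 * c' ≤ t) :
    ent2 t (c ^ 2) ≤ ent2 t (c' ^ 2) := by
  sorry

/-- `w(t,c) = ent2 t c² - η t` is homogeneous of degree one and for fixed `c` convex and decreasing
in `t` pointwise in the resolvent parameter: `log (1 + t/r + c²/r²) - log (1 + t/r) =
log (1 + c²/(r (r + t)))`. -/
theorem w_superadd {κ : Type*} (s : Finset κ) (t c : κ → ℝ) (hc : ∀ i ∈ s, 0 ≤ c i)
    (ht : ∀ i ∈ s, 2 * c i ≤ t i) :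
    ent2 (∑ i ∈ s, t i) ((∑ i ∈ s, c i) ^ 2) - Real.negMulLog (∑ i ∈ s, t i) ≤
      ∑ i ∈ s, (ent2 (t i) (c i ^ 2) - Real.negMulLog (t i)) := by
  sorry

/-- `√(dd)` is a seminorm, `4 dd ≤ (x+z)²`; combine with the previous two. -/
theorem dd_superadd {γ ν : ℝ} (hγ : γ ∈ Set.Icc (0 : ℝ) 1) (hν : ν ∈ Set.Icc (0 : ℝ) 1)
    {x z x' z' : ℝ} (hx : 0 ≤ x) (hz : 0 ≤ z) (hx' : 0 ≤ x') (hz' : 0 ≤ z') :
    ent2 (x + x' + (z + z')) (dd γ ν (x + x') (z + z')) - Real.negMulLog (x + x' + (z + z')) ≤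
      (ent2 (x + z) (dd γ ν x z) - Real.negMulLog (x + z)) +
      (ent2 (x' + z') (dd γ ν x' z') - Real.negMulLog (x' + z')) := by
  sorry

end SCALAR

section KEYAD
/-! ## Module KEYAD (KeyAD.lean), uses ENT, KEYDET, SCALAR -/

/-- Factorisation of a positive semidefinite block matrix with diagonal upper left block
(approximate `X` by `X + ε` and use the Schur complement, or argue directly). -/
theorem factor_diag {m : Type*} [Fintype m] [DecidableEq m] (x : m → ℝ) (hx : ∀ i, 0 ≤ x i)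
    (Y Z : Matrix m m ℂ) (h : (fromBlocks (diagonal fun i => (x i : ℂ)) Y Yᴴ Z).PosSemidef) :
    ∃ K R : Matrix m m ℂ, Y = (diagonal fun i => ((Real.sqrt (x i) : ℝ) : ℂ)) * K ∧
      Z = Kᴴ * K + R * Rᴴ := by
  sorry

theorem keyIneq_zero {γ : ℝ} (hγ : γ ∈ Set.Icc (0 : ℝ) 1) : KeyIneq γ 0 := by
  sorry

theorem keyIneq_one {γ : ℝ} (hγ : γ ∈ Set.Icc (0 : ℝ) 1) : KeyIneq γ 1 := by
  sorry

end KEYAD

section TENSOR
/-! ## Module TENSOR (Tensor.lean) -/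

/-- Kraus operators of `gad γ ν` -/
noncomputable def kraus (γ ν : ℝ) : Fin 4 → Matrix (Fin 2) (Fin 2) ℂ :=
  ![!![((Real.sqrt (1 - ν) : ℝ) : ℂ), 0; 0, ((Real.sqrt (1 - ν) * Real.sqrt (1 - γ) : ℝ) : ℂ)],
    !![0, ((Real.sqrt (1 - ν) * Real.sqrt γ : ℝ) : ℂ); 0, 0],
    !![((Real.sqrt ν * Real.sqrt (1 - γ) : ℝ) : ℂ), 0; 0, ((Real.sqrt ν : ℝ) : ℂ)],
    !![0, 0; ((Real.sqrt ν * Real.sqrt γ : ℝ) : ℂ), 0]]

/-- product Kraus operators -/
noncomputable def krausPow (γ ν : ℝ) (n : ℕ) (w : Fin n → Fin 4) :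
    Matrix (Fin n → Fin 2) (Fin n → Fin 2) ℂ :=
  fun i k => ∏ s, kraus γ ν (w s) (i s) (k s)

theorem tensorPow_eq_kraus {γ ν : ℝ} (hγ : γ ∈ Set.Icc (0 : ℝ) 1) (hν : ν ∈ Set.Icc (0 : ℝ) 1)
    (n : ℕ) (M : Matrix (Fin n → Fin 2) (Fin n → Fin 2) ℂ) :
    tensorPow (gad γ ν) n M = ∑ w, krausPow γ ν n w * M * (krausPow γ ν n w)ᴴ := by
  sorry

theorem tensorPow_posSemidef {γ ν : ℝ} (hγ : γ ∈ Set.Icc (0 : ℝ) 1)
    (hν : ν ∈ Set.Icc (0 : ℝ) 1) (n : ℕ) {M : Matrix (Fin n → Fin 2) (Fin n → Fin 2) ℂ}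
    (hM : M.PosSemidef) : (tensorPow (gad γ ν) n M).PosSemidef := by
  sorry

/-- complete positivity -/
theorem tensorPow_fromBlocks_posSemidef {γ ν : ℝ} (hγ : γ ∈ Set.Icc (0 : ℝ) 1)
    (hν : ν ∈ Set.Icc (0 : ℝ) 1) (n : ℕ)
    {X Y Y' Z : Matrix (Fin n → Fin 2) (Fin n → Fin 2) ℂ}
    (hM : (fromBlocks X Y Y' Z).PosSemidef) :
    (fromBlocks (tensorPow (gad γ ν) n X) (tensorPow (gad γ ν) n Y) (tensorPow (gad γ ν) n Y')
      (tensorPow (gad γ ν) n Z)).PosSemidef := by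
  sorry

theorem tensorPow_trace (γ ν : ℝ) (n : ℕ) (M : Matrix (Fin n → Fin 2) (Fin n → Fin 2) ℂ) :
    (tensorPow (gad γ ν) n M).trace = M.trace := by
  sorry

theorem tensorPow_zero (Φ : Matrix (Fin 2) (Fin 2) ℂ → Matrix (Fin 2) (Fin 2) ℂ)
    (M : Matrix (Fin 0 → Fin 2) (Fin 0 → Fin 2) ℂ) : tensorPow Φ 0 M = M := by
  sorry

/-- the first qubit split off -/
theorem tensorPow_succ_blk (γ ν : ℝ) (n : ℕ)
    (M : Matrix (Fin (n + 1) → Fin 2) (Fin (n + 1) → Fin 2) ℂ) :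
    fromBlocks (blk (tensorPow (gad γ ν) (n + 1) M) 0 0) (blk (tensorPow (gad γ ν) (n + 1) M) 0 1)
        (blk (tensorPow (gad γ ν) (n + 1) M) 1 0) (blk (tensorPow (gad γ ν) (n + 1) M) 1 1) =
      gadBlock γ ν (tensorPow (gad γ ν) n (blk M 0 0)) (tensorPow (gad γ ν) n (blk M 0 1))
        (tensorPow (gad γ ν) n (blk M 1 0)) (tensorPow (gad γ ν) n (blk M 1 1)) := by
  sorry

/-- block form as a reindexing -/
theorem exists_equiv_blk (n : ℕ) : ∃ e : (Fin n → Fin 2) ⊕ (Fin n → Fin 2) ≃ (Fin (n + 1) → Fin 2),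
    ∀ M : Matrix (Fin (n + 1) → Fin 2) (Fin (n + 1) → Fin 2) ℂ,
      M.submatrix e e = fromBlocks (blk M 0 0) (blk M 0 1) (blk M 1 0) (blk M 1 1) := by
  sorry

theorem pop_tensorPow {γ ν : ℝ} (hγ : γ ∈ Set.Icc (0 : ℝ) 1) (hν : ν ∈ Set.Icc (0 : ℝ) 1)
    (n : ℕ) (M : Matrix (Fin n → Fin 2) (Fin n → Fin 2) ℂ) (s : Fin n) :
    pop (tensorPow (gad γ ν) n M) s 1 =
      γ * ν * pop M s 0 + (1 - γ * (1 - ν)) * pop M s 1 := by
  sorry

theorem pop_nonneg {n : ℕ} {M : Matrix (Fin n → Fin 2) (Fin n → Fin 2) ℂ} (hM : M.PosSemidef)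
    (s : Fin n) (b : Fin 2) : 0 ≤ pop M s b := by
  sorry

theorem pop_add {n : ℕ} (M : Matrix (Fin n → Fin 2) (Fin n → Fin 2) ℂ) (s : Fin n) :
    pop M s 0 + pop M s 1 = M.trace.re := by
  sorry

theorem pop_blk_zero {n : ℕ} (M : Matrix (Fin (n + 1) → Fin 2) (Fin (n + 1) → Fin 2) ℂ)
    (b : Fin 2) : pop M 0 b = (blk M b b).trace.re := by
  sorry

theorem pop_blk_succ {n : ℕ} (M : Matrix (Fin (n + 1) → Fin 2) (Fin (n + 1) → Fin 2) ℂ)
    (s : Fin n) (b : Fin 2) : pop M s.succ b = pop (blk M 0 0) s b + pop (blk M 1 1) s b := by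
  sorry

end TENSOR

section CHAIN
/-! ## Module CHAIN (Chain.lean), uses ENT, SCALAR, TENSOR -/

theorem chain {γ ν : ℝ} (hγ : γ ∈ Set.Icc (0 : ℝ) 1) (hν : ν ∈ Set.Icc (0 : ℝ) 1)
    (hkey : KeyIneq γ ν) (n : ℕ) (M : Matrix (Fin n → Fin 2) (Fin n → Fin 2) ℂ)
    (hM : M.PosSemidef) :
    Real.negMulLog M.trace.re +
      ∑ s, (ent2 (pop M s 0 + pop M s 1) (dd γ ν (pop M s 0) (pop M s 1))
        - Real.negMulLog (pop M s 0 + pop M s 1)) ≤ eta (tensorPow (gad γ ν) n M) := by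
  sorry

/-- normalised form -/
theorem entropy_lower {γ ν : ℝ} (hγ : γ ∈ Set.Icc (0 : ℝ) 1) (hν : ν ∈ Set.Icc (0 : ℝ) 1)
    (hkey : KeyIneq γ ν) (n : ℕ) (ρ : Matrix (Fin n → Fin 2) (Fin n → Fin 2) ℂ)
    (hρ : IsDensity ρ) :
    ∑ s, pureEntropy γ ν (pop ρ s 1) ≤ entropy (tensorPow (gad γ ν) n ρ) := by
  sorry

/-- convexity of the output entropy of pure states, from `dd_superadd` and homogeneity -/
theorem pureEntropy_convexOn {γ ν : ℝ} (hγ : γ ∈ Set.Icc (0 : ℝ) 1)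
    (hν : ν ∈ Set.Icc (0 : ℝ) 1) : ConvexOn ℝ (Set.Icc 0 1) (pureEntropy γ ν) := by
  sorry

end CHAIN

section UPPER
/-! ## Module UPPER (Upper.lean) -/

/-- the von Neumann entropy is at most the Shannon entropy of the diagonal -/
theorem eta_le_diag {ι : Type*} [Fintype ι] [DecidableEq ι] {M : Matrix ι ι ℂ}
    (hM : M.PosSemidef) : eta M ≤ ∑ i, Real.negMulLog (M i i).re := by
  sorry

/-- subadditivity -/
theorem entropy_le_pop {n : ℕ} (ρ : Matrix (Fin n → Fin 2) (Fin n → Fin 2) ℂ)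
    (hρ : IsDensity ρ) : entropy ρ ≤ ∑ s, h₂ (pop ρ s 1) := by
  sorry

end UPPER

section ACH
/-! ## Module ACH (Achieve.lean), uses ENT, TENSOR -/

/-- The ensemble of the `2 ^ n` product states with amplitudes `(√(1-q), ± √q)`, equal weights. -/
theorem achieve {γ ν : ℝ} (hγ : γ ∈ Set.Icc (0 : ℝ) 1) (hν : ν ∈ Set.Icc (0 : ℝ) 1)
    {q : ℝ} (hq : q ∈ Set.Icc (0 : ℝ) 1) (n : ℕ) :
    (n : ℝ) * (h₂ ((1 - γ) * q + γ * ν) - pureEntropy γ ν q) ∈
      holevoValues (tensorPow (gad γ ν) n) := by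
  sorry

/-- the one-use quantity on `Fin 2` agrees with the one on `Fin 1 → Fin 2` -/
theorem holevoValues_one (γ ν : ℝ) :
    holevoValues (tensorPow (gad γ ν) 1) = holevoValues (gad γ ν) := by
  sorry

end ACH

section FINAL
/-! ## Module FINAL (Final.lean), uses CHAIN, UPPER, ACH -/

theorem main_of_keyIneq {γ ν : ℝ} (hγ : γ ∈ Set.Icc (0 : ℝ) 1) (hν : ν ∈ Set.Icc (0 : ℝ) 1)
    (hkey : KeyIneq γ ν) :
    (∀ n : ℕ, IsGreatest (holevoValues (tensorPow (gad γ ν) n)) ((n : ℝ) * chi (gad γ ν))) ∧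
    (∀ n : ℕ, chi (tensorPow (gad γ ν) n) = n * chi (gad γ ν)) ∧
    capacity (gad γ ν) = chi (gad γ ν) ∧
    IsGreatest ((fun q => h₂ ((1 - γ) * q + γ * ν) - pureEntropy γ ν q) '' Set.Icc 0 1)
      (capacity (gad γ ν)) := by
  sorry

end FINAL

end Vale.Agent.Lib.P358
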