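import Mathlib

/-!
# The classical capacity of the generalized amplitude-damping channel: definitions

* `gad γ ν` : the generalized amplitude-damping channel on qubit matrices
* `tensorPow Φ n` : the `n`-fold tensor power of a linear map on qubit matrices, acting on matrices
  indexed by bit strings of length `n`
* `IsDensity ρ` : `ρ` is a density matrix
* `entropy ρ` : the von Neumann entropy in bits
* `chi Φ` : the Holevo capacity (supremum of the Holevo quantity over finite ensembles)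
* `capacity Φ` : the classical capacity `sup_{n ≥ 1} chi (Φ^{⊗ n}) / n`
-/

namespace Vale.Agent.AmplitudeDamping

open scoped ComplexOrder

/-- The generalized amplitude-damping channel with damping strength `γ` and stationary excited
state population `ν`: it maps `!![1 - q, z; conj z, q]` to
`!![1 - t, √(1-γ) z; √(1-γ) conj z, t]` with `t = (1 - γ) q + γ ν`; here it is written for an
arbitrary qubit matrix (not necessarily of trace one), linearly. -/
noncomputable def gad (γ ν : ℝ) (M : Matrix (Fin 2) (Fin 2) ℂ) : Matrix (Fin 2) (Fin 2) ℂ :=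
  !![((1 - γ * ν : ℝ) : ℂ) * M 0 0 + ((γ * (1 - ν) : ℝ) : ℂ) * M 1 1,
      ((Real.sqrt (1 - γ) : ℝ) : ℂ) * M 0 1;
    ((Real.sqrt (1 - γ) : ℝ) : ℂ) * M 1 0,
      ((γ * ν : ℝ) : ℂ) * M 0 0 + ((1 - γ * (1 - ν) : ℝ) : ℂ) * M 1 1]

/-- The `n`-fold tensor power of a linear map `Φ` on qubit matrices: the matrix unit `|k⟩⟨l|`, with
`k`, `l` bit strings, is mapped to the tensor product of the matrices `Φ(|k_s⟩⟨l_s|)`, and this is
extended linearly. -/
noncomputable def tensorPow (Φ : Matrix (Fin 2) (Fin 2) ℂ → Matrix (Fin 2) (Fin 2) ℂ) (n : ℕ)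
    (M : Matrix (Fin n → Fin 2) (Fin n → Fin 2) ℂ) :
    Matrix (Fin n → Fin 2) (Fin n → Fin 2) ℂ :=
  fun i j => ∑ k : Fin n → Fin 2, ∑ l : Fin n → Fin 2,
    (∏ s : Fin n, Φ (Matrix.single (k s) (l s) 1) (i s) (j s)) * M k l

/-- Density matrices: positive semidefinite of trace one. -/
def IsDensity {ι : Type*} [Fintype ι] (ρ : Matrix ι ι ℂ) : Prop :=
  ρ.PosSemidef ∧ ρ.trace = 1

/-- The von Neumann entropy in bits: `-∑ λ log₂ λ` over the eigenvalues with multiplicity
(`Real.negMulLog x = - x * log x`).  It is only used for Hermitian matrices. -/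
noncomputable def entropy {ι : Type*} [Fintype ι] [DecidableEq ι] (ρ : Matrix ι ι ℂ) : ℝ :=
  open Classical in
  if h : ρ.IsHermitian then (∑ i, Real.negMulLog (h.eigenvalues i)) / Real.log 2 else 0

/-- The values of the Holevo quantity of `Φ` over finite ensembles of input states. -/
def holevoValues {ι : Type*} [Fintype ι] [DecidableEq ι] (Φ : Matrix ι ι ℂ → Matrix ι ι ℂ) :
    Set ℝ :=
  {x | ∃ (m : ℕ) (q : Fin m → ℝ) (ρ : Fin m → Matrix ι ι ℂ),
    (∀ a, 0 ≤ q a) ∧ ∑ a, q a = 1 ∧ (∀ a, IsDensity (ρ a)) ∧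
    x = entropy (∑ a, (q a : ℂ) • Φ (ρ a)) - ∑ a, q a * entropy (Φ (ρ a))}

/-- The Holevo capacity. -/
noncomputable def chi {ι : Type*} [Fintype ι] [DecidableEq ι] (Φ : Matrix ι ι ℂ → Matrix ι ι ℂ) :
    ℝ :=
  sSup (holevoValues Φ)

/-- The unassisted classical capacity `sup_{n ≥ 1} chi (Φ^{⊗ n}) / n`. -/
noncomputable def capacity (Φ : Matrix (Fin 2) (Fin 2) ℂ → Matrix (Fin 2) (Fin 2) ℂ) : ℝ :=
  ⨆ n : ℕ, chi (tensorPow Φ (n + 1)) / ((n : ℝ) + 1)

/-- The binary entropy in bits. -/
noncomputable def h₂ (x : ℝ) : ℝ := Real.binEntropy x / Real.log 2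

/-- The output entropy (in bits) of a pure qubit input state with excited-state population `q`
under `gad γ ν`: the output has eigenvalues `(1 ± √(1 - 4 D)) / 2` with determinant
`D = γ ν (1 - ν) + γ (1 - γ) (q - ν)²`. -/
noncomputable def pureEntropy (γ ν q : ℝ) : ℝ :=
  h₂ ((1 + Real.sqrt (1 - 4 * (γ * ν * (1 - ν) + γ * (1 - γ) * (q - ν) ^ 2))) / 2)

end Vale.Agent.AmplitudeDamping
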